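import Mathlib
import Crest.Prelude.Def_Diamond

/-!
# S0166, task T4: distances in the countably branching diamond graphs (pure graph theory)

`D (k+1)` is bipartite between old vertices `Sum.inl u` and new middle vertices `Sum.inr (e, i)`;
the neighbours of `Sum.inr (e, i)` are exactly `Sum.inl (diamondSrc k e)` and
`Sum.inl (diamondTgt k e)`. NB `SimpleGraph.dist` is `0` for unreachable pairs, so reachability has to
be tracked (all diamonds are connected).
-/

set_option autoImplicit false

namespace Crest.Agent.S0166Aux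

open Crest.AnalysisR

/-- the two poles -/
def dBot : (k : ℕ) → DiamondVertex k
  | 0 => false
  | k + 1 => Sum.inl (dBot k)

def dTop : (k : ℕ) → DiamondVertex k
  | 0 => true
  | k + 1 => Sum.inl (dTop k)

theorem diamondSrc_ne_tgt (k : ℕ) (e : DiamondEdge k) : diamondSrc k e ≠ diamondTgt k e := by
  cases k with
  | zero => intro h; exact Bool.false_ne_true h
  | succ k =>
    obtain ⟨e', i, b⟩ := e
    cases b
    · intro h; exact Sum.inl_ne_inr h
    · intro h; exact Sum.inr_ne_inl h

theorem dg_adj_iff (k : ℕ) (u v : DiamondVertex k) :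
    (diamondGraph k).Adj u v ↔ u ≠ v ∧
      ((∃ e : DiamondEdge k, diamondSrc k e = u ∧ diamondTgt k e = v) ∨
        (∃ e : DiamondEdge k, diamondSrc k e = v ∧ diamondTgt k e = u)) := by
  unfold diamondGraph
  rw [SimpleGraph.fromRel_adj]

theorem dg_adj_src_tgt (k : ℕ) (e : DiamondEdge k) :
    (diamondGraph k).Adj (diamondSrc k e) (diamondTgt k e) :=
  (dg_adj_iff k _ _).2 ⟨diamondSrc_ne_tgt k e, Or.inl ⟨e, rfl, rfl⟩⟩

theorem dg_adj_src_mid (k : ℕ) (e : DiamondEdge k) (i : ℕ) :
    (diamondGraph (k + 1)).Adj (Sum.inl (diamondSrc k e)) (Sum.inr (e, i)) :=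
  dg_adj_src_tgt (k + 1) (e, i, false)

theorem dg_adj_mid_tgt (k : ℕ) (e : DiamondEdge k) (i : ℕ) :
    (diamondGraph (k + 1)).Adj (Sum.inr (e, i)) (Sum.inl (diamondTgt k e)) :=
  dg_adj_src_tgt (k + 1) (e, i, true)

theorem diamondDist_src_tgt (k : ℕ) (e : DiamondEdge k) :
    diamondDist k (diamondSrc k e) (diamondTgt k e) = 1 :=
  SimpleGraph.dist_eq_one_iff_adj.2 (dg_adj_src_tgt k e)

theorem diamondDist_src_mid (k : ℕ) (e : DiamondEdge k) (i : ℕ) :
    diamondDist (k + 1) (Sum.inl (diamondSrc k e)) (Sum.inr (e, i)) = 1 :=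
  SimpleGraph.dist_eq_one_iff_adj.2 (dg_adj_src_mid k e i)

theorem diamondDist_mid_tgt (k : ℕ) (e : DiamondEdge k) (i : ℕ) :
    diamondDist (k + 1) (Sum.inr (e, i)) (Sum.inl (diamondTgt k e)) = 1 :=
  SimpleGraph.dist_eq_one_iff_adj.2 (dg_adj_mid_tgt k e i)

/-- every edge of `D (k+1)` joins an old vertex `inl w` with a middle vertex `inr (e, i)`, where
`w` is an end of `e`. -/
theorem dg_edge_cases (k : ℕ) (f : DiamondEdge (k + 1)) :
    (∃ (e : DiamondEdge k) (i : ℕ), diamondSrc (k + 1) f = Sum.inl (diamondSrc k e) ∧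
        diamondTgt (k + 1) f = Sum.inr (e, i)) ∨
      (∃ (e : DiamondEdge k) (i : ℕ), diamondSrc (k + 1) f = Sum.inr (e, i) ∧
        diamondTgt (k + 1) f = Sum.inl (diamondTgt k e)) := by
  obtain ⟨e, i, b⟩ := f
  cases b
  · exact Or.inl ⟨e, i, rfl, rfl⟩
  · exact Or.inr ⟨e, i, rfl, rfl⟩

theorem dg_not_adj_inr_inr (k : ℕ) (a b : DiamondEdge k × ℕ) :
    ¬ (diamondGraph (k + 1)).Adj (Sum.inr a) (Sum.inr b) := by
  intro h
  obtain ⟨-, h | h⟩ := (dg_adj_iff (k + 1) _ _).1 h
  · obtain ⟨f, h1, h2⟩ := h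
    rcases dg_edge_cases k f with ⟨e, i, h3, h4⟩ | ⟨e, i, h3, h4⟩
    · rw [h3] at h1; exact Sum.inl_ne_inr h1
    · rw [h4] at h2; exact Sum.inl_ne_inr h2
  · obtain ⟨f, h1, h2⟩ := h
    rcases dg_edge_cases k f with ⟨e, i, h3, h4⟩ | ⟨e, i, h3, h4⟩
    · rw [h3] at h1; exact Sum.inl_ne_inr h1
    · rw [h4] at h2; exact Sum.inl_ne_inr h2

theorem dg_not_adj_inl_inl (k : ℕ) (a b : DiamondVertex k) :
    ¬ (diamondGraph (k + 1)).Adj (Sum.inl a) (Sum.inl b) := by
  intro h
  obtain ⟨-, h | h⟩ := (dg_adj_iff (k + 1) _ _).1 h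
  · obtain ⟨f, h1, h2⟩ := h
    rcases dg_edge_cases k f with ⟨e, i, h3, h4⟩ | ⟨e, i, h3, h4⟩
    · rw [h4] at h2; exact Sum.inr_ne_inl h2
    · rw [h3] at h1; exact Sum.inr_ne_inl h1
  · obtain ⟨f, h1, h2⟩ := h
    rcases dg_edge_cases k f with ⟨e, i, h3, h4⟩ | ⟨e, i, h3, h4⟩
    · rw [h4] at h2; exact Sum.inr_ne_inl h2
    · rw [h3] at h1; exact Sum.inr_ne_inl h1

/-- the neighbours of a middle vertex -/
theorem dg_adj_inl_inr (k : ℕ) (w : DiamondVertex k) (e : DiamondEdge k) (i : ℕ)
    (h : (diamondGraph (k + 1)).Adj (Sum.inl w) (Sum.inr (e, i))) :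
    w = diamondSrc k e ∨ w = diamondTgt k e := by
  obtain ⟨-, h | h⟩ := (dg_adj_iff (k + 1) _ _).1 h
  · obtain ⟨f, h1, h2⟩ := h
    rcases dg_edge_cases k f with ⟨e', i', h3, h4⟩ | ⟨e', i', h3, h4⟩
    · rw [h3] at h1; rw [h4] at h2
      have h5 := Sum.inl.inj h1
      have h6 := Sum.inr.inj h2
      have h7 : e' = e := congrArg Prod.fst h6
      subst h7
      exact Or.inl h5.symm
    · rw [h3] at h1; exact absurd h1 Sum.inr_ne_inl
  · obtain ⟨f, h1, h2⟩ := h
    rcases dg_edge_cases k f with ⟨e', i', h3, h4⟩ | ⟨e', i', h3, h4⟩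
    · rw [h3] at h1; exact absurd h1 Sum.inl_ne_inr
    · rw [h3] at h1; rw [h4] at h2
      have h5 := Sum.inl.inj h2
      have h6 := Sum.inr.inj h1
      have h7 : e' = e := congrArg Prod.fst h6
      subst h7
      exact Or.inr h5.symm

/-- two different middle vertices of one edge are at distance (at least) two: they are distinct,
reachable (through `src e`) and not adjacent. -/
theorem two_le_diamondDist_mid (k : ℕ) (e : DiamondEdge k) {i j : ℕ} (hij : i ≠ j) :
    2 ≤ diamondDist (k + 1) (Sum.inr (e, i)) (Sum.inr (e, j)) := by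
  have hne : (Sum.inr (e, i) : DiamondVertex (k + 1)) ≠ Sum.inr (e, j) := by
    intro h
    exact hij (congrArg Prod.snd (Sum.inr.inj h))
  have hr : (diamondGraph (k + 1)).Reachable (Sum.inr (e, i)) (Sum.inr (e, j)) :=
    (dg_adj_src_mid k e i).symm.reachable.trans (dg_adj_src_mid k e j).reachable
  have h0 : 0 < diamondDist (k + 1) (Sum.inr (e, i)) (Sum.inr (e, j)) := hr.pos_dist_of_ne hne
  have h1 : diamondDist (k + 1) (Sum.inr (e, i)) (Sum.inr (e, j)) ≠ 1 := by
    intro h
    exact dg_not_adj_inr_inr k _ _ (SimpleGraph.dist_eq_one_iff_adj.1 h)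
  omega

/-- projecting a walk of `D (k+1)` between old vertices -/
theorem dg_project_walk (k : ℕ) : ∀ (n : ℕ) (a b : DiamondVertex (k + 1))
    (p : (diamondGraph (k + 1)).Walk a b), p.length = n →
    ∀ u v : DiamondVertex k, a = Sum.inl u → b = Sum.inl v →
      ∃ q : (diamondGraph k).Walk u v, 2 * q.length ≤ n := by
  intro n
  induction n using Nat.strong_induction_on with
  | _ n ih =>
    intro a b p hp u v ha hb
    cases p with
    | nil =>
      have : u = v := Sum.inl.inj (ha.symm.trans hb)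
      subst this
      exact ⟨SimpleGraph.Walk.nil, by simp⟩
    | @cons _ c _ hac p' =>
      subst ha
      -- `c` is a middle vertex
      rcases c with c | ⟨e, i⟩
      · exact absurd hac (dg_not_adj_inl_inl k _ _)
      · have hu := dg_adj_inl_inr k u e i hac
        cases p' with
        | nil => exact absurd hb Sum.inr_ne_inl
        | @cons _ c' _ hcc p'' =>
          rcases c' with w | c'
          · have hw := dg_adj_inl_inr k w e i hcc.symm
            have hp' : p''.length + 1 + 1 = n := hp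
            obtain ⟨q, hq⟩ := ih p''.length (by omega) _ _ p'' rfl w v rfl hb
            by_cases huw : u = w
            · subst huw
              exact ⟨q, by omega⟩
            · have hadj : (diamondGraph k).Adj u w := by
                rcases hu with hu | hu <;> rcases hw with hw | hw
                · exact absurd (hu.trans hw.symm) huw
                · rw [hu, hw]; exact dg_adj_src_tgt k e
                · rw [hu, hw]; exact (dg_adj_src_tgt k e).symm
                · exact absurd (hu.trans hw.symm) huw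
              refine ⟨SimpleGraph.Walk.cons hadj q, ?_⟩
              have hl : (SimpleGraph.Walk.cons hadj q).length = q.length + 1 := rfl
              omega
          · exact absurd hcc (dg_not_adj_inr_inr k _ _)

theorem dg_reachable_lift_adj (k : ℕ) (u w : DiamondVertex k) (h : (diamondGraph k).Adj u w) :
    (diamondGraph (k + 1)).Reachable (Sum.inl u) (Sum.inl w) := by
  obtain ⟨-, h | h⟩ := (dg_adj_iff k _ _).1 h
  · obtain ⟨e, rfl, rfl⟩ := h
    exact (dg_adj_src_mid k e 0).reachable.trans (dg_adj_mid_tgt k e 0).reachable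
  · obtain ⟨e, rfl, rfl⟩ := h
    exact ((dg_adj_src_mid k e 0).reachable.trans (dg_adj_mid_tgt k e 0).reachable).symm

theorem dg_reachable_lift (k : ℕ) (u v : DiamondVertex k) (h : (diamondGraph k).Reachable u v) :
    (diamondGraph (k + 1)).Reachable (Sum.inl u) (Sum.inl v) := by
  obtain ⟨p⟩ := h
  induction p with
  | nil => exact SimpleGraph.Reachable.refl _
  | cons hadj _ ih => exact (dg_reachable_lift_adj k _ _ hadj).trans ih

/-- Old vertices: distances (at least) double. (Project a shortest walk of `D (k+1)` between old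
vertices to a walk of `D k` of at most half the length; and lift reachability from `D k` to
`D (k+1)`, to exclude the junk value `0`.) -/
theorem two_mul_diamondDist_le (k : ℕ) (u v : DiamondVertex k) :
    2 * diamondDist k u v ≤ diamondDist (k + 1) (Sum.inl u) (Sum.inl v) := by
  by_cases hr : (diamondGraph (k + 1)).Reachable (Sum.inl u) (Sum.inl v)
  · obtain ⟨p, hp⟩ := hr.exists_walk_length_eq_dist
    obtain ⟨q, hq⟩ := dg_project_walk k _ _ _ p rfl u v rfl rfl
    have h1 : diamondDist k u v ≤ q.length := SimpleGraph.dist_le q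
    have h2 : p.length = diamondDist (k + 1) (Sum.inl u) (Sum.inl v) := hp
    omega
  · have h0 : ¬ (diamondGraph k).Reachable u v := fun h => hr (dg_reachable_lift k u v h)
    have h1 : diamondDist k u v = 0 := SimpleGraph.dist_eq_zero_of_not_reachable h0
    omega

theorem two_pow_le_diamondDist_poles (k : ℕ) : 2 ^ k ≤ diamondDist k (dBot k) (dTop k) := by
  induction k with
  | zero =>
    have h : diamondDist 0 (diamondSrc 0 ()) (diamondTgt 0 ()) = 1 := diamondDist_src_tgt 0 ()
    have h' : diamondDist 0 (dBot 0) (dTop 0) = 1 := h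
    rw [h']; simp
  | succ k ih =>
    have h := two_mul_diamondDist_le k (dBot k) (dTop k)
    have h' : diamondDist (k + 1) (dBot (k + 1)) (dTop (k + 1)) =
        diamondDist (k + 1) (Sum.inl (dBot k)) (Sum.inl (dTop k)) := rfl
    rw [h', pow_succ]
    omega

end Crest.Agent.S0166Aux
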