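import Crest.Agent.S0166Aux.Moduli
import Crest.Agent.S0166Aux.DiamondGraph

/-!
# S0166, task T5: the maximum-based midpoint modulus forces `1 + k/4 ≤ D²` for diamond embeddings
-/

set_option autoImplicit false

namespace Crest.Agent.S0166Aux

open Crest.AnalysisR

variable {X : Type} [NormedAddCommGroup X] [NormedSpace ℝ X]

theorem dbound_norm_add_smul_le_max (x y : X) (l : ℝ) (h0 : 0 ≤ l) (h1 : l ≤ 1) :
    ‖x + l • y‖ ≤ max ‖x + y‖ ‖x - y‖ := by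
  have e : x + l • y = ((1 + l) / 2) • (x + y) + ((1 - l) / 2) • (x - y) := by
    module
  rw [e]
  calc ‖((1 + l) / 2) • (x + y) + ((1 - l) / 2) • (x - y)‖
      ≤ ‖((1 + l) / 2) • (x + y)‖ + ‖((1 - l) / 2) • (x - y)‖ := norm_add_le _ _
    _ = (1 + l) / 2 * ‖x + y‖ + (1 - l) / 2 * ‖x - y‖ := by
      rw [norm_smul, norm_smul, Real.norm_of_nonneg (by linarith),
        Real.norm_of_nonneg (by linarith)]
    _ ≤ (1 + l) / 2 * max ‖x + y‖ ‖x - y‖ + (1 - l) / 2 * max ‖x + y‖ ‖x - y‖ := by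
      apply add_le_add
      · exact mul_le_mul_of_nonneg_left (le_max_left _ _) (by linarith)
      · exact mul_le_mul_of_nonneg_left (le_max_right _ _) (by linarith)
    _ = max ‖x + y‖ ‖x - y‖ := by ring

theorem dbound_norm_sub_smul_le_max (x y : X) (l : ℝ) (h0 : 0 ≤ l) (h1 : l ≤ 1) :
    ‖x - l • y‖ ≤ max ‖x + y‖ ‖x - y‖ := by
  have h := dbound_norm_add_smul_le_max x (-y) l h0 h1
  rw [smul_neg, ← sub_eq_add_neg, ← sub_eq_add_neg, sub_neg_eq_add, max_comm] at h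
  exact h

/-- homogeneous, monotone form of the max-modulus: for `x ≠ 0`, `σ ≥ 0`, `η > 0` there is a cofinite `F`
with `√(‖x‖² + σ²/4) - η ≤ max ‖x+y‖ ‖x-y‖` for all `y ∈ F` with `‖y‖ ≥ σ`.
(Apply `hmax` at `t = σ/‖x‖`, centre `x/‖x‖`; `τ ↦ max ‖u+τŷ‖ ‖u-τŷ‖` is even and convex, hence
nondecreasing on `τ ≥ 0`.) -/
theorem max_modulus_hom
    (hmax : ∀ t : ℝ, 0 < t → GMaxGE (X := X) t (Real.sqrt (1 + t ^ 2 / 4) - 1))
    (x : X) (σ η : ℝ) (hσ : 0 ≤ σ) (hη : 0 < η) :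
    ∃ F : Set X, GCof F ∧ ∀ y ∈ F, σ ≤ ‖y‖ →
      Real.sqrt (‖x‖ ^ 2 + σ ^ 2 / 4) - η ≤ max ‖x + y‖ ‖x - y‖ := by
  by_cases hx : x = 0
  · refine ⟨Set.univ, gcof_univ, fun y _ hy => ?_⟩
    subst hx
    simp only [norm_zero, zero_add, zero_sub, norm_neg, max_self]
    have h1 : Real.sqrt (0 ^ 2 + σ ^ 2 / 4) = σ / 2 := by
      rw [show (0:ℝ) ^ 2 + σ ^ 2 / 4 = (σ / 2) ^ 2 by ring, Real.sqrt_sq (by linarith)]
    rw [h1]
    linarith
  rcases hσ.eq_or_lt with hσ0 | hσ0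
  · refine ⟨Set.univ, gcof_univ, fun y _ _ => ?_⟩
    subst hσ0
    have h1 : Real.sqrt (‖x‖ ^ 2 + 0 ^ 2 / 4) = ‖x‖ := by
      rw [show ‖x‖ ^ 2 + (0:ℝ) ^ 2 / 4 = ‖x‖ ^ 2 by ring, Real.sqrt_sq (norm_nonneg _)]
    rw [h1]
    have h2 := dbound_norm_add_smul_le_max x y 0 le_rfl zero_le_one
    rw [zero_smul, add_zero] at h2
    linarith
  · have hxn : 0 < ‖x‖ := norm_pos_iff.mpr hx
    obtain ⟨F, hF, hy⟩ := hmax (σ / ‖x‖) (div_pos hσ0 hxn) (‖x‖⁻¹ • x)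
      (by rw [norm_smul, norm_inv, norm_norm, inv_mul_cancel₀ hxn.ne'])
      (η / ‖x‖) (div_pos hη hxn)
    refine ⟨F, hF, fun y hyF hyσ => ?_⟩
    have hyn : 0 < ‖y‖ := lt_of_lt_of_le hσ0 hyσ
    have h1 := hy (‖y‖⁻¹ • y) (hF.smul_mem _ hyF)
      (by rw [norm_smul, norm_inv, norm_norm, inv_mul_cancel₀ hyn.ne'])
    have hl0 : 0 ≤ σ / ‖y‖ := by positivity
    have hl1 : σ / ‖y‖ ≤ 1 := (div_le_one hyn).mpr hyσ
    have e0 : (σ / ‖x‖) • ‖y‖⁻¹ • y = ‖x‖⁻¹ • ((σ / ‖y‖) • y) := by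
      rw [smul_smul, smul_smul]
      congr 1
      field_simp
    have e1 : ‖x‖⁻¹ • x + (σ / ‖x‖) • ‖y‖⁻¹ • y = ‖x‖⁻¹ • (x + (σ / ‖y‖) • y) := by
      rw [smul_add, e0]
    have e2 : ‖x‖⁻¹ • x - (σ / ‖x‖) • ‖y‖⁻¹ • y = ‖x‖⁻¹ • (x - (σ / ‖y‖) • y) := by
      rw [smul_sub, e0]
    rw [e1, e2, norm_smul, norm_smul, norm_inv, norm_norm] at h1
    have h2 : max (‖x‖⁻¹ * ‖x + (σ / ‖y‖) • y‖) (‖x‖⁻¹ * ‖x - (σ / ‖y‖) • y‖) ≤
        ‖x‖⁻¹ * max ‖x + y‖ ‖x - y‖ :=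
      max_le
        (mul_le_mul_of_nonneg_left (dbound_norm_add_smul_le_max x y _ hl0 hl1) (by positivity))
        (mul_le_mul_of_nonneg_left (dbound_norm_sub_smul_le_max x y _ hl0 hl1) (by positivity))
    have h3 : Real.sqrt (‖x‖ ^ 2 + σ ^ 2 / 4) = ‖x‖ * Real.sqrt (1 + (σ / ‖x‖) ^ 2 / 4) := by
      have e3 : ‖x‖ ^ 2 + σ ^ 2 / 4 = ‖x‖ ^ 2 * (1 + (σ / ‖x‖) ^ 2 / 4) := by
        field_simp
      rw [e3, Real.sqrt_mul (sq_nonneg _), Real.sqrt_sq hxn.le]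
    have h4 : Real.sqrt (1 + (σ / ‖x‖) ^ 2 / 4) - η / ‖x‖ ≤ ‖x‖⁻¹ * max ‖x + y‖ ‖x - y‖ := by
      linarith
    have h5 := mul_le_mul_of_nonneg_left h4 hxn.le
    have e4 : ‖x‖ * (Real.sqrt (1 + (σ / ‖x‖) ^ 2 / 4) - η / ‖x‖) =
        ‖x‖ * Real.sqrt (1 + (σ / ‖x‖) ^ 2 / 4) - η := by
      field_simp
    have e5 : ‖x‖ * (‖x‖⁻¹ * max ‖x + y‖ ‖x - y‖) = max ‖x + y‖ ‖x - y‖ := by
      field_simp
    rw [h3]
    linarith

/-- **Midpoint step.** `a, b` endpoints, `c i` infinitely many `σ`-separated "midpoints" within `L` of both: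
`‖a - b‖² + σ²/4 ≤ (2L)²`.
(With `x = a - b`, `Y = c i - c j`: `x + Y = (a - c j) + (c i - b)`, `x - Y = (a - c i) + (c j - b)`, so both
have norm `≤ 2L`; by `exists_near_of_bounded` some `Y` is `η`-close to `F`.) -/
theorem midpoint_step
    (hmax : ∀ t : ℝ, 0 < t → GMaxGE (X := X) t (Real.sqrt (1 + t ^ 2 / 4) - 1))
    (a b : X) (c : ℕ → X) (L σ : ℝ) (hσ : 0 ≤ σ)
    (h1 : ∀ i, ‖a - c i‖ ≤ L) (h2 : ∀ i, ‖c i - b‖ ≤ L)
    (h3 : ∀ i j, i ≠ j → σ ≤ ‖c i - c j‖) :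
    ‖a - b‖ ^ 2 + σ ^ 2 / 4 ≤ (2 * L) ^ 2 := by
  have hL : 0 ≤ L := (norm_nonneg _).trans (h1 0)
  have key : ∀ η : ℝ, 0 < η → ‖a - b‖ ^ 2 + σ ^ 2 / 4 ≤ (2 * L + 2 * η) ^ 2 + σ * η / 2 := by
    intro η hη
    obtain ⟨F, hF, hFy⟩ := max_modulus_hom hmax (a - b) (max (σ - η) 0) η (le_max_right _ _) hη
    have hbd : ∀ n, ‖c n‖ ≤ ‖a‖ + L := by
      intro n
      have e : c n = a - (a - c n) := by abel
      calc ‖c n‖ = ‖a - (a - c n)‖ := by rw [← e]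
        _ ≤ ‖a‖ + ‖a - c n‖ := norm_sub_le _ _
        _ ≤ ‖a‖ + L := by linarith [h1 n]
    obtain ⟨i, j, hij, y, hyF, hy⟩ := exists_near_of_bounded c (‖a‖ + L) hbd hF hη
    have hsep := h3 i j hij.ne
    have hyn : max (σ - η) 0 ≤ ‖y‖ := by
      refine max_le ?_ (norm_nonneg _)
      have e : c i - c j = y - (y - (c i - c j)) := by abel
      have : ‖c i - c j‖ ≤ ‖y‖ + ‖y - (c i - c j)‖ := by
        calc ‖c i - c j‖ = ‖y - (y - (c i - c j))‖ := by rw [← e]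
          _ ≤ _ := norm_sub_le _ _
      linarith
    have h4 := hFy y hyF hyn
    have h5 : ‖a - b + y‖ ≤ 2 * L + η := by
      have e : a - b + y = (a - c j) + (c i - b) + (y - (c i - c j)) := by abel
      rw [e]
      calc _ ≤ ‖(a - c j) + (c i - b)‖ + ‖y - (c i - c j)‖ := norm_add_le _ _
        _ ≤ ‖a - c j‖ + ‖c i - b‖ + ‖y - (c i - c j)‖ := by
          linarith [norm_add_le (a - c j) (c i - b)]
        _ ≤ 2 * L + η := by linarith [h1 j, h2 i]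
    have h6 : ‖a - b - y‖ ≤ 2 * L + η := by
      have e : a - b - y = (a - c i) + (c j - b) - (y - (c i - c j)) := by abel
      rw [e]
      calc _ ≤ ‖(a - c i) + (c j - b)‖ + ‖y - (c i - c j)‖ := norm_sub_le _ _
        _ ≤ ‖a - c i‖ + ‖c j - b‖ + ‖y - (c i - c j)‖ := by
          linarith [norm_add_le (a - c i) (c j - b)]
        _ ≤ 2 * L + η := by linarith [h1 i, h2 j]
    have h7 : Real.sqrt (‖a - b‖ ^ 2 + (max (σ - η) 0) ^ 2 / 4) ≤ 2 * L + 2 * η := by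
      have := max_le h5 h6
      linarith
    have h8 : ‖a - b‖ ^ 2 + (max (σ - η) 0) ^ 2 / 4 ≤ (2 * L + 2 * η) ^ 2 :=
      (Real.sqrt_le_left (by positivity)).mp h7
    have h9 : σ ^ 2 - 2 * σ * η ≤ (max (σ - η) 0) ^ 2 := by
      rcases le_total (σ - η) 0 with h | h
      · rw [max_eq_right h]
        nlinarith
      · rw [max_eq_left h]
        nlinarith [sq_nonneg η]
    linarith
  have hlim : Filter.Tendsto (fun η : ℝ => (2 * L + 2 * η) ^ 2 + σ * η / 2)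
      (nhdsWithin 0 (Set.Ioi 0)) (nhds ((2 * L + 2 * 0) ^ 2 + σ * 0 / 2)) :=
    (Continuous.tendsto (by fun_prop) 0).mono_left nhdsWithin_le_nhds
  have h := ge_of_tendsto hlim
    (Filter.eventually_of_mem self_mem_nhdsWithin (fun η hη => key η hη))
  simpa using h

theorem dbound_nonempty_edge (k : ℕ) : Nonempty (DiamondEdge k) := by
  induction k with
  | zero => exact ⟨()⟩
  | succ k ih =>
    obtain ⟨e⟩ := ih
    exact ⟨(e, 0, false)⟩

/-- Induction on `k` (restrict `f` to the old vertices, `s ↦ 2s`, `L² ↦ L² - 1/4`):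
if `f` is `s`-expanding for `diamondDist k` and stretches each edge by at most `L s` then
`(‖f bot - f top‖ / (s 2^k))² + k/4 ≤ L²`. -/
theorem diamond_induction
    (hmax : ∀ t : ℝ, 0 < t → GMaxGE (X := X) t (Real.sqrt (1 + t ^ 2 / 4) - 1))
    (k : ℕ) (f : DiamondVertex k → X) (s L : ℝ) (hs : 0 < s) (hL : 0 ≤ L)
    (hlow : ∀ u v : DiamondVertex k, s * (diamondDist k u v : ℝ) ≤ ‖f u - f v‖)
    (hedge : ∀ e : DiamondEdge k, ‖f (diamondSrc k e) - f (diamondTgt k e)‖ ≤ L * s) :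
    ‖f (dBot k) - f (dTop k)‖ ^ 2 + (k : ℝ) / 4 * (s * 2 ^ k) ^ 2 ≤ L ^ 2 * (s * 2 ^ k) ^ 2 := by
  induction k generalizing s L with
  | zero =>
    have h : ‖f (dBot 0) - f (dTop 0)‖ ≤ L * s := hedge ()
    have h' : ‖f (dBot 0) - f (dTop 0)‖ ^ 2 ≤ (L * s) ^ 2 :=
      pow_le_pow_left₀ (norm_nonneg _) h 2
    simp only [Nat.cast_zero, zero_div, zero_mul, add_zero, pow_zero, mul_one]
    calc _ ≤ (L * s) ^ 2 := h'
      _ = L ^ 2 * s ^ 2 := by ring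
  | succ k ih =>
    -- the midpoint step on every edge of `D k`
    have hstep : ∀ e : DiamondEdge k,
        ‖f (Sum.inl (diamondSrc k e)) - f (Sum.inl (diamondTgt k e))‖ ^ 2 ≤
          (L ^ 2 - 1 / 4) * (2 * s) ^ 2 := by
      intro e
      have h := midpoint_step hmax (f (Sum.inl (diamondSrc k e))) (f (Sum.inl (diamondTgt k e)))
        (fun i => f (Sum.inr (e, i))) (L * s) (2 * s) (by linarith)
        (fun i => hedge (e, i, false)) (fun i => hedge (e, i, true))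
        (fun i j hij => by
          have h1 := hlow (Sum.inr (e, i)) (Sum.inr (e, j))
          have h2 : (2 : ℝ) ≤ (diamondDist (k + 1) (Sum.inr (e, i)) (Sum.inr (e, j)) : ℝ) := by
            exact_mod_cast two_le_diamondDist_mid k e hij
          have h3 : s * 2 ≤ s * (diamondDist (k + 1) (Sum.inr (e, i)) (Sum.inr (e, j)) : ℝ) :=
            mul_le_mul_of_nonneg_left h2 hs.le
          linarith)
      nlinarith
    obtain ⟨e₀⟩ := dbound_nonempty_edge k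
    have hL2 : 0 ≤ L ^ 2 - 1 / 4 := by
      have h := (sq_nonneg _).trans (hstep e₀)
      have hpos : 0 < (2 * s) ^ 2 := by positivity
      by_contra hneg
      have : (L ^ 2 - 1 / 4) * (2 * s) ^ 2 < 0 := mul_neg_of_neg_of_pos (not_le.mp hneg) hpos
      linarith
    have hsq : Real.sqrt (L ^ 2 - 1 / 4) ^ 2 = L ^ 2 - 1 / 4 := Real.sq_sqrt hL2
    have h := ih (fun u => f (Sum.inl u)) (2 * s) (Real.sqrt (L ^ 2 - 1 / 4)) (by linarith)
      (Real.sqrt_nonneg _)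
      (fun u v => by
        have h1 := hlow (Sum.inl u) (Sum.inl v)
        have h2 : (2 : ℝ) * (diamondDist k u v : ℝ) ≤
            (diamondDist (k + 1) (Sum.inl u) (Sum.inl v) : ℝ) := by
          exact_mod_cast two_mul_diamondDist_le k u v
        have h3 := mul_le_mul_of_nonneg_left h2 hs.le
        linarith)
      (fun e => by
        have h1 := hstep e
        rw [← hsq, ← mul_pow] at h1
        exact (pow_le_pow_iff_left₀ (norm_nonneg _) (by positivity) (by norm_num)).mp h1)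
    rw [hsq] at h
    have e1 : dBot (k + 1) = Sum.inl (dBot k) := rfl
    have e2 : dTop (k + 1) = Sum.inl (dTop k) := rfl
    rw [e1, e2]
    have e3 : s * 2 ^ (k + 1) = 2 * s * 2 ^ k := by ring
    rw [e3]
    push_cast
    nlinarith

theorem diamond_bound
    (hmax : ∀ t : ℝ, 0 < t → GMaxGE (X := X) t (Real.sqrt (1 + t ^ 2 / 4) - 1))
    (k : ℕ) (f : DiamondVertex k → X) (D : ℝ)
    (h : ∃ s : ℝ, 0 < s ∧ ∀ u v : DiamondVertex k,
      s * (diamondDist k u v : ℝ) ≤ ‖f u - f v‖ ∧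
        ‖f u - f v‖ ≤ D * s * (diamondDist k u v : ℝ)) :
    1 + (k : ℝ) / 4 ≤ D ^ 2 := by
  obtain ⟨s, hs, hf⟩ := h
  have hedge : ∀ e : DiamondEdge k, ‖f (diamondSrc k e) - f (diamondTgt k e)‖ ≤ D * s := by
    intro e
    have h1 := (hf (diamondSrc k e) (diamondTgt k e)).2
    rw [diamondDist_src_tgt] at h1
    simpa using h1
  obtain ⟨e₀⟩ := dbound_nonempty_edge k
  have hD : 0 ≤ D := by
    have h1 := (norm_nonneg _).trans (hedge e₀)
    by_contra hneg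
    have : D * s < 0 := mul_neg_of_neg_of_pos (not_le.mp hneg) hs
    linarith
  have h1 := diamond_induction hmax k f s D hs hD (fun u v => (hf u v).1) hedge
  have h2 : s * 2 ^ k ≤ ‖f (dBot k) - f (dTop k)‖ := by
    have h3 := (hf (dBot k) (dTop k)).1
    have h4 : ((2 : ℝ) ^ k) ≤ (diamondDist k (dBot k) (dTop k) : ℝ) := by
      exact_mod_cast two_pow_le_diamondDist_poles k
    have h5 := mul_le_mul_of_nonneg_left h4 hs.le
    linarith
  have hpos : 0 < s * 2 ^ k := by positivity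
  have h3 : (s * 2 ^ k) ^ 2 ≤ ‖f (dBot k) - f (dTop k)‖ ^ 2 := pow_le_pow_left₀ hpos.le h2 2
  have hpos2 : 0 < (s * 2 ^ k) ^ 2 := by positivity
  have h4 : (1 + (k : ℝ) / 4) * (s * 2 ^ k) ^ 2 ≤ D ^ 2 * (s * 2 ^ k) ^ 2 := by
    linarith
  exact le_of_mul_le_mul_right h4 hpos2

end Crest.Agent.S0166Aux
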