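import Crest.Agent.S0166Aux.Basic

/-!
# S0166–S0169, task T1: closed finite-codimensional subspaces
-/

set_option autoImplicit false

namespace Crest.Agent.S0166Aux

variable {X : Type} [NormedAddCommGroup X] [NormedSpace ℝ X]

/-- The common kernel of finitely many continuous functionals is closed of finite codimension.
(Proof: `S = ⨅ ker`; closed; `X ⧸ S` embeds linearly into `ι → ℝ` via `LinearMap.pi`,
`Submodule.liftQ` / `LinearMap.quotKerEquivRange`.) -/
theorem gcof_of_functionals {ι : Type} [Finite ι] (φ : ι → X →L[ℝ] ℝ) :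
    GCof {x : X | ∀ i, φ i x = 0} := by
  let f : X →ₗ[ℝ] (ι → ℝ) := LinearMap.pi fun i => (φ i : X →ₗ[ℝ] ℝ)
  refine ⟨LinearMap.ker f, ?_, ?_, ?_⟩
  · ext x
    simp [f, funext_iff]
  · have : {x : X | ∀ i, φ i x = 0} = ⋂ i, {x : X | φ i x = 0} := by
      ext x; simp
    rw [this]
    exact isClosed_iInter fun i => isClosed_eq (φ i).continuous continuous_const
  · exact LinearEquiv.finiteDimensional f.quotKerEquivRange.symm

theorem gcof_ker (φ : X →L[ℝ] ℝ) : GCof {x : X | φ x = 0} := by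
  have h := gcof_of_functionals (fun _ : Unit => φ)
  simpa using h

theorem gcof_univ : GCof (Set.univ : Set X) := by
  have h := gcof_of_functionals (X := X) (fun i : Empty => i.elim)
  simpa using h

/-- (`X ⧸ (S ⊓ T)` embeds into `(X ⧸ S) × (X ⧸ T)`.) -/
theorem gcof_inter {F G : Set X} (hF : GCof F) (hG : GCof G) : GCof (F ∩ G) := by
  obtain ⟨S, rfl, hSc, hSf⟩ := hF
  obtain ⟨T, rfl, hTc, hTf⟩ := hG
  refine ⟨S ⊓ T, by simp, hSc.inter hTc, ?_⟩
  let g : X →ₗ[ℝ] (X ⧸ S) × (X ⧸ T) := S.mkQ.prod T.mkQ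
  have hker : LinearMap.ker g = S ⊓ T := by
    simp [g, LinearMap.ker_prod]
  have h1 : FiniteDimensional ℝ (X ⧸ LinearMap.ker g) :=
    LinearEquiv.finiteDimensional g.quotKerEquivRange.symm
  exact LinearEquiv.finiteDimensional (Submodule.quotEquivOfEq _ _ hker)

theorem GCof.zero_mem {F : Set X} (hF : GCof F) : (0 : X) ∈ F := by
  obtain ⟨S, rfl, -, -⟩ := hF
  exact S.zero_mem

theorem GCof.smul_mem {F : Set X} (hF : GCof F) (a : ℝ) {y : X} (hy : y ∈ F) : a • y ∈ F := by
  obtain ⟨S, rfl, -, -⟩ := hF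
  exact S.smul_mem a hy

theorem GCof.add_mem {F : Set X} (hF : GCof F) {y z : X} (hy : y ∈ F) (hz : z ∈ F) :
    y + z ∈ F := by
  obtain ⟨S, rfl, -, -⟩ := hF
  exact S.add_mem hy hz

/-- small quotient norm gives a nearby point of the subspace -/
theorem cof_exists_near_of_norm_mk_lt (S : Submodule ℝ X) (x : X) {η : ℝ}
    (h : ‖(Submodule.Quotient.mk x : X ⧸ S)‖ < η) : ∃ y ∈ S, ‖y - x‖ < η := by
  obtain ⟨m, hm, hlt⟩ := Submodule.Quotient.norm_mk_lt (Submodule.Quotient.mk x : X ⧸ S)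
    (sub_pos.2 h)
  refine ⟨x - m, ?_, ?_⟩
  · rw [← Submodule.Quotient.mk_eq_zero S, Submodule.Quotient.mk_sub, hm, sub_self]
  · have : x - m - x = -m := by abel
    rw [this, norm_neg]
    linarith

/-- **Lemma W.** A sequence whose finite sums are `O(√card)` comes arbitrarily close to any closed
finite-codimensional subspace.
(Proof: `Q = X ⧸ S` is a finite-dimensional normed space (`S` closed), `q n = mk (v n)` is bounded
(`A = {n}`), so if `η ≤ ‖q n‖` for all `n ≥ n₀` take a convergent subsequence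
(`tendsto_subseq_of_bounded`), limit `q`, `‖q‖ ≥ η`; Cesàro means of the subsequence tend to `q`
(`Filter.Tendsto.cesaro`) but have norm `≤ C / √m → 0`. Finally `‖mk x‖ < η` gives `y ∈ S` with
`‖x - y‖ < η` (quotient norm = inf).) -/
theorem exists_near_of_sqrt_bound (v : ℕ → X) (C : ℝ)
    (hv : ∀ A : Finset ℕ, ‖∑ n ∈ A, v n‖ ≤ C * Real.sqrt A.card)
    {F : Set X} (hF : GCof F) {η : ℝ} (hη : 0 < η) (n₀ : ℕ) :
    ∃ n, n₀ ≤ n ∧ ∃ y ∈ F, ‖y - v n‖ < η := by
  obtain ⟨S, rfl, hSc, hSf⟩ := hF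
  have : IsClosed (S : Set X) := hSc
  have : ProperSpace (X ⧸ S) := FiniteDimensional.proper_real (X ⧸ S)
  by_contra hcon
  push Not at hcon
  have hlow : ∀ n, n₀ ≤ n → η ≤ ‖(Submodule.Quotient.mk (v n) : X ⧸ S)‖ := by
    intro n hn
    by_contra hlt
    push Not at hlt
    obtain ⟨y, hy, hyn⟩ := cof_exists_near_of_norm_mk_lt S (v n) hlt
    exact absurd hyn (not_lt.2 (hcon n hn y hy))
  have hC : 0 ≤ C := by
    have := hv {0}
    simp at this
    exact le_trans (norm_nonneg _) this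
  let q : ℕ → X ⧸ S := fun n => Submodule.Quotient.mk (v (n + n₀))
  have hqb : ∀ n, q n ∈ Metric.closedBall (0 : X ⧸ S) C := by
    intro n
    have h1 := hv {n + n₀}
    simp at h1
    simp only [q, Metric.mem_closedBall, dist_zero_right]
    exact le_trans (Submodule.Quotient.norm_mk_le S _) h1
  obtain ⟨a, -, φ, hφ, hlim⟩ := tendsto_subseq_of_bounded Metric.isBounded_closedBall hqb
  have ha : η ≤ ‖a‖ := by
    refine ge_of_tendsto' (hlim.norm) fun k => ?_
    exact hlow _ (Nat.le_add_left _ _)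
  have hces := (hlim.cesaro_smul).norm
  have hbound : ∀ m : ℕ, ‖((m : ℝ)⁻¹) • ∑ i ∈ Finset.range m, (q ∘ φ) i‖ ≤ C / Real.sqrt m := by
    intro m
    have hinj : Function.Injective fun i : ℕ => φ i + n₀ := by
      intro i j hij
      exact hφ.injective (Nat.add_right_cancel hij)
    have hsum : ∑ i ∈ Finset.range m, (q ∘ φ) i =
        (Submodule.Quotient.mk (∑ n ∈ (Finset.range m).image (fun i => φ i + n₀), v n) : X ⧸ S) := by
      rw [Finset.sum_image (fun i _ j _ hij => hinj hij)]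
      have : (Submodule.Quotient.mk (∑ i ∈ Finset.range m, v (φ i + n₀)) : X ⧸ S) =
          S.mkQ (∑ i ∈ Finset.range m, v (φ i + n₀)) := rfl
      rw [this, map_sum]
      rfl
    have hcard : ((Finset.range m).image (fun i => φ i + n₀)).card = m := by
      rw [Finset.card_image_of_injective _ hinj, Finset.card_range]
    have h2 : ‖∑ i ∈ Finset.range m, (q ∘ φ) i‖ ≤ C * Real.sqrt m := by
      rw [hsum]
      refine le_trans (Submodule.Quotient.norm_mk_le S _) ?_
      have := hv ((Finset.range m).image (fun i => φ i + n₀))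
      rwa [hcard] at this
    rw [norm_smul, norm_inv, Real.norm_natCast]
    rcases Nat.eq_zero_or_pos m with rfl | hm
    · simp
    · have hm' : (0 : ℝ) < m := by exact_mod_cast hm
      have hs : 0 < Real.sqrt m := Real.sqrt_pos.2 hm'
      rw [le_div_iff₀ hs]
      calc (m : ℝ)⁻¹ * ‖∑ i ∈ Finset.range m, (q ∘ φ) i‖ * Real.sqrt m
          ≤ (m : ℝ)⁻¹ * (C * Real.sqrt m) * Real.sqrt m := by gcongr
        _ = C * ((m : ℝ)⁻¹ * (Real.sqrt m * Real.sqrt m)) := by ring
        _ = C := by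
            rw [Real.mul_self_sqrt hm'.le, inv_mul_cancel₀ hm'.ne', mul_one]
  have hzero : Filter.Tendsto (fun m : ℕ => C / Real.sqrt m) Filter.atTop (nhds 0) :=
    tendsto_const_nhds.div_atTop (Real.tendsto_sqrt_atTop.comp tendsto_natCast_atTop_atTop)
  have : ‖a‖ ≤ 0 := le_of_tendsto_of_tendsto' hces hzero hbound
  linarith

/-- A bounded sequence has two terms whose difference is close to a given closed finite-codimensional
subspace. (Convergent subsequence in the finite-dimensional quotient.) -/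
theorem exists_near_of_bounded (c : ℕ → X) (C : ℝ) (hc : ∀ n, ‖c n‖ ≤ C)
    {F : Set X} (hF : GCof F) {η : ℝ} (hη : 0 < η) :
    ∃ i j, i < j ∧ ∃ y ∈ F, ‖y - (c i - c j)‖ < η := by
  obtain ⟨S, rfl, hSc, hSf⟩ := hF
  have : IsClosed (S : Set X) := hSc
  have : ProperSpace (X ⧸ S) := FiniteDimensional.proper_real (X ⧸ S)
  let q : ℕ → X ⧸ S := fun n => Submodule.Quotient.mk (c n)
  have hqb : ∀ n, q n ∈ Metric.closedBall (0 : X ⧸ S) C := by
    intro n
    simp only [q, Metric.mem_closedBall, dist_zero_right]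
    exact le_trans (Submodule.Quotient.norm_mk_le S _) (hc n)
  obtain ⟨a, -, φ, hφ, hlim⟩ := tendsto_subseq_of_bounded Metric.isBounded_closedBall hqb
  obtain ⟨N, hN⟩ := (Metric.tendsto_atTop.1 hlim) (η / 2) (half_pos hη)
  have h1 := hN N le_rfl
  have h2 := hN (N + 1) (Nat.le_succ N)
  have h3 : ‖(Submodule.Quotient.mk (c (φ N) - c (φ (N + 1))) : X ⧸ S)‖ < η := by
    rw [Submodule.Quotient.mk_sub, ← dist_eq_norm]
    calc dist (Submodule.Quotient.mk (c (φ N)) : X ⧸ S) (Submodule.Quotient.mk (c (φ (N + 1))))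
        ≤ dist (q (φ N)) a + dist a (q (φ (N + 1))) := dist_triangle _ _ _
      _ < η / 2 + η / 2 := by
          rw [dist_comm a]
          exact add_lt_add h1 h2
      _ = η := by ring
  obtain ⟨y, hy, hyn⟩ := cof_exists_near_of_norm_mk_lt S _ h3
  exact ⟨φ N, φ (N + 1), hφ (Nat.lt_succ_self N), y, hy, hyn⟩

end Crest.Agent.S0166Aux
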