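import Crest.Agent.S0166Aux.Space
import Crest.Agent.S0166Aux.Cof

/-!
# S0166, task T15: the averaged midpoint modulus of `E = (⊕ₙ Xₙ)_{ℓ²}`
-/

set_option autoImplicit false

namespace Crest.Agent.S0166Aux

open Crest.AnalysisR.TreePotential

namespace SpaceMid

lemma two_toReal : (2 : ENNReal).toReal = 2 := by simp

lemma two_toReal_pos : 0 < (2 : ENNReal).toReal := by simp

/-- finite partial sums of squares of the block norms -/
lemma sum_norm_sq_le (z : ESp) (s : Finset ℕ) : ∑ n ∈ s, ‖z n‖ ^ 2 ≤ ‖z‖ ^ 2 := by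
  have h := lp.sum_rpow_le_norm_rpow two_toReal_pos z s
  simp only [two_toReal, Real.rpow_two] at h
  exact h

end SpaceMid

/-- weighted block tests are norm-one functionals on the `ℓ²`-sum (Cauchy–Schwarz):
`Σ_{n<N} w_n z_n(τ_n) ≤ ‖z‖` if `Σ w_n² ≤ 1`, `w_n ≥ 0`. -/
theorem sum_weighted_apply_le (z : ESp) (N : ℕ) (w : ℕ → ℝ) (hw0 : ∀ n, 0 ≤ w n)
    (hw : ∑ n ∈ Finset.range N, w n ^ 2 ≤ 1) (τ : ℕ → PotentialTest .global) :
    ∑ n ∈ Finset.range N, w n * (((z n : ↥(Xn n)) : Amb .global) : PotentialTest .global → ℝ) (τ n)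
      ≤ ‖z‖ := by
  have h1 : ∑ n ∈ Finset.range N,
      w n * (((z n : ↥(Xn n)) : Amb .global) : PotentialTest .global → ℝ) (τ n)
      ≤ ∑ n ∈ Finset.range N, w n * ‖z n‖ := by
    refine Finset.sum_le_sum (fun n _ => ?_)
    refine mul_le_mul_of_nonneg_left ?_ (hw0 n)
    exact apply_le_norm ((z n : ↥(Xn n)) : Amb .global) (τ n)
  have h2 : (∑ n ∈ Finset.range N, w n * ‖z n‖) ^ 2
      ≤ (∑ n ∈ Finset.range N, w n ^ 2) * ∑ n ∈ Finset.range N, ‖z n‖ ^ 2 :=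
    Finset.sum_mul_sq_le_sq_mul_sq _ _ _
  have h3 := SpaceMid.sum_norm_sq_le z (Finset.range N)
  have h4 : (∑ n ∈ Finset.range N, w n * ‖z n‖) ^ 2 ≤ ‖z‖ ^ 2 := by
    refine h2.trans ?_
    calc (∑ n ∈ Finset.range N, w n ^ 2) * ∑ n ∈ Finset.range N, ‖z n‖ ^ 2
        ≤ 1 * ‖z‖ ^ 2 := by
          refine mul_le_mul hw h3 (Finset.sum_nonneg fun n _ => by positivity) zero_le_one
      _ = ‖z‖ ^ 2 := one_mul _
  exact h1.trans (abs_le_of_sq_le_sq' h4 (norm_nonneg z)).2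

/-- the finitely-blocked finite sums: block `n < N` is `fsum (c n)`, the other blocks vanish. -/
noncomputable def blockSum (N : ℕ) (c : ℕ → List ℕ →₀ ℝ)
    (hc : ∀ n s, n < s.length → c n s = 0) : ESp :=
  ∑ n ∈ Finset.range N, lp.single 2 n (⟨fsum .global (c n), fsum_mem_Xn n (c n) (hc n)⟩ : ↥(Xn n))

theorem blockSum_apply (N : ℕ) (c : ℕ → List ℕ →₀ ℝ) (hc : ∀ n s, n < s.length → c n s = 0)
    (n : ℕ) :
    ((blockSum N c hc n : ↥(Xn n)) : Amb .global) = if n < N then fsum .global (c n) else 0 := by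
  unfold blockSum
  rw [lp.coeFn_sum, Finset.sum_apply]
  simp only [lp.coeFn_single]
  rw [Finset.sum_pi_single]
  split_ifs with h1 h2 h2
  · rfl
  · exact absurd (Finset.mem_range.1 h1) h2
  · exact absurd (Finset.mem_range.2 h2) h1
  · rfl

theorem norm_blockSum_sq (N : ℕ) (c : ℕ → List ℕ →₀ ℝ) (hc : ∀ n s, n < s.length → c n s = 0) :
    ‖blockSum N c hc‖ ^ 2 = ∑ n ∈ Finset.range N, ‖fsum .global (c n)‖ ^ 2 := by
  have h := lp.norm_sum_single (E := fun n : ℕ => ↥(Xn n)) SpaceMid.two_toReal_pos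
    (fun n => (⟨fsum .global (c n), fsum_mem_Xn n (c n) (hc n)⟩ : ↥(Xn n))) (Finset.range N)
  simp only [SpaceMid.two_toReal, Real.rpow_two] at h
  exact h

namespace SpaceMid

/-- truncation of a vector of the `ℓ²`-sum -/
lemma exists_trunc_near (x : ESp) (N₀ : ℕ) {ε : ℝ} (hε : 0 < ε) :
    ∃ N, N₀ ≤ N ∧ ‖x - ∑ n ∈ Finset.range N, lp.single 2 n (x n)‖ < ε := by
  have h := (lp.hasSum_single (p := 2) (by simp) x).tendsto_sum_nat
  rw [Metric.tendsto_atTop] at h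
  obtain ⟨N, hN⟩ := h ε hε
  refine ⟨max N N₀, le_max_right _ _, ?_⟩
  have := hN (max N N₀) (le_max_left _ _)
  rwa [dist_comm, dist_eq_norm] at this

lemma norm_trunc_sub_blockSum_le (x : ESp) (N : ℕ) (c : ℕ → List ℕ →₀ ℝ)
    (hc : ∀ n s, n < s.length → c n s = 0) {δ : ℝ}
    (h : ∀ n < N, ‖((x n : ↥(Xn n)) : Amb .global) - fsum .global (c n)‖ ≤ δ) :
    ‖(∑ n ∈ Finset.range N, lp.single 2 n (x n)) - blockSum N c hc‖ ≤ N * δ := by
  unfold blockSum
  rw [← Finset.sum_sub_distrib]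
  refine (norm_sum_le _ _).trans ?_
  have : ∀ n ∈ Finset.range N, ‖(lp.single 2 n (x n) : ESp) - lp.single 2 n
      (⟨fsum .global (c n), fsum_mem_Xn n (c n) (hc n)⟩ : ↥(Xn n))‖ ≤ δ := by
    intro n hn
    rw [← lp.single_sub, lp.norm_single (by norm_num)]
    exact h n (Finset.mem_range.1 hn)
  refine (Finset.sum_le_sum this).trans ?_
  simp

/-- common core of the two density lemmas -/
lemma exists_blockSum_near_aux (y : ESp) (N₀ : ℕ) (Q : ℕ → (List ℕ →₀ ℝ) → Prop)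
    (hQ : ∀ n, ∀ δ : ℝ, 0 < δ → ∃ d : List ℕ →₀ ℝ, (∀ s, n < s.length → d s = 0) ∧ Q n d ∧
      ‖((y n : ↥(Xn n)) : Amb .global) - fsum .global d‖ < δ)
    {ε : ℝ} (hε : 0 < ε) :
    ∃ (N : ℕ) (d : ℕ → List ℕ →₀ ℝ) (hd : ∀ n s, n < s.length → d n s = 0), N₀ ≤ N ∧
      (∀ n, Q n (d n)) ∧ ‖y - blockSum N d hd‖ < ε := by
  obtain ⟨N, hN₀, hN⟩ := exists_trunc_near y N₀ (half_pos hε)
  have hδ : 0 < ε / (2 * (N + 1)) := by positivity
  choose d hd1 hd2 hd3 using fun n => hQ n _ hδ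
  refine ⟨N, d, hd1, hN₀, hd2, ?_⟩
  have h1 := norm_trunc_sub_blockSum_le y N d hd1 (fun n _ => (hd3 n).le)
  have h2 : (N : ℝ) * (ε / (2 * (N + 1))) < ε / 2 := by
    have hN1 : (0 : ℝ) < N + 1 := by positivity
    rw [show ε / (2 * ((N : ℝ) + 1)) = (ε / 2) / (N + 1) by field_simp, ← mul_div_assoc,
      div_lt_iff₀ hN1]
    nlinarith
  calc ‖y - blockSum N d hd1‖
      = ‖(y - ∑ n ∈ Finset.range N, lp.single 2 n (y n)) +
          ((∑ n ∈ Finset.range N, lp.single 2 n (y n)) - blockSum N d hd1)‖ := by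
        congr 1; abel
    _ ≤ ‖y - ∑ n ∈ Finset.range N, lp.single 2 n (y n)‖ +
          ‖(∑ n ∈ Finset.range N, lp.single 2 n (y n)) - blockSum N d hd1‖ := norm_add_le _ _
    _ < ε / 2 + ε / 2 := by linarith
    _ = ε := by ring

end SpaceMid

/-- density of the block sums (`lp.hasSum_single` and `exists_fsum_near_Xn`) -/
theorem exists_blockSum_near (x : ESp) {ε : ℝ} (hε : 0 < ε) :
    ∃ (N : ℕ) (c : ℕ → List ℕ →₀ ℝ) (hc : ∀ n s, n < s.length → c n s = 0),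
      ‖x - blockSum N c hc‖ < ε := by
  obtain ⟨N, c, hc, -, -, h⟩ := SpaceMid.exists_blockSum_near_aux x 0 (fun _ _ => True)
    (fun n δ hδ => by
      obtain ⟨d, hd1, hd2⟩ := exists_fsum_near_Xn ((x n : ↥(Xn n)) : Amb .global) (x n).2 hδ
      exact ⟨d, hd1, trivial, hd2⟩) hε
  exact ⟨N, c, hc, h⟩

/-- density of the block sums vanishing on `T` in the first `N₀` blocks, among such vectors; one may
take `N ≥ N₀`. -/
theorem exists_blockSum_near_off (N₀ : ℕ) (T : Finset (List ℕ)) (y : ESp)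
    (hy : ∀ n < N₀, ∀ s ∈ T, coordFun .global s ((y n : ↥(Xn n)) : Amb .global) = 0)
    {ε : ℝ} (hε : 0 < ε) :
    ∃ (N : ℕ) (d : ℕ → List ℕ →₀ ℝ) (hd : ∀ n s, n < s.length → d n s = 0), N₀ ≤ N ∧
      (∀ n < N₀, ∀ s ∈ T, d n s = 0) ∧ ‖y - blockSum N d hd‖ < ε := by
  exact SpaceMid.exists_blockSum_near_aux y N₀ (fun n d => n < N₀ → ∀ s ∈ T, d s = 0)
    (fun n δ hδ => by
      by_cases hn : n < N₀
      · obtain ⟨d, hd1, hd2, hd3⟩ := exists_fsum_near_off_Xn T ((y n : ↥(Xn n)) : Amb .global)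
          (y n).2 (hy n hn) hδ
        exact ⟨d, hd1, fun _ => hd2, hd3⟩
      · obtain ⟨d, hd1, hd2⟩ := exists_fsum_near_Xn ((y n : ↥(Xn n)) : Amb .global) (y n).2 hδ
        exact ⟨d, hd1, fun h => absurd h hn, hd2⟩) hε

/-- the subspace used for the modulus -/
theorem gcof_block (N₀ : ℕ) (T : Finset (List ℕ)) :
    GCof {y : ESp | ∀ n < N₀, ∀ s ∈ T,
      coordFun .global s ((y n : ↥(Xn n)) : Amb .global) = 0} := by
  have h := gcof_of_functionals (X := ESp) (ι := Fin N₀ × T)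
    (fun i => ((coordFun .global i.2.1).comp (Xn i.1.1).subtypeL).comp
      (lp.evalCLM ℝ (fun n : ℕ => ↥(Xn n)) 2 i.1.1))
  convert h using 1
  ext y
  simp only [Set.mem_ofPred_eq]
  constructor
  · intro hy i
    exact hy i.1.1 i.1.2 i.2.1 i.2.2
  · intro hy n hn s hs
    exact hy (⟨n, hn⟩, ⟨s, hs⟩)

namespace SpaceMid

/-- one block of `blockSum_mid` -/
lemma block_step {T : Finset (List ℕ)} (hT : SuffixClosed T) (c d : List ℕ →₀ ℝ)
    (hc : ∀ s ∉ T, c s = 0) (hd : ∀ s ∈ T, d s = 0) (t : ℝ) (ht : 0 ≤ t) {A B : ℝ}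
    (hA : 0 ≤ A) (hB : 0 ≤ B) {ε : ℝ} (hε : 0 < ε) :
    ∃ τ₁ τ₂ : PotentialTest .global,
      2 * A * (‖fsum .global c‖ - ε) + t * B * (‖fsum .global d‖ - ε) ≤
        Real.sqrt (A ^ 2 + B ^ 2) *
          ((fsum .global (c + t • d) : PotentialTest .global → ℝ) τ₁ +
            (fsum .global (c - t • d) : PotentialTest .global → ℝ) τ₂) := by
  obtain ⟨τf, hf⟩ := exists_test_gt (fsum .global c) (fsum_mem .global c) hε
  obtain ⟨τh, hh⟩ := exists_test_gt (fsum .global d) (fsum_mem .global d) hε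
  rw [fsum_apply] at hf hh
  obtain ⟨g₁, g₂, hg₁, hg₂, hg⟩ := comb_pair .global τf.2 τh.2 hT c d hc hd t hA hB
    (Real.sqrt_nonneg (A ^ 2 + B ^ 2)) (Real.sq_sqrt (by positivity)).symm
  obtain ⟨τ₁, hτ₁⟩ : ∃ τ₁ : PotentialTest .global, τ₁.1 = g₁ := ⟨⟨g₁, hg₁⟩, rfl⟩
  obtain ⟨τ₂, hτ₂⟩ : ∃ τ₂ : PotentialTest .global, τ₂.1 = g₂ := ⟨⟨g₂, hg₂⟩, rfl⟩
  refine ⟨τ₁, τ₂, ?_⟩
  rw [fsum_apply, fsum_apply, hτ₁, hτ₂, hg]
  have h1 : 2 * A * (‖fsum .global c‖ - ε) ≤ 2 * A * pair τf.1 c :=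
    mul_le_mul_of_nonneg_left hf.le (by positivity)
  have h2 : t * B * (‖fsum .global d‖ - ε) ≤ t * B * pair τh.1 d :=
    mul_le_mul_of_nonneg_left hh.le (by positivity)
  linarith

lemma coe_add_smul (x y : ESp) (t : ℝ) (n : ℕ) :
    (((x + t • y) n : ↥(Xn n)) : Amb .global) =
      ((x n : ↥(Xn n)) : Amb .global) + t • ((y n : ↥(Xn n)) : Amb .global) := by
  rw [lp.coeFn_add, lp.coeFn_smul]
  rfl

lemma coe_sub_smul (x y : ESp) (t : ℝ) (n : ℕ) :
    (((x - t • y) n : ↥(Xn n)) : Amb .global) =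
      ((x n : ↥(Xn n)) : Amb .global) - t • ((y n : ↥(Xn n)) : Amb .global) := by
  rw [lp.coeFn_sub, lp.coeFn_smul]
  rfl

/-- `Σ (α a_n / a) a_n = α a` when `a² = Σ a_n²` (also for `a = 0`) -/
lemma sum_weight_mul (N : ℕ) (a : ℕ → ℝ) (a0 α : ℝ) (h : a0 ^ 2 = ∑ n ∈ Finset.range N, a n ^ 2) :
    ∑ n ∈ Finset.range N, α * a n / a0 * a n = α * a0 := by
  have : ∀ n ∈ Finset.range N, α * a n / a0 * a n = α / a0 * a n ^ 2 := by
    intro n _; ring
  rw [Finset.sum_congr rfl this, ← Finset.mul_sum, ← h, pow_two, div_mul_eq_mul_div,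
    mul_div_assoc, mul_self_div_self]

/-- `Σ (α a_n / a)² ≤ α²` when `a² = Σ a_n²` -/
lemma sum_weight_sq_le (N : ℕ) (a : ℕ → ℝ) (a0 α : ℝ)
    (h : a0 ^ 2 = ∑ n ∈ Finset.range N, a n ^ 2) :
    ∑ n ∈ Finset.range N, (α * a n / a0) ^ 2 ≤ α ^ 2 := by
  have : ∀ n ∈ Finset.range N, (α * a n / a0) ^ 2 = α ^ 2 / a0 ^ 2 * a n ^ 2 := by
    intro n _; ring
  rw [Finset.sum_congr rfl this, ← Finset.mul_sum, ← h, div_mul_eq_mul_div, mul_div_assoc]
  exact mul_le_of_le_one_right (sq_nonneg α) (div_self_le_one _)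

end SpaceMid

/-- **block version of `fsum_mid`.** `c n` supported in the suffix closed `T` and `c n = 0` for `n ≥ N₀`;
`d n` vanishing on `T` for `n < N₀`. With `a_n = ‖fsum (c n)‖`, `b_n = ‖fsum (d n)‖`,
`a² = Σ a_n²`, `b² = Σ b_n²` (both may be assumed `> 0`), weights
`w_n = √(α² a_n²/a² + β² b_n²/b²)` (so `Σ w_n² = α² + β² = 1`), almost norming tests `f_n, h_n`,
`comb_pair` in block `n` with `A = α a_n / a`, `B = β b_n / b` (with `T` for `n < N₀`, with `∅` for `n ≥ N₀`),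
then `sum_weighted_apply_le` for `x + t y` and `x - t y`:
`‖x+ty‖ + ‖x-ty‖ ≥ Σ (2 α a_n/a · a_n + t β b_n/b · b_n) - ε = 2 α a + t β b - ε`. -/
theorem blockSum_mid (N₀ N : ℕ) (hN : N₀ ≤ N) {T : Finset (List ℕ)} (hT : SuffixClosed T)
    (c d : ℕ → List ℕ →₀ ℝ) (hc : ∀ n s, n < s.length → c n s = 0)
    (hd : ∀ n s, n < s.length → d n s = 0)
    (hcT : ∀ n, ∀ s ∉ T, c n s = 0) (hdT : ∀ n < N₀, ∀ s ∈ T, d n s = 0)
    (t : ℝ) (ht : 0 ≤ t) {α β : ℝ} (hα : 0 ≤ α) (hβ : 0 ≤ β) (hab : α ^ 2 + β ^ 2 = 1) :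
    2 * α * ‖blockSum N₀ c hc‖ + t * β * ‖blockSum N d hd‖ ≤
      ‖blockSum N₀ c hc + t • blockSum N d hd‖ + ‖blockSum N₀ c hc - t • blockSum N d hd‖ := by
  classical
  set x := blockSum N₀ c hc with hx
  set y := blockSum N d hd with hy
  -- the padded coefficients
  set c' : ℕ → List ℕ →₀ ℝ := fun n => if n < N₀ then c n else 0 with hc'
  set a : ℕ → ℝ := fun n => ‖fsum .global (c' n)‖ with ha
  set b : ℕ → ℝ := fun n => ‖fsum .global (d n)‖ with hb
  have hxn : ∀ n, ((x n : ↥(Xn n)) : Amb .global) = fsum .global (c' n) := by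
    intro n
    rw [hx, blockSum_apply]
    by_cases hn : n < N₀
    · simp [hc', hn]
    · simp [hc', hn]
  have hyn : ∀ n < N, ((y n : ↥(Xn n)) : Amb .global) = fsum .global (d n) := by
    intro n hn
    rw [hy, blockSum_apply, if_pos hn]
  have ha0 : ‖x‖ ^ 2 = ∑ n ∈ Finset.range N, a n ^ 2 := by
    rw [hx, norm_blockSum_sq]
    have hsub : Finset.range N₀ ⊆ Finset.range N := Finset.range_subset_range.2 hN
    rw [← Finset.sum_subset hsub]
    · refine Finset.sum_congr rfl (fun n hn => ?_)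
      simp [ha, hc', Finset.mem_range.1 hn]
    · intro n _ hn
      have : ¬ n < N₀ := fun h => hn (Finset.mem_range.2 h)
      simp [ha, hc', this]
  have hb0 : ‖y‖ ^ 2 = ∑ n ∈ Finset.range N, b n ^ 2 := by
    rw [hy, norm_blockSum_sq]
  set A : ℕ → ℝ := fun n => α * a n / ‖x‖ with hA
  set B : ℕ → ℝ := fun n => β * b n / ‖y‖ with hB
  set w : ℕ → ℝ := fun n => Real.sqrt (A n ^ 2 + B n ^ 2) with hw
  have hA0 : ∀ n, 0 ≤ A n := fun n => by simp only [hA, ha]; positivity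
  have hB0 : ∀ n, 0 ≤ B n := fun n => by simp only [hB, hb]; positivity
  have hw0 : ∀ n, 0 ≤ w n := fun n => Real.sqrt_nonneg _
  have hwsum : ∑ n ∈ Finset.range N, w n ^ 2 ≤ 1 := by
    have : ∀ n ∈ Finset.range N, w n ^ 2 = A n ^ 2 + B n ^ 2 := by
      intro n _
      simp only [hw]
      exact Real.sq_sqrt (by positivity)
    rw [Finset.sum_congr rfl this, Finset.sum_add_distrib, ← hab]
    exact add_le_add (SpaceMid.sum_weight_sq_le N a ‖x‖ α ha0)
      (SpaceMid.sum_weight_sq_le N b ‖y‖ β hb0)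
  set K : ℝ := ∑ n ∈ Finset.range N, (2 * A n + t * B n) with hK
  have hK0 : 0 ≤ K := Finset.sum_nonneg fun n _ => by
    have := hA0 n; have := hB0 n; positivity
  refine le_of_forall_pos_le_add (fun ε' hε' => ?_)
  have hε : 0 < ε' / (K + 1) := by positivity
  set ε := ε' / (K + 1) with hεdef
  have key : ∀ n, ∃ τ₁ τ₂ : PotentialTest .global,
      2 * A n * (a n - ε) + t * B n * (b n - ε) ≤
        w n * ((fsum .global (c' n + t • d n) : PotentialTest .global → ℝ) τ₁ +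
            (fsum .global (c' n - t • d n) : PotentialTest .global → ℝ) τ₂) := by
    intro n
    by_cases hn : n < N₀
    · have hcn : c' n = c n := by simp [hc', hn]
      simp only [ha, hb, hw, hcn]
      exact SpaceMid.block_step hT (c n) (d n) (hcT n) (hdT n hn) t ht (hA0 n) (hB0 n) hε
    · have hcn : c' n = 0 := by simp [hc', hn]
      simp only [ha, hb, hw, hcn]
      exact SpaceMid.block_step suffixClosed_empty 0 (d n) (by simp) (by simp) t ht
        (hA0 n) (hB0 n) hε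
  choose τ₁ τ₂ hτ using key
  have h1 := sum_weighted_apply_le (x + t • y) N w hw0 hwsum τ₁
  have h2 := sum_weighted_apply_le (x - t • y) N w hw0 hwsum τ₂
  have h3 : ∑ n ∈ Finset.range N, (2 * A n * (a n - ε) + t * B n * (b n - ε)) ≤
      ∑ n ∈ Finset.range N, w n *
        ((((x + t • y) n : ↥(Xn n)) : Amb .global) : PotentialTest .global → ℝ) (τ₁ n) +
      ∑ n ∈ Finset.range N, w n *
        ((((x - t • y) n : ↥(Xn n)) : Amb .global) : PotentialTest .global → ℝ) (τ₂ n) := by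
    rw [← Finset.sum_add_distrib]
    refine Finset.sum_le_sum (fun n hn => ?_)
    have hn' := Finset.mem_range.1 hn
    rw [SpaceMid.coe_add_smul, SpaceMid.coe_sub_smul, hxn, hyn n hn', ← map_smul, ← map_add,
      ← map_sub, ← mul_add]
    exact hτ n
  have h4 : ∑ n ∈ Finset.range N, (2 * A n * (a n - ε) + t * B n * (b n - ε)) =
      2 * α * ‖x‖ + t * β * ‖y‖ - ε * K := by
    have e1 := SpaceMid.sum_weight_mul N a ‖x‖ α ha0
    have e2 := SpaceMid.sum_weight_mul N b ‖y‖ β hb0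
    have : ∀ n ∈ Finset.range N, 2 * A n * (a n - ε) + t * B n * (b n - ε) =
        2 * (α * a n / ‖x‖ * a n) + t * (β * b n / ‖y‖ * b n) - ε * (2 * A n + t * B n) := by
      intro n _
      simp only [hA, hB]
      ring
    rw [Finset.sum_congr rfl this, Finset.sum_sub_distrib, Finset.sum_add_distrib,
      ← Finset.mul_sum, ← Finset.mul_sum, ← Finset.mul_sum, e1, e2]
    ring
  have h5 : ε * K ≤ ε' := by
    rw [hεdef, div_mul_eq_mul_div, div_le_iff₀ (by positivity)]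
    nlinarith
  linarith

namespace SpaceMid

/-- generic perturbation estimate used to pass from the dense set to all unit vectors -/
lemma gmid_estimate {X : Type} [NormedAddCommGroup X] [NormedSpace ℝ X] (x x' y y' : X)
    {t δ η R α β : ℝ} (ht : 0 < t) (hx : ‖x‖ = 1) (hy : ‖y‖ = 1) (hxx : ‖x - x'‖ < δ)
    (hyy : ‖y - y'‖ < δ)
    (hmid : 2 * α * ‖x'‖ + t * β * ‖y'‖ ≤ ‖x' + t • y'‖ + ‖x' - t • y'‖)
    (hα : 0 ≤ α) (hβ : 0 ≤ β) (hsum : 2 * α + t * β = 2 * R) (hRle : R ≤ 1 + t / 2)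
    (hδeq : (4 + 3 * t) * δ = 2 * η) (hδ : 0 < δ) :
    R - 1 - η ≤ (‖x + t • y‖ + ‖x - t • y‖) / 2 - 1 := by
  have hx1 : 1 - δ ≤ ‖x'‖ := by
    have := norm_sub_norm_le x x'
    linarith
  have hy1' : 1 - δ ≤ ‖y'‖ := by
    have := norm_sub_norm_le y y'
    linarith
  have h1 : ‖t • (y - y')‖ = t * ‖y - y'‖ := by
    rw [norm_smul, Real.norm_of_nonneg ht.le]
  have h2 : t * ‖y - y'‖ ≤ t * δ := mul_le_mul_of_nonneg_left hyy.le ht.le
  have hplus : ‖x' + t • y'‖ ≤ ‖x + t • y‖ + δ + t * δ := by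
    have e : x' + t • y' = (x + t • y) - (x - x') - t • (y - y') := by
      rw [smul_sub]; abel
    calc ‖x' + t • y'‖ = ‖(x + t • y) - (x - x') - t • (y - y')‖ := by rw [e]
      _ ≤ ‖(x + t • y) - (x - x')‖ + ‖t • (y - y')‖ := norm_sub_le _ _
      _ ≤ ‖x + t • y‖ + ‖x - x'‖ + ‖t • (y - y')‖ := by
          gcongr; exact norm_sub_le _ _
      _ ≤ ‖x + t • y‖ + δ + t * δ := by
          rw [h1]; linarith
  have hminus : ‖x' - t • y'‖ ≤ ‖x - t • y‖ + δ + t * δ := by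
    have e : x' - t • y' = (x - t • y) - (x - x') + t • (y - y') := by
      rw [smul_sub]; abel
    calc ‖x' - t • y'‖ = ‖(x - t • y) - (x - x') + t • (y - y')‖ := by rw [e]
      _ ≤ ‖(x - t • y) - (x - x')‖ + ‖t • (y - y')‖ := norm_add_le _ _
      _ ≤ ‖x - t • y‖ + ‖x - x'‖ + ‖t • (y - y')‖ := by
          gcongr; exact norm_sub_le _ _
      _ ≤ ‖x - t • y‖ + δ + t * δ := by
          rw [h1]; linarith
  have hlow : (2 * α + t * β) * (1 - δ) ≤ 2 * α * ‖x'‖ + t * β * ‖y'‖ := by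
    have h1 : 2 * α * (1 - δ) ≤ 2 * α * ‖x'‖ :=
      mul_le_mul_of_nonneg_left hx1 (by positivity)
    have h2 : t * β * (1 - δ) ≤ t * β * ‖y'‖ :=
      mul_le_mul_of_nonneg_left hy1' (by positivity)
    linarith
  rw [hsum] at hlow
  have hRδ : 2 * R * δ ≤ (2 + t) * δ := by
    refine mul_le_mul_of_nonneg_right ?_ hδ.le
    linarith
  nlinarith

end SpaceMid

/-- **S0166, the modulus.** As `model_gmidGE`, with `exists_blockSum_near`, `gcof_block`,
`exists_blockSum_near_off`, `blockSum_mid`. -/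
theorem esp_gmidGE (t : ℝ) (ht : 0 < t) :
    GMidGE (X := ESp) t (Real.sqrt (1 + t ^ 2 / 4) - 1) := by
  classical
  intro x hx η hη
  set R := Real.sqrt (1 + t ^ 2 / 4) with hRdef
  have hRsq : R ^ 2 = 1 + t ^ 2 / 4 := Real.sq_sqrt (by positivity)
  have hRpos : 0 < R := Real.sqrt_pos.2 (by positivity)
  have hRle : R ≤ 1 + t / 2 := by
    have : R ^ 2 ≤ (1 + t / 2) ^ 2 := by rw [hRsq]; nlinarith
    exact (abs_le_of_sq_le_sq' this (by positivity)).2
  have hδ : 0 < 2 * η / (4 + 3 * t) := by positivity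
  set δ := 2 * η / (4 + 3 * t) with hδdef
  have hδeq : (4 + 3 * t) * δ = 2 * η := by
    rw [hδdef]; field_simp
  obtain ⟨N₀, c, hc, hxc⟩ := exists_blockSum_near x hδ
  set c' : ℕ → List ℕ →₀ ℝ := fun n => if n < N₀ then c n else 0 with hc'def
  have hc' : ∀ n s, n < s.length → c' n s = 0 := by
    intro n s hs
    by_cases hn : n < N₀
    · simp only [hc'def, hn, if_true]; exact hc n s hs
    · simp [hc'def, hn]
  have hbs : blockSum N₀ c' hc' = blockSum N₀ c hc := by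
    unfold blockSum
    refine Finset.sum_congr rfl (fun n hn => ?_)
    have hcn : c' n = c n := by simp [hc'def, Finset.mem_range.1 hn]
    congr 2
    rw [hcn]
  obtain ⟨T, hT, hAT⟩ :=
    exists_suffixClosed ((Finset.range N₀).biUnion (fun n => (c n).support))
  have hcT : ∀ n, ∀ s ∉ T, c' n s = 0 := by
    intro n s hs
    by_cases hn : n < N₀
    · simp only [hc'def, hn, if_true]
      by_contra hne
      exact hs (hAT (Finset.mem_biUnion.2 ⟨n, Finset.mem_range.2 hn,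
        Finsupp.mem_support_iff.2 hne⟩))
    · simp [hc'def, hn]
  refine ⟨_, gcof_block N₀ T, ?_⟩
  intro y hy hy1
  obtain ⟨N, d, hd, hN, hdT, hyd⟩ := exists_blockSum_near_off N₀ T y hy hδ
  have hαβ : (1 / R) ^ 2 + (t / 2 / R) ^ 2 = 1 := by
    have : (1 / R) ^ 2 + (t / 2 / R) ^ 2 = (1 + t ^ 2 / 4) / R ^ 2 := by
      field_simp; ring
    rw [this, hRsq, div_self (by positivity)]
  have hmid := blockSum_mid N₀ N hN hT c' d hc' hd hcT hdT t ht.le
    (α := 1 / R) (β := t / 2 / R) (by positivity) (by positivity) hαβ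
  rw [hbs] at hmid
  have hsum : 2 * (1 / R) + t * (t / 2 / R) = 2 * R := by
    have : 2 * (1 / R) + t * (t / 2 / R) = 2 * (1 + t ^ 2 / 4) / R := by
      field_simp; ring
    rw [this, ← hRsq]; field_simp
  exact SpaceMid.gmid_estimate x (blockSum N₀ c hc) y (blockSum N d hd) ht hx hy1 hxc hyd hmid
    (by positivity) (by positivity) hsum hRle hδeq hδ

end Crest.Agent.S0166Aux
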