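import Crest.Agent.S0166Aux.Cof

/-!
# S0166–S0169, task T2: the game lemma "no equivalent AUC norm"
-/

set_option autoImplicit false

namespace Crest.Agent.S0166Aux

variable {X : Type} [NormedAddCommGroup X] [NormedSpace ℝ X]

/-- `Play B δ j x`: starting from `x` one can make `j` moves; a move answers a closed
finite-codimensional `F` and `η > 0` by some `y ∈ F` with `‖y‖ ≥ δ` and passes to a vector `x'` that is
`η`-close to `x + y`; all positions have norm `≤ B`. -/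
def Play (B δ : ℝ) : ℕ → X → Prop
  | 0, x => ‖x‖ ≤ B
  | j + 1, x => ‖x‖ ≤ B ∧ ∀ F : Set X, GCof F → ∀ η : ℝ, 0 < η →
      ∃ y ∈ F, δ ≤ ‖y‖ ∧ ∃ x' : X, ‖x' - (x + y)‖ ≤ η ∧ Play B δ j x'

theorem gequivNorm_norm : GEquivNorm (fun x : X => ‖x‖) := by
  refine ⟨fun x y => norm_add_le x y, fun a x => ?_, 1, 1, one_pos, fun x => ?_⟩
  · simp [norm_smul]
  · simp

/-- In finite dimension take `F = {0}`. -/
theorem gauc_of_finiteDimensional [FiniteDimensional ℝ X] : GAUC (fun x : X => ‖x‖) := by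
  intro t _
  refine ⟨1, one_pos, fun x _ => ⟨{0}, ⟨⊥, by simp, isClosed_singleton, inferInstance⟩, ?_⟩⟩
  intro y hy hy1
  rw [Set.mem_singleton_iff] at hy
  subst hy
  simp at hy1

theorem Play.norm_le {B δ : ℝ} {j : ℕ} {x : X} (h : Play B δ j x) : ‖x‖ ≤ B := by
  cases j with
  | zero => exact h
  | succ j => exact h.1

/-- one step of the game lemma -/
theorem Play.step_aux {N : X → ℝ} (hsub : ∀ x y : X, N (x + y) ≤ N x + N y)
    (hhom : ∀ (a : ℝ) (x : X), N (a • x) = abs a * N x) {t₀ c : ℝ} (ht₀ : 0 < t₀)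
    {x y : X} (hx : 0 < N x) (hy : 0 < N y) (hτ : t₀ * N x ≤ N y)
    (hc : c ≤ N ((N x)⁻¹ • x + t₀ • ((N y)⁻¹ • y)) - 1) (hc0 : 0 ≤ c) :
    (1 + c) * N x ≤ N (x + y) := by
  set n := N x with hn
  set m := N y with hm
  -- θ = t₀ n / m ∈ (0,1]
  set θ := t₀ * n / m with hθ
  have hθ0 : 0 < θ := by positivity
  have hθ1 : θ ≤ 1 := by rw [hθ, div_le_one hy]; exact hτ
  have key : n⁻¹ • x + t₀ • (m⁻¹ • y) = ((1 - θ) * n⁻¹) • x + (θ * n⁻¹) • (x + y) := by
    rw [smul_add, ← add_assoc, ← add_smul, smul_smul]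
    congr 2
    · ring
    · rw [hθ]; field_simp
  have h1 : N (n⁻¹ • x + t₀ • (m⁻¹ • y)) ≤ (1 - θ) + θ * n⁻¹ * N (x + y) := by
    rw [key]
    refine (hsub _ _).trans ?_
    rw [hhom, hhom, abs_of_nonneg (by have : 0 ≤ 1 - θ := by linarith
                                      positivity), abs_of_nonneg (by positivity)]
    have : (1 - θ) * n⁻¹ * N x = 1 - θ := by
      rw [← hn]; field_simp
    rw [this]
  have h2 : c ≤ θ * (n⁻¹ * N (x + y) - 1) := by nlinarith
  have h3 : 0 ≤ n⁻¹ * N (x + y) - 1 := by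
    by_contra hneg
    push Not at hneg
    nlinarith
  have h4 : c ≤ n⁻¹ * N (x + y) - 1 := by nlinarith
  have h5 : (1 + c) ≤ n⁻¹ * N (x + y) := by linarith
  calc (1 + c) * n ≤ (n⁻¹ * N (x + y)) * n := mul_le_mul_of_nonneg_right h5 hx.le
    _ = N (x + y) := by field_simp

/-- **Game lemma (K1).** With `a‖x‖ ≤ N x ≤ b‖x‖`, `t₀ = a δ / (b B)`, `c` from AUC at
`t₀`: `Play B δ j x → x ≠ 0 → N x * (1 + c/2)^j ≤ b * B` by induction on `j`
(move with `F` from AUC at `u = x / N x`, `η = c N x / (2 b)`; with `ŷ = y / N y`, `τ = N y / N x ≥ t₀`;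
convexity: `N (u + τ ŷ) ≥ 1 + c` since `u + t₀ ŷ` is a convex combination of `u` and `u + τ ŷ`;
so `N (x + y) ≥ (1 + c) N x` and `N x' ≥ (1 + c/2) N x > 0`). Then `a δ₀ (1+c/2)^j ≤ b B` for all
`j` is absurd. -/
theorem not_gauc_of_play {B δ δ₀ : ℝ} (hδ : 0 < δ) (hδ₀ : 0 < δ₀)
    (h : ∀ j : ℕ, ∃ x : X, δ₀ ≤ ‖x‖ ∧ Play B δ j x) (N : X → ℝ) (hN : GEquivNorm N) :
    ¬ GAUC N := by
  obtain ⟨hsub, hhom, a, b, ha, hab⟩ := hN
  intro hauc
  obtain ⟨x₀, hx₀, hP₀⟩ := h 0
  have hx₀pos : 0 < ‖x₀‖ := lt_of_lt_of_le hδ₀ hx₀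
  have hB : 0 < B := lt_of_lt_of_le hx₀pos hP₀.norm_le
  have hb : 0 < b := by
    have h1 := hab x₀
    have h2 : a * ‖x₀‖ ≤ b * ‖x₀‖ := h1.1.trans h1.2
    have h3 : a ≤ b := le_of_mul_le_mul_right h2 hx₀pos
    linarith
  set t₀ := a * δ / (b * B) with ht₀
  have ht₀pos : 0 < t₀ := by positivity
  obtain ⟨c, hc, hF⟩ := hauc t₀ ht₀pos
  have main : ∀ (j : ℕ) (x : X), Play B δ j x → 0 < N x → N x * (1 + c / 2) ^ j ≤ b * B := by
    intro j
    induction j with
    | zero =>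
      intro x hP _
      rw [pow_zero, mul_one]
      exact (hab x).2.trans (mul_le_mul_of_nonneg_left hP hb.le)
    | succ j ih =>
      intro x hP hx
      obtain ⟨hxB, hmove⟩ := hP
      have hu : N ((N x)⁻¹ • x) = 1 := by
        rw [hhom, abs_of_pos (by positivity)]; field_simp
      obtain ⟨F, hFc, hFy⟩ := hF _ hu
      obtain ⟨y, hyF, hyδ, x', hx', hP'⟩ := hmove F hFc (c * N x / (2 * b)) (by positivity)
      have hNy : a * δ ≤ N y := (mul_le_mul_of_nonneg_left hyδ ha.le).trans (hab y).1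
      have hNypos : 0 < N y := lt_of_lt_of_le (by positivity) hNy
      have hyhat : N ((N y)⁻¹ • y) = 1 := by
        rw [hhom, abs_of_pos (by positivity)]; field_simp
      have hc' := hFy _ (hFc.smul_mem _ hyF) hyhat
      have hNx : N x ≤ b * B := (hab x).2.trans (mul_le_mul_of_nonneg_left hxB hb.le)
      have hτ : t₀ * N x ≤ N y := by
        have : t₀ * N x ≤ t₀ * (b * B) := mul_le_mul_of_nonneg_left hNx ht₀pos.le
        have e : t₀ * (b * B) = a * δ := by rw [ht₀]; field_simp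
        linarith
      have hstep := Play.step_aux hsub hhom ht₀pos hx hNypos hτ hc' hc.le
      have hdiff : N ((x + y) - x') ≤ c * N x / 2 := by
        have h1 := (hab ((x + y) - x')).2
        have h2 : ‖(x + y) - x'‖ ≤ c * N x / (2 * b) := by rw [norm_sub_rev]; exact hx'
        have h3 : b * ‖(x + y) - x'‖ ≤ b * (c * N x / (2 * b)) :=
          mul_le_mul_of_nonneg_left h2 hb.le
        have e : b * (c * N x / (2 * b)) = c * N x / 2 := by field_simp
        linarith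
      have htri : N (x + y) ≤ N x' + N ((x + y) - x') := by
        have := hsub x' ((x + y) - x')
        rwa [add_sub_cancel] at this
      have hx'big : (1 + c / 2) * N x ≤ N x' := by nlinarith
      have hx'pos : 0 < N x' := lt_of_lt_of_le (by positivity) hx'big
      have := ih x' hP' hx'pos
      calc N x * (1 + c / 2) ^ (j + 1) = ((1 + c / 2) * N x) * (1 + c / 2) ^ j := by ring
        _ ≤ N x' * (1 + c / 2) ^ j := mul_le_mul_of_nonneg_right hx'big (by positivity)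
        _ ≤ b * B := this
  obtain ⟨j, hj⟩ := exists_nat_gt (b * B / (a * δ₀ * (c / 2)))
  obtain ⟨x, hxδ, hP⟩ := h j
  have hNx : a * δ₀ ≤ N x := (mul_le_mul_of_nonneg_left hxδ ha.le).trans (hab x).1
  have hNxpos : 0 < N x := lt_of_lt_of_le (by positivity) hNx
  have h1 := main j x hP hNxpos
  have h2 : 1 + (j : ℝ) * (c / 2) ≤ (1 + c / 2) ^ j :=
    one_add_mul_le_pow (by linarith) j
  have h3 : b * B < (j : ℝ) * (a * δ₀ * (c / 2)) := by
    rwa [div_lt_iff₀ (by positivity)] at hj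
  have h4 : a * δ₀ * (1 + (j : ℝ) * (c / 2)) ≤ N x * (1 + c / 2) ^ j :=
    mul_le_mul hNx h2 (by positivity) hNxpos.le
  have h5 : 0 < a * δ₀ := by positivity
  nlinarith

theorem not_finiteDimensional_of_play {B δ δ₀ : ℝ} (hδ : 0 < δ) (hδ₀ : 0 < δ₀)
    (h : ∀ j : ℕ, ∃ x : X, δ₀ ≤ ‖x‖ ∧ Play B δ j x) : ¬ FiniteDimensional ℝ X := by
  intro hfd
  exact not_gauc_of_play hδ hδ₀ h _ gequivNorm_norm gauc_of_finiteDimensional

/-- Trees give plays: `S : List ℕ → X` bounded by `B`, sibling increments of norm `≥ 2δ` with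
`O(√card)` sums, up to height `H`. (Uses Lemma W `exists_near_of_sqrt_bound` with `η' = min η δ`.) -/
theorem play_of_tree (S : List ℕ → X) {B δ : ℝ} (hδ : 0 < δ) (H : ℕ)
    (hB : ∀ s, ‖S s‖ ≤ B)
    (hinc : ∀ (s : List ℕ) (n : ℕ), s.length < H → 2 * δ ≤ ‖S (n :: s) - S s‖)
    (hsq : ∀ s : List ℕ, s.length < H → ∃ C : ℝ, ∀ A : Finset ℕ,
      ‖∑ n ∈ A, (S (n :: s) - S s)‖ ≤ C * Real.sqrt A.card) :
    ∀ (j : ℕ) (s : List ℕ), s.length + j ≤ H → Play B δ j (S s) := by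
  intro j
  induction j with
  | zero => intro s _; exact hB s
  | succ j ih =>
    intro s hs
    have hlt : s.length < H := by omega
    refine ⟨hB s, fun F hF η hη => ?_⟩
    obtain ⟨C, hC⟩ := hsq s hlt
    obtain ⟨n, -, y, hyF, hy⟩ := exists_near_of_sqrt_bound (fun n => S (n :: s) - S s) C hC hF
      (lt_min hη hδ) 0
    have hy1 : ‖y - (S (n :: s) - S s)‖ < η := lt_of_lt_of_le hy (min_le_left _ _)
    have hy2 : ‖y - (S (n :: s) - S s)‖ < δ := lt_of_lt_of_le hy (min_le_right _ _)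
    refine ⟨y, hyF, ?_, S (n :: s), ?_, ih (n :: s) (by simp only [List.length_cons]; omega)⟩
    · have h1 := hinc s n hlt
      have h2 : ‖S (n :: s) - S s‖ ≤ ‖y‖ + ‖y - (S (n :: s) - S s)‖ := by
        have := norm_sub_le y (y - (S (n :: s) - S s))
        simpa using this
      linarith
    · have : S (n :: s) - (S s + y) = -(y - (S (n :: s) - S s)) := by abel
      rw [this, norm_neg]
      exact hy1.le

end Crest.Agent.S0166Aux
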