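import Crest.Agent.S0166Aux.Space
import Crest.Agent.S0166Aux.Play

/-!
# S0166, task T16: plays of every length in `E = (⊕ₙ Xₙ)_{ℓ²}`
-/

set_option autoImplicit false

namespace Crest.Agent.S0166Aux

open Crest.AnalysisR.TreePotential

/-- truncation of the vertices to length `≤ j` -/
def SpacePlay.tr (j : ℕ) (s : List ℕ) : List ℕ := if s.length ≤ j then s else []

theorem SpacePlay.tr_length (j : ℕ) (s : List ℕ) : (SpacePlay.tr j s ++ [0]).length ≤ j + 1 := by
  unfold SpacePlay.tr
  split_ifs with h
  · simpa using h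
  · simp

/-- the positions of the tree, inside the block `j + 1` -/
noncomputable def SpacePlay.pos (j : ℕ) (s : List ℕ) : ↥(Xn (j + 1)) :=
  ⟨branch .global (SpacePlay.tr j s ++ [0]), branch_mem_Xn (SpacePlay.tr_length j s)⟩

/-- the increments of the tree, inside the block `j + 1` -/
noncomputable def SpacePlay.inc (j : ℕ) (s : List ℕ) (hs : s.length < j) (n : ℕ) :
    ↥(Xn (j + 1)) :=
  ⟨coordVector .global (n :: (s ++ [0])), coordVector_mem_Xn (by simp; omega)⟩

theorem SpacePlay.pos_sub (j : ℕ) (s : List ℕ) (hs : s.length < j) (n : ℕ) :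
    SpacePlay.pos j (n :: s) - SpacePlay.pos j s = SpacePlay.inc j s hs n := by
  apply Subtype.ext
  have h1 : SpacePlay.tr j (n :: s) = n :: s := by
    unfold SpacePlay.tr
    rw [if_pos (by simp; omega)]
  have h2 : SpacePlay.tr j s = s := by
    unfold SpacePlay.tr
    rw [if_pos (by omega)]
  show branch .global (SpacePlay.tr j (n :: s) ++ [0]) - branch .global (SpacePlay.tr j s ++ [0])
    = coordVector .global (n :: (s ++ [0]))
  rw [h1, h2, List.cons_append, branch]
  abel

/-- `play_of_tree` inside the block `n = j + 1` (isometrically embedded by `lp.single 2 n`,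
`lp.norm_single`), with `H = j` and
`S s = lp.single 2 (j+1) ⟨branch .global (s' ++ [0]), _⟩` where `s' = s` if `s.length ≤ j` and `s' = []` otherwise
(only the vertices of length `≤ j + 1` live in `Xn (j+1)`); bounds as in `model_play`. -/
theorem esp_play (j : ℕ) : ∃ x : ESp, 1 ≤ ‖x‖ ∧ Play 1 (1 / 2) j x := by
  have h2 : (0 : ENNReal) < 2 := by norm_num
  set S : List ℕ → ESp := fun s => lp.single 2 (j + 1) (SpacePlay.pos j s) with hS
  have hnorm : ∀ x : ↥(Xn (j + 1)), ‖(lp.single 2 (j + 1) x : ESp)‖ = ‖x‖ :=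
    fun x => lp.norm_single (E := fun n : ℕ => ↥(Xn n)) h2 (j + 1) x
  have hdiff : ∀ (s : List ℕ) (hs : s.length < j) (n : ℕ),
      S (n :: s) - S s = lp.single 2 (j + 1) (SpacePlay.inc j s hs n) := by
    intro s hs n
    simp only [hS]
    rw [← lp.single_sub, SpacePlay.pos_sub j s hs n]
  refine ⟨S [], ?_, ?_⟩
  · simp only [hS]
    rw [hnorm]
    exact one_le_norm_branch .global _ (by simp)
  · refine play_of_tree S (by norm_num) j ?_ ?_ ?_ j [] (by simp)
    · intro s
      simp only [hS]
      rw [hnorm]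
      exact norm_branch_le .global _
    · intro s n hs
      rw [hdiff s hs n, hnorm]
      have := one_le_norm_coordVector .global (n :: (s ++ [0])) (by simp)
      have e : ‖SpacePlay.inc j s hs n‖ = ‖coordVector .global (n :: (s ++ [0]))‖ := rfl
      rw [e]
      linarith
    · intro s hs
      refine ⟨1, fun A => ?_⟩
      have e1 : ∑ n ∈ A, (S (n :: s) - S s)
          = lp.single 2 (j + 1) (∑ n ∈ A, SpacePlay.inc j s hs n) := by
        rw [Finset.sum_congr rfl (fun n _ => hdiff s hs n)]
        exact (map_sum (lp.singleAddMonoidHom (E := fun n : ℕ => ↥(Xn n)) 2 (j + 1)) _ A).symm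
      rw [e1, hnorm]
      have e2 : ‖∑ n ∈ A, SpacePlay.inc j s hs n‖
          = ‖∑ n ∈ A, coordVector .global (n :: (s ++ [0]))‖ := by
        rw [← Submodule.norm_coe, Submodule.coe_sum]
        rfl
      rw [e2]
      exact norm_sum_siblings_le .global (s ++ [0]) A

end Crest.Agent.S0166Aux
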