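import Mathlib
import Crest.Prelude.Def_AsymptoticConvexity

/-!
# S0166–S0169, shared basics

Generic (type-class based) copies of the predicates of `Def_AsymptoticConvexity`, and the bridge
lemmas (all `Iff.rfl`) to the bundled `RealBanach` versions.
-/

set_option autoImplicit false

namespace Crest.Agent.S0166Aux

open Crest.AnalysisR

section Generic

variable {X : Type} [NormedAddCommGroup X] [NormedSpace ℝ X]

/-- generic version of `RealBanach.IsCof` -/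
def GCof (F : Set X) : Prop :=
  ∃ S : Submodule ℝ X, (S : Set X) = F ∧ IsClosed F ∧ FiniteDimensional ℝ (X ⧸ S)

/-- generic version of `RealBanach.IsEquivNorm` -/
def GEquivNorm (N : X → ℝ) : Prop :=
  (∀ x y : X, N (x + y) ≤ N x + N y) ∧ (∀ (a : ℝ) (x : X), N (a • x) = abs a * N x) ∧
    ∃ a b : ℝ, 0 < a ∧ ∀ x : X, a * ‖x‖ ≤ N x ∧ N x ≤ b * ‖x‖

/-- generic version of `RealBanach.IsAUC` -/
def GAUC (N : X → ℝ) : Prop :=
  ∀ t : ℝ, 0 < t → ∃ c : ℝ, 0 < c ∧ ∀ x : X, N x = 1 → ∃ F : Set X, GCof F ∧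
    ∀ y ∈ F, N y = 1 → c ≤ N (x + t • y) - 1

/-- generic version of `RealBanach.MidpointModulusGE` for the given norm -/
def GMidGE (t c : ℝ) : Prop :=
  ∀ x : X, ‖x‖ = 1 → ∀ η : ℝ, 0 < η → ∃ F : Set X, GCof F ∧
    ∀ y ∈ F, ‖y‖ = 1 → c - η ≤ (‖x + t • y‖ + ‖x - t • y‖) / 2 - 1

/-- generic version of `RealBanach.MidpointModulusLE` for the given norm -/
def GMidLE (t c : ℝ) : Prop :=
  ∀ x : X, ‖x‖ = 1 → ∀ F : Set X, GCof F → ∀ η : ℝ, 0 < η →
    ∃ y ∈ F, ‖y‖ = 1 ∧ (‖x + t • y‖ + ‖x - t • y‖) / 2 - 1 ≤ c + η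

/-- generic version of `RealBanach.OneSidedModulusGE` for the given norm -/
def GOneGE (t c : ℝ) : Prop :=
  ∀ x : X, ‖x‖ = 1 → ∀ η : ℝ, 0 < η → ∃ F : Set X, GCof F ∧
    ∀ y ∈ F, ‖y‖ = 1 → c - η ≤ ‖x + t • y‖ - 1

/-- generic version of `RealBanach.OneSidedModulusLE` for the given norm -/
def GOneLE (t c : ℝ) : Prop :=
  ∀ x : X, ‖x‖ = 1 → ∀ F : Set X, GCof F → ∀ η : ℝ, 0 < η →
    ∃ y ∈ F, ‖y‖ = 1 ∧ ‖x + t • y‖ - 1 ≤ c + η

/-- generic version of `RealBanach.MaxMidpointModulusGE` for the given norm -/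
def GMaxGE (t c : ℝ) : Prop :=
  ∀ x : X, ‖x‖ = 1 → ∀ η : ℝ, 0 < η → ∃ F : Set X, GCof F ∧
    ∀ y ∈ F, ‖y‖ = 1 → c - η ≤ max ‖x + t • y‖ ‖x - t • y‖ - 1

end Generic

section Bridge

variable (X : Type) [i1 : NormedAddCommGroup X] [i2 : NormedSpace ℝ X] [i3 : CompleteSpace X]

/-- bundle a type-class Banach space -/
abbrev mkRB : RealBanach := ⟨X, i1, i2, i3⟩

theorem isCof_iff (F : Set X) : (mkRB X).IsCof F ↔ GCof F := Iff.rfl
theorem isEquivNorm_iff (N : X → ℝ) : (mkRB X).IsEquivNorm N ↔ GEquivNorm N := Iff.rfl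
theorem isAUC_iff (N : X → ℝ) : (mkRB X).IsAUC N ↔ GAUC N := Iff.rfl
theorem midGE_iff (t c : ℝ) :
    (mkRB X).MidpointModulusGE (mkRB X).norm t c ↔ GMidGE (X := X) t c := Iff.rfl
theorem midLE_iff (t c : ℝ) :
    (mkRB X).MidpointModulusLE (mkRB X).norm t c ↔ GMidLE (X := X) t c := Iff.rfl
theorem oneGE_iff (t c : ℝ) :
    (mkRB X).OneSidedModulusGE (mkRB X).norm t c ↔ GOneGE (X := X) t c := Iff.rfl
theorem oneLE_iff (t c : ℝ) :
    (mkRB X).OneSidedModulusLE (mkRB X).norm t c ↔ GOneLE (X := X) t c := Iff.rfl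
theorem maxGE_iff (t c : ℝ) :
    (mkRB X).MaxMidpointModulusGE (mkRB X).norm t c ↔ GMaxGE (X := X) t c := Iff.rfl
theorem sepInf_iff :
    (mkRB X).IsSeparableInfiniteDim ↔
      (TopologicalSpace.SeparableSpace X ∧ ¬ FiniteDimensional ℝ X) := Iff.rfl
theorem reflexive_iff :
    (mkRB X).IsReflexive ↔ Function.Surjective (NormedSpace.inclusionInDoubleDual ℝ X) := Iff.rfl

end Bridge

end Crest.Agent.S0166Aux
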