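import Crest.Agent.S0166Aux.Play
import Crest.Prelude.Def_TreeProducts

/-!
# S0169, task T12: path products of i.i.d. multipliers
-/

set_option autoImplicit false
set_option linter.unusedSectionVars false

namespace Crest.Agent.S0166Aux

open MeasureTheory ProbabilityTheory Crest.AnalysisR.TreeProduct

variable {Ω : Type} [MeasurableSpace Ω]

/-! ### combinatorics of suffixes -/

/-- the nonempty suffixes of `v` -/
def casSfx : List ℕ → Finset (List ℕ)
  | [] => ∅
  | a :: v => insert (a :: v) (casSfx v)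

lemma cas_length_le {u v : List ℕ} (h : u ∈ casSfx v) : u.length ≤ v.length := by
  induction v with
  | nil => simp [casSfx] at h
  | cons a v ih =>
    simp only [casSfx, Finset.mem_insert] at h
    rcases h with rfl | h
    · exact le_rfl
    · exact (ih h).trans (by simp)

lemma cas_cons_notMem (a : ℕ) (v : List ℕ) : (a :: v) ∉ casSfx v := fun h => by
  have := cas_length_le h
  simp at this

lemma cas_pathProduct_eq (W : List ℕ → Ω → ℝ) (v : List ℕ) :
    pathProduct W v = ∏ u ∈ casSfx v, W u := by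
  induction v with
  | nil => ext z; simp [pathProduct, casSfx]
  | cons a v ih =>
    ext z
    rw [casSfx, Finset.prod_insert (cas_cons_notMem a v), ← ih]
    simp [pathProduct, mul_comm]

section
variable (ν : Measure ℝ) [IsProbabilityMeasure ν] (μ : Measure Ω) [IsProbabilityMeasure μ]
  (W : List ℕ → Ω → ℝ)

/-- hypotheses of S0169, bundled -/
structure CascadeHyp : Prop where
  hpos : ν (Set.Ioi 0) = 1
  hnc : ∀ c : ℝ, ν ≠ Measure.dirac c
  hmean : ∫ x, x ∂ν = 1
  hm2 : Integrable (fun x : ℝ => x ^ 2) ν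
  hW : IsRealization ν μ W

variable {ν μ W}

theorem measurable_pathProduct (h : CascadeHyp ν μ W) (v : List ℕ) :
    Measurable (pathProduct W v) := by
  induction v with
  | nil => exact measurable_const
  | cons a v ih => exact ih.mul (h.hW.1 _)

/-! ### the law of a single multiplier -/

lemma cas_integral_comp (h : CascadeHyp ν μ W) {u : List ℕ} (hu : u ≠ []) {g : ℝ → ℝ}
    (hg : Measurable g) : ∫ z, g (W u z) ∂μ = ∫ x, g x ∂ν := by
  rw [← h.hW.2.2 u hu, integral_map (h.hW.1 u).aemeasurable hg.aestronglyMeasurable]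

lemma cas_integrable_comp (h : CascadeHyp ν μ W) {u : List ℕ} (hu : u ≠ []) {g : ℝ → ℝ}
    (hg : Integrable g ν) : Integrable (fun z => g (W u z)) μ := by
  rw [← h.hW.2.2 u hu] at hg
  exact hg.comp_measurable (h.hW.1 u)

lemma cas_memLp_id (h : CascadeHyp ν μ W) : MemLp (fun x : ℝ => x) 2 ν :=
  (memLp_two_iff_integrable_sq measurable_id.aestronglyMeasurable).mpr h.hm2

lemma cas_integrable_id (h : CascadeHyp ν μ W) : Integrable (fun x : ℝ => x) ν :=
  (cas_memLp_id h).integrable one_le_two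

lemma cas_integrable_sub_one (h : CascadeHyp ν μ W) : Integrable (fun x : ℝ => x - 1) ν :=
  (cas_integrable_id h).sub (integrable_const 1)

lemma cas_integrable_abs_sub_one (h : CascadeHyp ν μ W) : Integrable (fun x : ℝ => |x - 1|) ν :=
  (cas_integrable_sub_one h).abs

lemma cas_memLp_sub_one (h : CascadeHyp ν μ W) : MemLp (fun x : ℝ => x - 1) 2 ν :=
  (cas_memLp_id h).sub (memLp_const 1)

lemma cas_integrable_sub_one_sq (h : CascadeHyp ν μ W) :
    Integrable (fun x : ℝ => (x - 1) ^ 2) ν :=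
  (cas_memLp_sub_one h).integrable_sq

lemma cas_integral_abs (h : CascadeHyp ν μ W) : ∫ x, |x| ∂ν = 1 := by
  rw [← h.hmean]
  apply integral_congr_ae
  have h0 : ν (Set.Ioi 0)ᶜ = 0 := (prob_compl_eq_zero_iff measurableSet_Ioi).mpr h.hpos
  have h1 : ∀ᵐ x ∂ν, x ∈ Set.Ioi (0 : ℝ) := by
    rw [ae_iff]; exact h0
  filter_upwards [h1] with x hx
  exact abs_of_pos hx

lemma cas_integral_sub_one (h : CascadeHyp ν μ W) : ∫ x, (x - 1) ∂ν = 0 := by
  rw [integral_sub (cas_integrable_id h) (integrable_const 1), h.hmean]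
  simp

/-! ### independence -/

lemma cas_indep_one (h : CascadeHyp ν μ W) (v : List ℕ) (a : ℕ) :
    IndepFun (pathProduct W v) (W (a :: v)) μ := by
  rw [cas_pathProduct_eq]
  exact h.hW.2.1.indepFun_finsetProd_of_notMem h.hW.1 (cas_cons_notMem a v)

/-- `M_v` is independent of the centred sum of the multipliers of its children -/
lemma cas_indep_sum (h : CascadeHyp ν μ W) (v : List ℕ) (A : Finset ℕ) :
    IndepFun (pathProduct W v) (fun z => ∑ a ∈ A, (W (a :: v) z - 1)) μ := by
  classical
  set S := casSfx v with hS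
  set T := A.image (fun a => a :: v) with hT
  have hdisj : Disjoint S T := by
    rw [Finset.disjoint_left]
    intro u hu hu'
    have h1 := cas_length_le hu
    obtain ⟨a, _, rfl⟩ := Finset.mem_image.mp hu'
    simp at h1
  have hind := h.hW.2.1.indepFun_finset S T hdisj h.hW.1
  have mφ : Measurable (fun x : S → ℝ => ∏ i, x i) := by fun_prop
  have mψ : Measurable (fun x : T → ℝ => ∑ i, (x i - 1)) := by fun_prop
  have hc := hind.comp mφ mψ
  have e1 : (fun x : S → ℝ => ∏ i, x i) ∘ (fun z (i : S) => W i z) = pathProduct W v := by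
    ext z
    rw [cas_pathProduct_eq, Finset.prod_apply]
    exact Finset.prod_coe_sort S (fun u => W u z)
  have e2 : (fun x : T → ℝ => ∑ i, (x i - 1)) ∘ (fun z (i : T) => W i z) =
      fun z => ∑ a ∈ A, (W (a :: v) z - 1) := by
    ext z
    have := Finset.sum_coe_sort T (fun u => W u z - 1)
    simp only [Function.comp]
    rw [this, hT, Finset.sum_image]
    intro a _ b _ hab
    simpa using hab
  rwa [e1, e2] at hc

/-! ### integrability -/

/-- `pathProduct W v` is square integrable (induction on `v`, independence of `pathProduct W v` and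
`W (a :: v)`: `pathProduct W v` is a product of `W u` over the nonempty suffixes `u` of `v`, none of which
is `a :: v`; `iIndepFun.indepFun_finset_prod_of_notMem` or `iIndepFun.indepFun_finset` + `IndepFun.comp`). -/
theorem memLp_two_pathProduct (h : CascadeHyp ν μ W) (v : List ℕ) :
    MemLp (pathProduct W v) 2 μ := by
  induction v with
  | nil => exact memLp_const 1
  | cons a v ih =>
    rw [memLp_two_iff_integrable_sq (measurable_pathProduct h _).aestronglyMeasurable]
    have msq : Measurable (fun x : ℝ => x ^ 2) := by fun_prop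
    have hind : IndepFun (fun z => pathProduct W v z ^ 2) (fun z => W (a :: v) z ^ 2) μ :=
      (cas_indep_one h v a).comp msq msq
    have i1 : Integrable (fun z => pathProduct W v z ^ 2) μ := ih.integrable_sq
    have i2 : Integrable (fun z => W (a :: v) z ^ 2) μ :=
      cas_integrable_comp h (by simp) h.hm2
    have := hind.integrable_mul i1 i2
    refine this.congr (Filter.Eventually.of_forall fun z => ?_)
    simp only [Pi.mul_apply, pathProduct]
    ring

theorem integrable_pathProduct (h : CascadeHyp ν μ W) (v : List ℕ) :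
    Integrable (pathProduct W v) μ :=
  (memLp_two_pathProduct h v).integrable one_le_two

/-- `E |M_v| = 1` -/
theorem integral_abs_pathProduct (h : CascadeHyp ν μ W) (v : List ℕ) :
    ∫ z, |pathProduct W v z| ∂μ = 1 := by
  induction v with
  | nil => simp [pathProduct]
  | cons a v ih =>
    have mabs : Measurable (fun x : ℝ => |x|) := by fun_prop
    have hind : IndepFun (fun z => |pathProduct W v z|) (fun z => |W (a :: v) z|) μ :=
      (cas_indep_one h v a).comp mabs mabs
    have e : ∀ z, |pathProduct W (a :: v) z| = |pathProduct W v z| * |W (a :: v) z| := fun z => by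
      simp only [pathProduct, abs_mul]
    simp only [e]
    rw [hind.integral_fun_mul_eq_mul_integral
      (mabs.comp (measurable_pathProduct h v)).aestronglyMeasurable
      (mabs.comp (h.hW.1 _)).aestronglyMeasurable, ih, one_mul,
      cas_integral_comp h (by simp) mabs, cas_integral_abs h]

/-- `δ = E |W - 1| > 0` because `ν` is not the point mass at `1`. -/
theorem integral_abs_sub_one_pos (h : CascadeHyp ν μ W) : 0 < ∫ x, |x - 1| ∂ν := by
  have hnn : 0 ≤ ∫ x, |x - 1| ∂ν := integral_nonneg fun x => abs_nonneg _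
  rcases hnn.lt_or_eq with hlt | heq
  · exact hlt
  · exfalso
    have h0 := (integral_eq_zero_iff_of_nonneg (fun x => abs_nonneg (x - 1))
      (cas_integrable_abs_sub_one h)).mp heq.symm
    have h1 : (fun x : ℝ => x) =ᵐ[ν] fun _ => (1 : ℝ) := by
      filter_upwards [h0] with x hx
      have : |x - 1| = 0 := hx
      linarith [abs_eq_zero.mp this]
    apply h.hnc 1
    have h2 : ν.map (fun x : ℝ => x) = ν.map (fun _ => (1 : ℝ)) := Measure.map_congr h1
    rw [Measure.map_const, measure_univ, one_smul] at h2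
    rw [← h2]
    exact Measure.map_id.symm

/-- the increments factorise -/
lemma cas_increment (W : List ℕ → Ω → ℝ) (v : List ℕ) (a : ℕ) (z : Ω) :
    pathProduct W (a :: v) z - pathProduct W v z = pathProduct W v z * (W (a :: v) z - 1) := by
  simp only [pathProduct]; ring

/-- `E |M_v * Z_A| = E |Z_A|` -/
lemma cas_integral_abs_sum (h : CascadeHyp ν μ W) (v : List ℕ) (A : Finset ℕ) :
    ∫ z, |∑ a ∈ A, (pathProduct W (a :: v) z - pathProduct W v z)| ∂μ =
      ∫ z, |∑ a ∈ A, (W (a :: v) z - 1)| ∂μ := by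
  have mabs : Measurable (fun x : ℝ => |x|) := by fun_prop
  have hind : IndepFun (fun z => |pathProduct W v z|)
      (fun z => |∑ a ∈ A, (W (a :: v) z - 1)|) μ := (cas_indep_sum h v A).comp mabs mabs
  have e : ∀ z, |∑ a ∈ A, (pathProduct W (a :: v) z - pathProduct W v z)| =
      |pathProduct W v z| * |∑ a ∈ A, (W (a :: v) z - 1)| := fun z => by
    simp only [cas_increment]
    rw [← Finset.mul_sum, abs_mul]
  have mZ : Measurable (fun z => ∑ a ∈ A, (W (a :: v) z - 1)) :=
    Finset.measurable_fun_sum A fun a _ => (h.hW.1 (a :: v)).sub_const 1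
  simp only [e]
  rw [hind.integral_fun_mul_eq_mul_integral
    (mabs.comp (measurable_pathProduct h v)).aestronglyMeasurable
    (mabs.comp mZ).aestronglyMeasurable, integral_abs_pathProduct h v, one_mul]

/-- `E |M_{a::v} - M_v| = E|M_v| · E|W - 1|` -/
theorem integral_abs_increment (h : CascadeHyp ν μ W) (v : List ℕ) (a : ℕ) :
    ∫ z, |pathProduct W (a :: v) z - pathProduct W v z| ∂μ = ∫ x, |x - 1| ∂ν := by
  have := cas_integral_abs_sum h v {a}
  simp only [Finset.sum_singleton] at this
  rw [this]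
  exact cas_integral_comp h (u := a :: v) (by simp) (g := fun x => |x - 1|) (by fun_prop)

/-- `(E|Z|)^2 ≤ E Z^2` -/
lemma cas_sq_integral_abs_le {Z : Ω → ℝ} (hZ : MemLp Z 2 μ) :
    (∫ z, |Z z| ∂μ) ^ 2 ≤ ∫ z, Z z ^ 2 ∂μ := by
  have hY : MemLp (fun z => |Z z|) 2 μ := hZ.abs
  have h1 := variance_eq_sub hY
  have h2 := variance_nonneg (fun z => |Z z|) μ
  have h3 : ∫ z, ((fun z => |Z z|) ^ 2) z ∂μ = ∫ z, Z z ^ 2 ∂μ := by
    apply integral_congr_ae
    exact Filter.Eventually.of_forall fun z => by simp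
  rw [h3] at h1
  linarith

/-- second moment of the centred sum -/
lemma cas_second_moment (h : CascadeHyp ν μ W) (v : List ℕ) (A : Finset ℕ) :
    MemLp (fun z => ∑ a ∈ A, (W (a :: v) z - 1)) 2 μ ∧
    ∫ z, (∑ a ∈ A, (W (a :: v) z - 1)) ^ 2 ∂μ = A.card * ∫ x, (x - 1) ^ 2 ∂ν := by
  set X : ℕ → Ω → ℝ := fun a z => W (a :: v) z - 1 with hX
  have mX : ∀ a, Measurable (X a) := fun a => (h.hW.1 (a :: v)).sub_const 1
  have lX : ∀ a, MemLp (X a) 2 μ := fun a => by
    rw [memLp_two_iff_integrable_sq (mX a).aestronglyMeasurable]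
    exact cas_integrable_comp h (u := a :: v) (by simp) (cas_integrable_sub_one_sq h)
  have iX : ∀ a, ∫ z, X a z ∂μ = 0 := fun a => by
    rw [← cas_integral_sub_one h]
    exact cas_integral_comp h (u := a :: v) (by simp) (g := fun x => x - 1) (by fun_prop)
  have vX : ∀ a, variance (X a) μ = ∫ x, (x - 1) ^ 2 ∂ν := fun a => by
    rw [variance_of_integral_eq_zero (mX a).aemeasurable (iX a)]
    exact cas_integral_comp h (u := a :: v) (by simp) (g := fun x => (x - 1) ^ 2) (by fun_prop)
  have hpair : Set.Pairwise (↑A : Set ℕ) fun a b => IndepFun (X a) (X b) μ := by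
    intro a _ b _ hab
    have hne : (a :: v) ≠ (b :: v) := by simpa using hab
    have m1 : Measurable (fun x : ℝ => x - 1) := by fun_prop
    exact (h.hW.2.1.indepFun hne).comp m1 m1
  have hsum : (fun z => ∑ a ∈ A, (W (a :: v) z - 1)) = ∑ a ∈ A, X a := by
    ext z; simp [hX]
  have lS : MemLp (∑ a ∈ A, X a) 2 μ := memLp_finsetSum' A fun a _ => lX a
  have iS : ∫ z, (∑ a ∈ A, X a) z ∂μ = 0 := by
    simp only [Finset.sum_apply]
    rw [integral_finsetSum A fun a _ => (lX a).integrable one_le_two]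
    simp [iX]
  have hv := IndepFun.variance_sum (s := A) (fun a _ => lX a) hpair
  rw [variance_of_integral_eq_zero lS.aemeasurable iS] at hv
  refine ⟨hsum ▸ lS, ?_⟩
  have e : ∫ z, (∑ a ∈ A, (W (a :: v) z - 1)) ^ 2 ∂μ = ∫ z, (∑ a ∈ A, X a) z ^ 2 ∂μ := by
    rw [← hsum]
  rw [e, hv]
  simp [vX]

/-- `E |Σ_{a ∈ A} (M_{a::v} - M_v)| ≤ C √|A|` with `C² = E[M_v²] Var(W)` (Cauchy–Schwarz and orthogonality of
the increments), or `C = √Var(W)` via `E|M_v| E|Σ (W_a - 1)|`. -/
theorem integral_abs_sum_increment_le (h : CascadeHyp ν μ W) (v : List ℕ) :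
    ∃ C : ℝ, ∀ A : Finset ℕ,
      ∫ z, |∑ a ∈ A, (pathProduct W (a :: v) z - pathProduct W v z)| ∂μ ≤ C * Real.sqrt A.card := by
  refine ⟨Real.sqrt (∫ x, (x - 1) ^ 2 ∂ν), fun A => ?_⟩
  rw [cas_integral_abs_sum h v A]
  obtain ⟨hl, he⟩ := cas_second_moment h v A
  have h1 := cas_sq_integral_abs_le hl
  rw [he] at h1
  rw [← Real.sqrt_mul (integral_nonneg fun x => sq_nonneg _), mul_comm]
  exact Real.le_sqrt_of_sq_le h1

/-- the class of `M_v` in the product span -/
noncomputable def pathVec (h : CascadeHyp ν μ W) (v : List ℕ) : ↥(productSpan μ W) :=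
  ⟨(memLp_one_iff_integrable.mpr (integrable_pathProduct h v)).toLp _, by
    apply Submodule.le_topologicalClosure
    apply Submodule.subset_span
    exact ⟨v, MemLp.coeFn_toLp _⟩⟩

lemma cas_coe_pathVec (h : CascadeHyp ν μ W) (v : List ℕ) :
    ((pathVec h v : ↥(productSpan μ W)) : Lp ℝ 1 μ) =ᵐ[μ] pathProduct W v :=
  MemLp.coeFn_toLp (memLp_one_iff_integrable.mpr (integrable_pathProduct h v))

lemma cas_norm_eq (x : ↥(productSpan μ W)) : ‖x‖ = ∫ z, |(x : Lp ℝ 1 μ) z| ∂μ := by
  rw [Submodule.coe_norm, L1.norm_eq_integral_norm]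
  rfl

lemma cas_norm_pathVec (h : CascadeHyp ν μ W) (v : List ℕ) : ‖pathVec h v‖ = 1 := by
  rw [cas_norm_eq, ← integral_abs_pathProduct h v]
  apply integral_congr_ae
  filter_upwards [cas_coe_pathVec h v] with z hz
  rw [hz]

lemma cas_coe_sub (h : CascadeHyp ν μ W) (v : List ℕ) (a : ℕ) :
    ((pathVec h (a :: v) - pathVec h v : ↥(productSpan μ W)) : Lp ℝ 1 μ) =ᵐ[μ]
      fun z => pathProduct W (a :: v) z - pathProduct W v z := by
  rw [Submodule.coe_sub]
  filter_upwards [Lp.coeFn_sub ((pathVec h (a :: v) : ↥(productSpan μ W)) : Lp ℝ 1 μ)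
    ((pathVec h v : ↥(productSpan μ W)) : Lp ℝ 1 μ), cas_coe_pathVec h v,
    cas_coe_pathVec h (a :: v)] with z h1 h2 h3
  rw [h1, Pi.sub_apply, h2, h3]

lemma cas_norm_sub (h : CascadeHyp ν μ W) (v : List ℕ) (a : ℕ) :
    ‖pathVec h (a :: v) - pathVec h v‖ = ∫ x, |x - 1| ∂ν := by
  rw [cas_norm_eq, ← integral_abs_increment h v a]
  apply integral_congr_ae
  filter_upwards [cas_coe_sub h v a] with z hz
  rw [hz]

lemma cas_norm_sum (h : CascadeHyp ν μ W) (v : List ℕ) (A : Finset ℕ) :
    ‖∑ a ∈ A, (pathVec h (a :: v) - pathVec h v)‖ =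
      ∫ z, |∑ a ∈ A, (pathProduct W (a :: v) z - pathProduct W v z)| ∂μ := by
  rw [cas_norm_eq]
  apply integral_congr_ae
  rw [Submodule.coe_sum]
  have hall : ∀ᵐ z ∂μ, ∀ a ∈ A,
      ((pathVec h (a :: v) - pathVec h v : ↥(productSpan μ W)) : Lp ℝ 1 μ) z =
        pathProduct W (a :: v) z - pathProduct W v z := by
    rw [Finset.eventually_all]
    exact fun a _ => cas_coe_sub h v a
  filter_upwards [Lp.coeFn_fun_finsetSum A
    (fun a => ((pathVec h (a :: v) - pathVec h v : ↥(productSpan μ W)) : Lp ℝ 1 μ)), hall]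
    with z h1 h2
  rw [h1, Finset.sum_congr rfl h2]

/-- `play_of_tree` with `S = pathVec h`, `B = 1`, `δ = E|W-1| / 2`. -/
theorem cascade_play (h : CascadeHyp ν μ W) :
    ∃ δ : ℝ, 0 < δ ∧ ∀ j : ℕ, ∃ x : ↥(productSpan μ W), 1 ≤ ‖x‖ ∧ Play 1 δ j x := by
  have hδ := integral_abs_sub_one_pos h
  refine ⟨(∫ x, |x - 1| ∂ν) / 2, by positivity, fun j => ⟨pathVec h [], ?_, ?_⟩⟩
  · exact (cas_norm_pathVec h []).ge
  · refine play_of_tree (pathVec h) (by positivity) j (fun s => (cas_norm_pathVec h s).le)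
      (fun s n _ => ?_) (fun s _ => ?_) j [] (by simp)
    · rw [cas_norm_sub]; linarith
    · obtain ⟨C, hC⟩ := integral_abs_sum_increment_le h s
      exact ⟨C, fun A => by rw [cas_norm_sum]; exact hC A⟩

end

end Crest.Agent.S0166Aux
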