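import Crest.Agent.S0166Aux.Moduli
import Crest.Prelude.Def_DaugavetL1

/-!
# S0167, task T11: the Daugavet key lemma in subspaces of `L¹`
-/

set_option autoImplicit false

namespace Crest.Agent.S0166Aux

open MeasureTheory Crest.AnalysisR.L1Subspace

/-- **Slice form of the Daugavet property** (any real normed space `V`). -/
theorem daugavet_slice {V : Type} [NormedAddCommGroup V] [NormedSpace ℝ V]
    (hD : HasDaugavetProperty V) (x : V) (hx : ‖x‖ = 1) (φ : V →L[ℝ] ℝ) {ε : ℝ} (hε : 0 < ε) :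
    ∃ z : V, ‖z‖ ≤ 1 ∧ ‖φ‖ - ε ≤ φ z ∧ 2 - ε ≤ ‖z - x‖ := by
  by_cases hφ : φ = 0
  · refine ⟨-x, by rw [norm_neg, hx], by simp [hφ, hε.le], ?_⟩
    have : -x - x = (-2 : ℝ) • x := by
      rw [neg_smul, two_smul]; abel
    rw [this, norm_smul, hx]; norm_num; linarith
  have hφn : 0 < ‖φ‖ := norm_pos_iff.mpr hφ
  set ψ : V →L[ℝ] ℝ := ‖φ‖⁻¹ • φ with hψ
  have hψn : ‖ψ‖ = 1 := by
    rw [hψ, norm_smul, norm_inv, norm_norm, inv_mul_cancel₀ hφn.ne']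
  have hT : ‖ψ.smulRight (-x)‖ = 1 := by
    rw [ContinuousLinearMap.norm_smulRight_apply, hψn, norm_neg, hx, one_mul]
  have h2 : ‖ContinuousLinearMap.id ℝ V + ψ.smulRight (-x)‖ = 2 := by
    rw [hD ψ (-x), hT]; norm_num
  set δ : ℝ := min (ε / 2) (ε / ‖φ‖) with hδ
  have hδ0 : 0 < δ := lt_min (by positivity) (by positivity)
  have hδ1 : δ ≤ ε / 2 := min_le_left _ _
  have hδ2 : δ ≤ ε / ‖φ‖ := min_le_right _ _
  obtain ⟨u, hu1, hu2⟩ := ContinuousLinearMap.exists_lt_apply_of_lt_opNorm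
    (ContinuousLinearMap.id ℝ V + ψ.smulRight (-x)) (r := 2 - δ) (by rw [h2]; linarith)
  have hu3 : (ContinuousLinearMap.id ℝ V + ψ.smulRight (-x)) u = u - ψ u • x := by
    simp [sub_eq_add_neg]
  rw [hu3] at hu2
  have habs : 1 - δ < |ψ u| := by
    have : ‖u - ψ u • x‖ ≤ ‖u‖ + |ψ u| := by
      calc ‖u - ψ u • x‖ ≤ ‖u‖ + ‖ψ u • x‖ := norm_sub_le _ _
        _ = ‖u‖ + |ψ u| := by rw [norm_smul, hx, mul_one, Real.norm_eq_abs]
    linarith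
  have hle : |ψ u| ≤ 1 := by
    have := ψ.le_opNorm u
    rw [hψn, one_mul, Real.norm_eq_abs] at this
    linarith
  -- choose the sign
  obtain ⟨z, hz1, hz2, hz3⟩ : ∃ z : V, ‖z‖ ≤ 1 ∧ ψ z = |ψ u| ∧ ‖z - ψ z • x‖ = ‖u - ψ u • x‖ := by
    rcases le_total 0 (ψ u) with h | h
    · exact ⟨u, hu1.le, (abs_of_nonneg h).symm, rfl⟩
    · refine ⟨-u, by rw [norm_neg]; exact hu1.le, by rw [map_neg, abs_of_nonpos h], ?_⟩
      rw [map_neg, ← norm_neg]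
      congr 1
      rw [neg_smul]; abel
  refine ⟨z, hz1, ?_, ?_⟩
  · have : φ z = ‖φ‖ * ψ z := by
      rw [hψ]; simp [hφn.ne']
    rw [this, hz2]
    have h3 : ‖φ‖ * δ ≤ ε := by
      calc ‖φ‖ * δ ≤ ‖φ‖ * (ε / ‖φ‖) := by gcongr
        _ = ε := by field_simp
    nlinarith
  · have h4 : z - ψ z • x = (z - x) + (1 - ψ z) • x := by
      rw [sub_smul, one_smul]; abel
    have h5 : ‖z - ψ z • x‖ ≤ ‖z - x‖ + (1 - ψ z) := by
      rw [h4]
      calc ‖(z - x) + (1 - ψ z) • x‖ ≤ ‖z - x‖ + ‖(1 - ψ z) • x‖ := norm_add_le _ _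
        _ = ‖z - x‖ + (1 - ψ z) := by
          rw [norm_smul, hx, mul_one, Real.norm_eq_abs, abs_of_nonneg]
          rw [hz2]; linarith
    rw [hz3, hz2] at h5
    linarith

/-- real inequality behind `defect_convex`. -/
theorem defect_real (a₁ a₂ b l : ℝ) (h0 : 0 ≤ l) (h1 : l ≤ 1) :
    |l * a₁ + (1 - l) * a₂| + |b| - |l * a₁ + (1 - l) * a₂ - b| ≤
      (|a₁| + |b| - |a₁ - b|) + (|a₂| + |b| - |a₂ - b|) := by
  set c := l * a₁ + (1 - l) * a₂ with hc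
  have hmin : min a₁ a₂ ≤ c := by
    rcases le_total a₁ a₂ with h | h
    · rw [min_eq_left h]; nlinarith
    · rw [min_eq_right h]; nlinarith
  have hmax : c ≤ max a₁ a₂ := by
    rcases le_total a₁ a₂ with h | h
    · rw [max_eq_right h]; nlinarith
    · rw [max_eq_left h]; nlinarith
  clear_value c
  rcases le_total a₁ a₂ with h | h
  · rw [min_eq_left h] at hmin; rw [max_eq_right h] at hmax
    rcases abs_cases c with ⟨e1, _⟩ | ⟨e1, _⟩ <;> rcases abs_cases b with ⟨e2, _⟩ | ⟨e2, _⟩ <;>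
    rcases abs_cases (c - b) with ⟨e3, _⟩ | ⟨e3, _⟩ <;> rcases abs_cases a₁ with ⟨e4, _⟩ | ⟨e4, _⟩ <;>
    rcases abs_cases (a₁ - b) with ⟨e5, _⟩ | ⟨e5, _⟩ <;> rcases abs_cases a₂ with ⟨e6, _⟩ | ⟨e6, _⟩ <;>
    rcases abs_cases (a₂ - b) with ⟨e7, _⟩ | ⟨e7, _⟩ <;> rw [e1, e2, e3, e4, e5, e6, e7] <;> linarith
  · rw [min_eq_right h] at hmin; rw [max_eq_left h] at hmax
    rcases abs_cases c with ⟨e1, _⟩ | ⟨e1, _⟩ <;> rcases abs_cases b with ⟨e2, _⟩ | ⟨e2, _⟩ <;>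
    rcases abs_cases (c - b) with ⟨e3, _⟩ | ⟨e3, _⟩ <;> rcases abs_cases a₁ with ⟨e4, _⟩ | ⟨e4, _⟩ <;>
    rcases abs_cases (a₁ - b) with ⟨e5, _⟩ | ⟨e5, _⟩ <;> rcases abs_cases a₂ with ⟨e6, _⟩ | ⟨e6, _⟩ <;>
    rcases abs_cases (a₂ - b) with ⟨e7, _⟩ | ⟨e7, _⟩ <;> rw [e1, e2, e3, e4, e5, e6, e7] <;> linarith

/-- abstract separation step: `Q` a finite-dimensional normed space, `mk : V → Q` a contraction. -/
theorem daugavet_sep_core {V Q : Type} [NormedAddCommGroup V] [NormedSpace ℝ V]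
    [NormedAddCommGroup Q] [NormedSpace ℝ Q] [FiniteDimensional ℝ Q]
    (mk : V →L[ℝ] Q) (hmk : ∀ z : V, ‖mk z‖ ≤ ‖z‖)
    (hD : HasDaugavetProperty V) (x : V) (hx : ‖x‖ = 1)
    (hdc : ∀ (z₁ z₂ : V) (l : ℝ), 0 ≤ l → l ≤ 1 →
      ‖l • z₁ + (1 - l) • z₂‖ + 1 - ‖l • z₁ + (1 - l) • z₂ - x‖ ≤
        (‖z₁‖ + 1 - ‖z₁ - x‖) + (‖z₂‖ + 1 - ‖z₂ - x‖))
    {ε : ℝ} (hε : 0 < ε) :
    ∃ z : V, ‖z‖ ≤ 1 ∧ ‖z‖ + 1 - ‖z - x‖ ≤ ε ∧ ‖mk z - mk x‖ ≤ ε := by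
  have : ProperSpace Q := FiniteDimensional.proper_real Q
  set Z : Set Q :=
    {q | ∀ ε > 0, ∃ z : V, ‖z‖ ≤ 1 ∧ ‖z‖ + 1 - ‖z - x‖ ≤ ε ∧ ‖mk z - q‖ ≤ ε} with hZ
  have hconv : Convex ℝ Z := by
    intro q₁ h₁ q₂ h₂ a b ha hb hab ε hε
    obtain ⟨z₁, hz₁, hd₁, hm₁⟩ := h₁ (ε / 2) (by positivity)
    obtain ⟨z₂, hz₂, hd₂, hm₂⟩ := h₂ (ε / 2) (by positivity)
    have hb' : b = 1 - a := by linarith
    subst hb'
    have ha1 : a ≤ 1 := by linarith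
    refine ⟨a • z₁ + (1 - a) • z₂, ?_, ?_, ?_⟩
    · calc ‖a • z₁ + (1 - a) • z₂‖ ≤ ‖a • z₁‖ + ‖(1 - a) • z₂‖ := norm_add_le _ _
        _ = a * ‖z₁‖ + (1 - a) * ‖z₂‖ := by
          rw [norm_smul, norm_smul, Real.norm_eq_abs, Real.norm_eq_abs, abs_of_nonneg ha,
            abs_of_nonneg hb]
        _ ≤ a * 1 + (1 - a) * 1 := by gcongr
        _ = 1 := by ring
    · have := hdc z₁ z₂ a ha ha1
      linarith
    · have : mk (a • z₁ + (1 - a) • z₂) - (a • q₁ + (1 - a) • q₂)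
          = a • (mk z₁ - q₁) + (1 - a) • (mk z₂ - q₂) := by
        rw [map_add, map_smul, map_smul, smul_sub, smul_sub]; abel
      rw [this]
      calc ‖a • (mk z₁ - q₁) + (1 - a) • (mk z₂ - q₂)‖
          ≤ ‖a • (mk z₁ - q₁)‖ + ‖(1 - a) • (mk z₂ - q₂)‖ := norm_add_le _ _
        _ = a * ‖mk z₁ - q₁‖ + (1 - a) * ‖mk z₂ - q₂‖ := by
          rw [norm_smul, norm_smul, Real.norm_eq_abs, Real.norm_eq_abs, abs_of_nonneg ha,
            abs_of_nonneg hb]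
        _ ≤ a * (ε / 2) + (1 - a) * (ε / 2) := by gcongr
        _ ≤ ε := by nlinarith
  have hclosed : IsClosed Z := by
    apply isClosed_of_closure_subset
    intro q hq ε hε
    obtain ⟨q', hq', hd⟩ := Metric.mem_closure_iff.mp hq (ε / 2) (by positivity)
    obtain ⟨z, hz, hdz, hm⟩ := hq' (ε / 2) (by positivity)
    refine ⟨z, hz, by linarith, ?_⟩
    calc ‖mk z - q‖ = ‖(mk z - q') + (q' - q)‖ := by congr 1; abel
      _ ≤ ‖mk z - q'‖ + ‖q' - q‖ := norm_add_le _ _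
      _ ≤ ε / 2 + ε / 2 := by
        have : ‖q' - q‖ < ε / 2 := by rw [← dist_eq_norm, dist_comm]; exact hd
        linarith
      _ = ε := by ring
  have hmem : mk x ∈ Z := by
    by_contra hnot
    obtain ⟨ψ, u, hu1, hu2⟩ := geometric_hahn_banach_closed_point hconv hclosed hnot
    set φ : V →L[ℝ] ℝ := ψ.comp mk with hφ
    -- the sequence from the slices
    have hseq : ∀ k : ℕ, ∃ z : V, ‖z‖ ≤ 1 ∧ ‖φ‖ - 1 / ((k : ℝ) + 1) ≤ φ z ∧
        2 - 1 / ((k : ℝ) + 1) ≤ ‖z - x‖ := fun k =>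
      daugavet_slice hD x hx φ (by positivity)
    choose z hz1 hz2 hz3 using hseq
    have hb : ∀ k, mk (z k) ∈ Metric.closedBall (0 : Q) 1 := fun k => by
      rw [mem_closedBall_zero_iff]; exact (hmk _).trans (hz1 k)
    obtain ⟨q, -, σ, hσ, hlim⟩ := tendsto_subseq_of_bounded Metric.isBounded_closedBall hb
    have h1k : Filter.Tendsto (fun k : ℕ => 1 / (((σ k : ℕ) : ℝ) + 1)) Filter.atTop (nhds 0) :=
      tendsto_one_div_add_atTop_nhds_zero_nat.comp hσ.tendsto_atTop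
    have hqZ : q ∈ Z := by
      intro ε hε
      have e1 : ∀ᶠ k in Filter.atTop, 1 / (((σ k : ℕ) : ℝ) + 1) < ε :=
        h1k.eventually (gt_mem_nhds hε)
      have e2 : ∀ᶠ k in Filter.atTop, dist ((fun k => mk (z k)) (σ k)) q < ε :=
        (Metric.tendsto_nhds.mp hlim) ε hε
      obtain ⟨k, hk1, hk2⟩ := (e1.and e2).exists
      refine ⟨z (σ k), hz1 _, ?_, ?_⟩
      · have := hz3 (σ k); have := hz1 (σ k); linarith
      · rw [← dist_eq_norm]; exact hk2.le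
    have hψq : ‖φ‖ ≤ ψ q := by
      have t1 : Filter.Tendsto (fun k => ψ (mk (z (σ k)))) Filter.atTop (nhds (ψ q)) :=
        (ψ.continuous.tendsto q).comp hlim
      have t2 : Filter.Tendsto (fun k : ℕ => ‖φ‖ - 1 / (((σ k : ℕ) : ℝ) + 1)) Filter.atTop
          (nhds (‖φ‖ - 0)) := tendsto_const_nhds.sub h1k
      rw [sub_zero] at t2
      exact le_of_tendsto_of_tendsto' t2 t1 (fun k => hz2 (σ k))
    have hφx : ψ (mk x) ≤ ‖φ‖ := by
      have := φ.le_opNorm x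
      rw [hx, mul_one] at this
      exact (le_abs_self _).trans this
    have := hu1 q hqZ
    linarith
  exact hmem ε hε

variable {Ω : Type} [MeasurableSpace Ω] (P : Measure Ω)

theorem defect_eq_integral (x f : Lp ℝ 1 P) :
    Integrable (fun ω => |f ω| + |x ω| - |f ω - x ω|) P ∧
    ‖f‖ + ‖x‖ - ‖f - x‖ = ∫ ω, (|f ω| + |x ω| - |f ω - x ω|) ∂P := by
  have hn : ∀ f : Lp ℝ 1 P, ‖f‖ = ∫ ω, |f ω| ∂P := fun f => by
    rw [L1.norm_eq_integral_norm]; rfl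
  have hi : ∀ f : Lp ℝ 1 P, Integrable (fun ω => |f ω|) P := fun f =>
    (L1.integrable_coeFn f).abs
  have hs : Integrable (fun ω => |f ω - x ω|) P :=
    ((L1.integrable_coeFn f).sub (L1.integrable_coeFn x)).abs
  refine ⟨((hi f).add (hi x)).sub hs, ?_⟩
  have h3 : ‖f - x‖ = ∫ ω, |f ω - x ω| ∂P := by
    rw [hn]
    apply integral_congr_ae
    filter_upwards [Lp.coeFn_sub f x] with ω h
    rw [h, Pi.sub_apply]
  have hadd : Integrable (fun ω => |f ω| + |x ω|) P := (hi f).add (hi x)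
  rw [hn f, hn x, h3, integral_sub hadd hs, integral_add (hi f) (hi x)]

/-- In `L¹` the defect `‖z‖ + ‖x‖ - ‖z - x‖` is quasi-convex up to a sum. -/
theorem defect_convex (x z₁ z₂ : Lp ℝ 1 P) (l : ℝ) (h0 : 0 ≤ l) (h1 : l ≤ 1) :
    ‖l • z₁ + (1 - l) • z₂‖ + ‖x‖ - ‖l • z₁ + (1 - l) • z₂ - x‖ ≤
      (‖z₁‖ + ‖x‖ - ‖z₁ - x‖) + (‖z₂‖ + ‖x‖ - ‖z₂ - x‖) := by
  obtain ⟨i0, e0⟩ := defect_eq_integral P x (l • z₁ + (1 - l) • z₂)
  obtain ⟨i1, e1⟩ := defect_eq_integral P x z₁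
  obtain ⟨i2, e2⟩ := defect_eq_integral P x z₂
  rw [e0, e1, e2, ← integral_add i1 i2]
  apply integral_mono_ae i0 (i1.add i2)
  filter_upwards [Lp.coeFn_add (l • z₁) ((1 - l) • z₂), Lp.coeFn_smul l z₁,
      Lp.coeFn_smul (1 - l) z₂] with ω h1' h2 h3
  have : (l • z₁ + (1 - l) • z₂ : Lp ℝ 1 P) ω = l * z₁ ω + (1 - l) * z₂ ω := by
    rw [h1', Pi.add_apply, h2, h3]; simp
  simp only [this]
  exact defect_real _ _ _ _ h0 h1

/-- **Separation step.** -/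
theorem exists_almost_disjoint (E : Submodule ℝ (Lp ℝ 1 P)) (hD : HasDaugavetProperty E)
    (x : E) (hx : ‖x‖ = 1) {F : Set E} (hF : GCof F) {ε : ℝ} (hε : 0 < ε) :
    ∃ z : E, ‖z‖ ≤ 1 ∧ ‖z‖ + 1 - ‖z - x‖ ≤ ε ∧ ∃ w ∈ F, ‖z - x - w‖ < ε := by
  obtain ⟨S, rfl, hcl, hfd⟩ := hF
  have : IsClosed (S : Set E) := hcl
  have hdc : ∀ (z₁ z₂ : E) (l : ℝ), 0 ≤ l → l ≤ 1 →
      ‖l • z₁ + (1 - l) • z₂‖ + 1 - ‖l • z₁ + (1 - l) • z₂ - x‖ ≤
        (‖z₁‖ + 1 - ‖z₁ - x‖) + (‖z₂‖ + 1 - ‖z₂ - x‖) := by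
    intro z₁ z₂ l h0 h1
    have := defect_convex P (x : Lp ℝ 1 P) z₁ z₂ l h0 h1
    have hx' : ‖(x : Lp ℝ 1 P)‖ = 1 := hx
    rw [hx'] at this
    exact this
  obtain ⟨z, hz, hd, hm⟩ := daugavet_sep_core (V := E) (Q := E ⧸ S) (by exact S.mkQL)
    (by exact fun z => Submodule.Quotient.norm_mk_le S z) hD x hx hdc (ε := ε / 2) (by positivity)
  refine ⟨z, hz, by linarith, ?_⟩
  have hlt : ‖S.mkQL (z - x)‖ < ε := by rw [map_sub]; linarith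
  obtain ⟨m, hm1, hm2⟩ := Submodule.Quotient.norm_mk_lt (S.mkQL (z - x)) (sub_pos.mpr hlt)
  refine ⟨z - x - m, ?_, ?_⟩
  · have : Submodule.Quotient.mk (p := S) (z - x - m) = 0 := by
      rw [Submodule.Quotient.mk_sub, hm1]
      exact sub_self _
    exact (Submodule.Quotient.mk_eq_zero S).mp this
  · have : z - x - (z - x - m) = m := by abel
    rw [this]; linarith

/-- **Key lemma.** -/
theorem l1_KP (E : Submodule ℝ (Lp ℝ 1 P)) (hD : HasDaugavetProperty E) : KP ↥E := by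
  intro x hx F hF η hη
  set ε : ℝ := min (1 / 4) (η / 12) with hεdef
  have hε : 0 < ε := lt_min (by norm_num) (by positivity)
  have hε1 : ε ≤ 1 / 4 := min_le_left _ _
  have hε2 : ε ≤ η / 12 := min_le_right _ _
  obtain ⟨z, hz, hd, w, hwF, hw⟩ := exists_almost_disjoint P E hD x hx hF hε
  set ρ := ‖z‖ with hρ
  set c := ‖w‖ with hc
  have hρ0 : 0 ≤ ρ := norm_nonneg _
  have h1 : ‖z - x‖ ≤ c + ε := by
    have : ‖z - x‖ ≤ ‖z - x - w‖ + ‖w‖ := by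
      calc ‖z - x‖ = ‖(z - x - w) + w‖ := by congr 1; abel
        _ ≤ _ := norm_add_le _ _
    linarith
  have h2 : c ≤ ‖z - x‖ + ε := by
    have : ‖w‖ ≤ ‖z - x - w‖ + ‖z - x‖ := by
      calc ‖w‖ = ‖-(z - x - w) + (z - x)‖ := by congr 1; abel
        _ ≤ ‖-(z - x - w)‖ + ‖z - x‖ := norm_add_le _ _
        _ = _ := by rw [norm_neg]
    linarith
  have h3 : ‖z - x‖ ≤ ρ + 1 := by
    calc ‖z - x‖ ≤ ‖z‖ + ‖x‖ := norm_sub_le _ _
      _ = ρ + 1 := by rw [hx]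
  have hclo : 1 + ρ - 2 * ε ≤ c := by linarith
  have hchi : c ≤ 1 + ρ + ε := by linarith
  have hcpos : 0 < c := by linarith
  refine ⟨c⁻¹ • w, hF.smul_mem _ hwF, ?_, ?_⟩
  · rw [norm_smul, norm_inv, Real.norm_eq_abs, abs_of_pos hcpos, ← hc, inv_mul_cancel₀ hcpos.ne']
  · have hdecomp : x + (2 : ℝ) • (c⁻¹ • w)
        = (1 - 2 / c) • x + (2 / c) • z - (2 / c) • (z - x - w) := by
      rw [smul_smul, show (2 : ℝ) * c⁻¹ = 2 / c from by ring, sub_smul, one_smul, smul_sub, smul_sub]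
      abel
    have hn : ‖x + (2 : ℝ) • (c⁻¹ • w)‖ ≤ |1 - 2 / c| + (2 / c) * ρ + (2 / c) * ε := by
      rw [hdecomp]
      have h2c : 0 < 2 / c := by positivity
      calc ‖(1 - 2 / c) • x + (2 / c) • z - (2 / c) • (z - x - w)‖
          ≤ ‖(1 - 2 / c) • x + (2 / c) • z‖ + ‖(2 / c) • (z - x - w)‖ := norm_sub_le _ _
        _ ≤ ‖(1 - 2 / c) • x‖ + ‖(2 / c) • z‖ + ‖(2 / c) • (z - x - w)‖ := by
          gcongr; exact norm_add_le _ _
        _ = |1 - 2 / c| + (2 / c) * ρ + (2 / c) * ‖z - x - w‖ := by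
          rw [norm_smul, norm_smul, norm_smul, hx, mul_one, Real.norm_eq_abs, Real.norm_eq_abs,
            abs_of_pos h2c]
        _ ≤ |1 - 2 / c| + (2 / c) * ρ + (2 / c) * ε := by gcongr
    refine hn.trans ?_
    rcases le_total c 2 with hc2 | hc2
    · have h21 : 1 ≤ 2 / c := by rw [le_div_iff₀ hcpos]; linarith
      rw [abs_of_nonpos (by linarith)]
      -- (2/c)(1+ρ+ε) - 1 ≤ 1 + η
      have key : (2 / c) * (1 + ρ + ε) ≤ 2 + η := by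
        rw [div_mul_eq_mul_div, div_le_iff₀ hcpos]
        nlinarith
      nlinarith
    · have h21 : 2 / c ≤ 1 := by rw [div_le_iff₀ hcpos]; linarith
      have h2c : 0 < 2 / c := by positivity
      rw [abs_of_nonneg (by linarith)]
      have h4 : 1 - 2 / c ≤ ε := by
        have : 1 - 2 / c = (c - 2) / c := by field_simp
        rw [this, div_le_iff₀ hcpos]
        nlinarith
      nlinarith

end Crest.Agent.S0166Aux
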