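import Crest.Agent.S0166Aux.Cof
import Crest.Prelude.Def_DaugavetL1

/-!
# S0167, task T10: lower bound `t/2` for the averaged midpoint modulus of a subspace of `L¹` whose unit
ball is totally bounded in measure
-/

set_option autoImplicit false
set_option linter.unusedSectionVars false

namespace Crest.Agent.S0166Aux

open MeasureTheory Crest.AnalysisR.L1Subspace

variable {Ω : Type} [MeasurableSpace Ω] (P : Measure Ω) [IsProbabilityMeasure P]

/-! ### helpers -/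

theorem l1mid_measurable_sgn : Measurable (fun r : ℝ => ((SignType.sign r : SignType) : ℝ)) := by
  have : (fun r : ℝ => ((SignType.sign r : SignType) : ℝ)) =
      fun r => if 0 < r then 1 else if r < 0 then -1 else 0 := by
    funext r
    simp only [sign_apply]
    split_ifs <;> simp
  rw [this]
  exact Measurable.ite measurableSet_Ioi measurable_const
    (Measurable.ite measurableSet_Iio measurable_const measurable_const)

theorem l1mid_abs_sgn_le (r : ℝ) : |((SignType.sign r : SignType) : ℝ)| ≤ 1 := by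
  rcases lt_trichotomy r 0 with h | h | h
  · simp [sign_neg h]
  · simp [h]
  · simp [sign_pos h]

theorem l1mid_integrable_abs (f : Lp ℝ 1 P) : Integrable (fun z => |(f : Ω → ℝ) z|) P :=
  (L1.integrable_coeFn f).abs

theorem l1mid_integrable_sgn_mul (g y : Lp ℝ 1 P) :
    Integrable (fun z => ((SignType.sign ((g : Ω → ℝ) z) : SignType) : ℝ) * (y : Ω → ℝ) z) P := by
  have hm : AEStronglyMeasurable
      (fun z => ((SignType.sign ((g : Ω → ℝ) z) : SignType) : ℝ)) P :=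
    (l1mid_measurable_sgn.comp (Lp.stronglyMeasurable g).measurable).aestronglyMeasurable
  refine (L1.integrable_coeFn y).bdd_mul hm (c := 1) ?_
  exact Filter.Eventually.of_forall fun z => by
    rw [Real.norm_eq_abs]; exact l1mid_abs_sgn_le _

/-- `L¹` norm as an integral (for convenience) -/
theorem l1_norm_eq (f : Lp ℝ 1 P) : ‖f‖ = ∫ z, |(f : Ω → ℝ) z| ∂P := by
  rw [L1.norm_eq_integral_norm]
  rfl

theorem l1mid_norm_add (x y : Lp ℝ 1 P) (t : ℝ) :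
    ‖x + t • y‖ = ∫ z, |(x : Ω → ℝ) z + t * (y : Ω → ℝ) z| ∂P := by
  rw [l1_norm_eq]
  apply integral_congr_ae
  filter_upwards [Lp.coeFn_add x (t • y), Lp.coeFn_smul t y] with z h1 h2
  rw [h1, Pi.add_apply, h2, Pi.smul_apply, smul_eq_mul]

theorem l1mid_norm_sub (x y : Lp ℝ 1 P) (t : ℝ) :
    ‖x - t • y‖ = ∫ z, |(x : Ω → ℝ) z - t * (y : Ω → ℝ) z| ∂P := by
  rw [l1_norm_eq]
  apply integral_congr_ae
  filter_upwards [Lp.coeFn_sub x (t • y), Lp.coeFn_smul t y] with z h1 h2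
  rw [h1, Pi.sub_apply, h2, Pi.smul_apply, smul_eq_mul]

/-- `‖x + t y‖ + ‖x - t y‖ = 2 ∫ max |x| (t |y|)`; only `≥ 2 (∫_{Dᶜ} |x| + t ∫_D |y|)` is needed. -/
theorem l1_avg_ge (x y : Lp ℝ 1 P) (t : ℝ) (ht : 0 ≤ t) (D : Set Ω) (hD : MeasurableSet D) :
    2 * ((∫ z in Dᶜ, |(x : Ω → ℝ) z| ∂P) + t * ∫ z in D, |(y : Ω → ℝ) z| ∂P) ≤
      ‖x + t • y‖ + ‖x - t • y‖ := by
  have hx := L1.integrable_coeFn x
  have hy := L1.integrable_coeFn y
  have i1 : Integrable (fun z => |(x : Ω → ℝ) z + t * (y : Ω → ℝ) z|) P :=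
    (hx.add (hy.const_mul t)).abs
  have i2 : Integrable (fun z => |(x : Ω → ℝ) z - t * (y : Ω → ℝ) z|) P :=
    (hx.sub (hy.const_mul t)).abs
  have i12 : Integrable (fun z => |(x : Ω → ℝ) z + t * (y : Ω → ℝ) z| +
      |(x : Ω → ℝ) z - t * (y : Ω → ℝ) z|) P := i1.add i2
  rw [l1mid_norm_add, l1mid_norm_sub, ← integral_add i1 i2,
    ← integral_add_compl hD i12]
  have e1 : 2 * (t * ∫ z in D, |(y : Ω → ℝ) z| ∂P) ≤
      ∫ z in D, (|(x : Ω → ℝ) z + t * (y : Ω → ℝ) z| + |(x : Ω → ℝ) z - t * (y : Ω → ℝ) z|) ∂P := by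
    rw [← integral_const_mul, ← integral_const_mul]
    apply setIntegral_mono ((hy.abs.const_mul t).const_mul 2).integrableOn i12.integrableOn
    intro z
    have h1 : |2 * (t * (y : Ω → ℝ) z)| ≤
        |(x : Ω → ℝ) z + t * (y : Ω → ℝ) z| + |(x : Ω → ℝ) z - t * (y : Ω → ℝ) z| := by
      have := abs_sub ((x : Ω → ℝ) z + t * (y : Ω → ℝ) z) ((x : Ω → ℝ) z - t * (y : Ω → ℝ) z)
      have e : (x : Ω → ℝ) z + t * (y : Ω → ℝ) z - ((x : Ω → ℝ) z - t * (y : Ω → ℝ) z) =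
          2 * (t * (y : Ω → ℝ) z) := by ring
      rwa [e] at this
    rw [abs_mul, abs_mul, abs_of_nonneg ht, abs_of_pos (two_pos : (0:ℝ) < 2)] at h1
    exact h1
  have e2 : 2 * (∫ z in Dᶜ, |(x : Ω → ℝ) z| ∂P) ≤
      ∫ z in Dᶜ, (|(x : Ω → ℝ) z + t * (y : Ω → ℝ) z| + |(x : Ω → ℝ) z - t * (y : Ω → ℝ) z|) ∂P := by
    rw [← integral_const_mul]
    apply setIntegral_mono (hx.abs.const_mul 2).integrableOn i12.integrableOn
    intro z
    have h1 : |2 * (x : Ω → ℝ) z| ≤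
        |(x : Ω → ℝ) z + t * (y : Ω → ℝ) z| + |(x : Ω → ℝ) z - t * (y : Ω → ℝ) z| := by
      have := abs_add_le ((x : Ω → ℝ) z + t * (y : Ω → ℝ) z) ((x : Ω → ℝ) z - t * (y : Ω → ℝ) z)
      have e : (x : Ω → ℝ) z + t * (y : Ω → ℝ) z + ((x : Ω → ℝ) z - t * (y : Ω → ℝ) z) =
          2 * (x : Ω → ℝ) z := by ring
      rwa [e] at this
    rw [abs_mul, abs_of_pos (two_pos : (0:ℝ) < 2)] at h1
    exact h1
  linarith

/-- the functional `y ↦ ∫ sign(g) y` on `L¹` -/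
noncomputable def signFun (g : Lp ℝ 1 P) : Lp ℝ 1 P →L[ℝ] ℝ :=
  LinearMap.mkContinuous
    { toFun := fun y => ∫ z, SignType.sign ((g : Ω → ℝ) z) * (y : Ω → ℝ) z ∂P
      map_add' := by
        intro y₁ y₂
        rw [← integral_add (l1mid_integrable_sgn_mul P g y₁) (l1mid_integrable_sgn_mul P g y₂)]
        apply integral_congr_ae
        filter_upwards [Lp.coeFn_add y₁ y₂] with z h1
        rw [h1, Pi.add_apply, mul_add]
      map_smul' := by
        intro c y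
        rw [RingHom.id_apply, smul_eq_mul, ← integral_const_mul]
        apply integral_congr_ae
        filter_upwards [Lp.coeFn_smul c y] with z h1
        rw [h1, Pi.smul_apply, smul_eq_mul]
        ring } 1 (by
        intro y
        rw [one_mul, l1_norm_eq]
        show ‖∫ z, SignType.sign ((g : Ω → ℝ) z) * (y : Ω → ℝ) z ∂P‖ ≤ _
        refine (norm_integral_le_integral_norm _).trans ?_
        apply integral_mono (l1mid_integrable_sgn_mul P g y).norm (l1mid_integrable_abs P y)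
        intro z
        show ‖_ * _‖ ≤ _
        rw [Real.norm_eq_abs, abs_mul]
        have := l1mid_abs_sgn_le ((g : Ω → ℝ) z)
        have h2 := abs_nonneg ((y : Ω → ℝ) z)
        nlinarith)

theorem signFun_apply (g y : Lp ℝ 1 P) :
    signFun P g y = ∫ z, SignType.sign ((g : Ω → ℝ) z) * (y : Ω → ℝ) z ∂P := rfl

/-- **Concentration.** If `∫ sign(g) y = 0`, `‖y‖ = 1` and `measureDist P y g < ε` then there are `a < ε`
and a measurable `D` with `P D < a` and `∫_D |y| ≥ 1/2 - a`.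
(`D = {a < |y - g|}`. On `Dᶜ`: `sign(g) y ≥ |g| - a ≥ |y| - 2a`; on `D`: `sign(g) y ≥ -|y|`. So
`0 ≥ ∫_{Dᶜ}|y| - 2a - ∫_D |y|` and `∫_D|y| + ∫_{Dᶜ}|y| = 1`.) -/
theorem concentration (g y : Lp ℝ 1 P) (hy : ‖y‖ = 1) (h0 : signFun P g y = 0) {ε : ℝ}
    (hd : measureDist P y g < ε) :
    ∃ (a : ℝ) (D : Set Ω), 0 < a ∧ a < ε ∧ MeasurableSet D ∧ P D < ENNReal.ofReal a ∧
      1 / 2 - a ≤ ∫ z in D, |(y : Ω → ℝ) z| ∂P := by
  have hne : {a : ℝ | 0 < a ∧ P {z | a < abs ((y : Ω → ℝ) z - (g : Ω → ℝ) z)} <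
      ENNReal.ofReal a}.Nonempty := by
    refine ⟨2, two_pos, lt_of_le_of_lt prob_le_one ?_⟩
    rw [← ENNReal.ofReal_one]
    exact (ENNReal.ofReal_lt_ofReal_iff two_pos).mpr one_lt_two
  obtain ⟨a, ⟨ha0, haP⟩, haε⟩ := exists_lt_of_csInf_lt hne hd
  set D : Set Ω := {z | a < abs ((y : Ω → ℝ) z - (g : Ω → ℝ) z)} with hDdef
  have hD : MeasurableSet D :=
    measurableSet_lt measurable_const
      ((Lp.stronglyMeasurable y).measurable.sub (Lp.stronglyMeasurable g).measurable).abs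
  refine ⟨a, D, ha0, haε, hD, haP, ?_⟩
  have hyi := l1mid_integrable_abs P y
  have hsi := l1mid_integrable_sgn_mul P g y
  have hsum : (∫ z in D, |(y : Ω → ℝ) z| ∂P) + ∫ z in Dᶜ, |(y : Ω → ℝ) z| ∂P = 1 := by
    rw [integral_add_compl hD hyi, ← l1_norm_eq, hy]
  have hzero : (∫ z in D, ((SignType.sign ((g : Ω → ℝ) z) : SignType) : ℝ) * (y : Ω → ℝ) z ∂P) +
      ∫ z in Dᶜ, ((SignType.sign ((g : Ω → ℝ) z) : SignType) : ℝ) * (y : Ω → ℝ) z ∂P = 0 := by
    rw [integral_add_compl hD hsi, ← signFun_apply, h0]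
  have e1 : -(∫ z in D, |(y : Ω → ℝ) z| ∂P) ≤
      ∫ z in D, ((SignType.sign ((g : Ω → ℝ) z) : SignType) : ℝ) * (y : Ω → ℝ) z ∂P := by
    rw [← integral_neg]
    apply setIntegral_mono hyi.neg.integrableOn hsi.integrableOn
    intro z
    have h1 := l1mid_abs_sgn_le ((g : Ω → ℝ) z)
    have h2 : |((SignType.sign ((g : Ω → ℝ) z) : SignType) : ℝ) * (y : Ω → ℝ) z| ≤
        |(y : Ω → ℝ) z| := by
      rw [abs_mul]
      have := abs_nonneg ((y : Ω → ℝ) z)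
      nlinarith
    exact (abs_le.mp h2).1
  have e2 : (∫ z in Dᶜ, |(y : Ω → ℝ) z| ∂P) - 2 * a ≤
      ∫ z in Dᶜ, ((SignType.sign ((g : Ω → ℝ) z) : SignType) : ℝ) * (y : Ω → ℝ) z ∂P := by
    have hc : Integrable (fun _ : Ω => 2 * a) P := integrable_const _
    have h3 : ∫ z in Dᶜ, (|(y : Ω → ℝ) z| - 2 * a) ∂P ≤
        ∫ z in Dᶜ, ((SignType.sign ((g : Ω → ℝ) z) : SignType) : ℝ) * (y : Ω → ℝ) z ∂P := by
      apply setIntegral_mono_on (hyi.sub hc).integrableOn hsi.integrableOn hD.compl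
      intro z hz
      have hz' : |(y : Ω → ℝ) z - (g : Ω → ℝ) z| ≤ a := by
        by_contra hcon
        exact hz (not_le.mp hcon)
      have h1 := l1mid_abs_sgn_le ((g : Ω → ℝ) z)
      have h4 : ((SignType.sign ((g : Ω → ℝ) z) : SignType) : ℝ) * (g : Ω → ℝ) z =
          |(g : Ω → ℝ) z| := sign_mul_self _
      have h5 : |((SignType.sign ((g : Ω → ℝ) z) : SignType) : ℝ) *
          ((y : Ω → ℝ) z - (g : Ω → ℝ) z)| ≤ a := by
        rw [abs_mul]
        have := abs_nonneg ((y : Ω → ℝ) z - (g : Ω → ℝ) z)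
        nlinarith
      have h6 := (abs_le.mp h5).1
      have h7 : |(y : Ω → ℝ) z| ≤ |(y : Ω → ℝ) z - (g : Ω → ℝ) z| + |(g : Ω → ℝ) z| := by
        have := abs_add_le ((y : Ω → ℝ) z - (g : Ω → ℝ) z) ((g : Ω → ℝ) z)
        simpa using this
      have h8 : ((SignType.sign ((g : Ω → ℝ) z) : SignType) : ℝ) * (y : Ω → ℝ) z =
          ((SignType.sign ((g : Ω → ℝ) z) : SignType) : ℝ) * (g : Ω → ℝ) z +
          ((SignType.sign ((g : Ω → ℝ) z) : SignType) : ℝ) *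
            ((y : Ω → ℝ) z - (g : Ω → ℝ) z) := by ring
      show |(y : Ω → ℝ) z| - 2 * a ≤ _
      rw [h8, h4]
      linarith
    have h9 : ∫ z in Dᶜ, (|(y : Ω → ℝ) z| - 2 * a) ∂P =
        (∫ z in Dᶜ, |(y : Ω → ℝ) z| ∂P) - (P.real Dᶜ) * (2 * a) := by
      rw [integral_sub hyi.integrableOn hc.integrableOn, setIntegral_const, smul_eq_mul]
    have h10 : P.real Dᶜ ≤ 1 := measureReal_le_one
    have h11 : P.real Dᶜ * (2 * a) ≤ 2 * a := by nlinarith
    linarith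
  linarith

/-- absolute continuity of the integral of `|x|` -/
theorem exists_small_set_integral (x : Lp ℝ 1 P) {η : ℝ} (hη : 0 < η) :
    ∃ ε : ℝ, 0 < ε ∧ ∀ D : Set Ω, MeasurableSet D → P D < ENNReal.ofReal ε →
      ∫ z in D, |(x : Ω → ℝ) z| ∂P < η := by
  have hxi := l1mid_integrable_abs P x
  have hfin : ∫⁻ z, ENNReal.ofReal |(x : Ω → ℝ) z| ∂P ≠ ⊤ := by
    have := hxi.lintegral_lt_top
    exact this.ne
  obtain ⟨δ, hδ, hδs⟩ := exists_pos_setLIntegral_lt_of_measure_lt hfin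
    (ε := ENNReal.ofReal η) (by simpa using hη)
  obtain ⟨ε, hε0, hεδ⟩ : ∃ ε : ℝ, 0 < ε ∧ ENNReal.ofReal ε ≤ δ := by
    by_cases htop : δ = ⊤
    · exact ⟨1, one_pos, by rw [htop]; exact le_top⟩
    · refine ⟨δ.toReal, ENNReal.toReal_pos hδ.ne' htop, ?_⟩
      rw [ENNReal.ofReal_toReal htop]
  refine ⟨ε, hε0, fun D _ hPD => ?_⟩
  have h1 := hδs D (lt_of_lt_of_le hPD hεδ)
  rw [integral_eq_lintegral_of_nonneg_ae (Filter.Eventually.of_forall fun z => abs_nonneg _)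
    hxi.aestronglyMeasurable.restrict]
  exact (ENNReal.toReal_lt_of_lt_ofReal h1)

/-- **S0167 (i), the `t/2` part.** `ε` from `exists_small_set_integral x (η/2)` and `ε ≤ η/(2t)`; net `s` from
`htb ε`; `F = {y : E | ∀ g ∈ s, signFun P g y = 0}`. -/
theorem l1_gmidGE_half (E : Submodule ℝ (Lp ℝ 1 P))
    (htb : UnitBallTotallyBoundedInMeasure P E) (t : ℝ) (ht : 0 < t) :
    GMidGE (X := ↥E) t (t / 2) := by
  intro x hx η hη
  obtain ⟨ε₁, hε₁, hsmall⟩ := exists_small_set_integral P (x : Lp ℝ 1 P) (half_pos hη)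
  set ε := min ε₁ (η / (2 * t)) with hεdef
  have hε : 0 < ε := lt_min hε₁ (by positivity)
  obtain ⟨s, hs, hnet⟩ := htb ε hε
  refine ⟨{y : ↥E | ∀ i : ↥s, ((signFun P (i : Lp ℝ 1 P)).comp E.subtypeL) y = 0},
    gcof_of_functionals (fun i : ↥s => (signFun P (i : Lp ℝ 1 P)).comp E.subtypeL), ?_⟩
  intro y hyF hy
  obtain ⟨g, hg, hdist⟩ := hnet (y : Lp ℝ 1 P) y.2 (by
    have : ‖(y : Lp ℝ 1 P)‖ = 1 := hy
    rw [this])
  have h0 : signFun P g (y : Lp ℝ 1 P) = 0 := hyF ⟨g, hg⟩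
  obtain ⟨a, D, ha0, haε, hD, hPD, hconc⟩ := concentration P g (y : Lp ℝ 1 P) hy h0 hdist
  have ha1 : a < ε₁ := lt_of_lt_of_le haε (min_le_left _ _)
  have ha2 : a < η / (2 * t) := lt_of_lt_of_le haε (min_le_right _ _)
  have hxD := hsmall D hD (lt_trans hPD ((ENNReal.ofReal_lt_ofReal_iff hε₁).mpr ha1))
  have hxsum : (∫ z in D, |((x : Lp ℝ 1 P) : Ω → ℝ) z| ∂P) +
      ∫ z in Dᶜ, |((x : Lp ℝ 1 P) : Ω → ℝ) z| ∂P = 1 := by
    rw [integral_add_compl hD (l1mid_integrable_abs P (x : Lp ℝ 1 P)), ← l1_norm_eq]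
    exact hx
  have hmain := l1_avg_ge P (x : Lp ℝ 1 P) (y : Lp ℝ 1 P) t ht.le D hD
  have hn1 : ‖x + t • y‖ = ‖(x : Lp ℝ 1 P) + t • (y : Lp ℝ 1 P)‖ := rfl
  have hn2 : ‖x - t • y‖ = ‖(x : Lp ℝ 1 P) - t • (y : Lp ℝ 1 P)‖ := rfl
  rw [hn1, hn2]
  have hta : t * a < η / 2 := by
    have : t * a < t * (η / (2 * t)) := mul_lt_mul_of_pos_left ha2 ht
    have e : t * (η / (2 * t)) = η / 2 := by field_simp
    linarith
  have hty : t * (1 / 2 - a) ≤ t * ∫ z in D, |((y : Lp ℝ 1 P) : Ω → ℝ) z| ∂P :=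
    mul_le_mul_of_nonneg_left hconc ht.le
  nlinarith

end Crest.Agent.S0166Aux
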