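import Crest.Agent.S0166Aux.Tests
import Crest.Agent.S0166Aux.Basic

/-!
# S0166/S0168, task T7: structure of the ambient space `lp (fun _ : PotentialTest m => ℝ) ⊤`
finite sums of coordinate vectors, evaluation at tests, approximation.
-/

set_option autoImplicit false

namespace Crest.Agent.S0166Aux

open Crest.AnalysisR.TreePotential

/-- the ambient `ℓ^∞` space over the tests of model `m` -/
abbrev Amb (m : PotentialModel) : Type := lp (fun _ : PotentialTest m => ℝ) ⊤

/-- finite linear combinations of coordinate vectors -/
noncomputable def fsum (m : PotentialModel) : (List ℕ →₀ ℝ) →ₗ[ℝ] Amb m :=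
  Finsupp.linearCombination ℝ (coordVector m)

theorem fsum_single (m : PotentialModel) (s : List ℕ) (a : ℝ) :
    fsum m (Finsupp.single s a) = a • coordVector m s := by
  simp [fsum]

theorem Model.coordVector_apply (m : PotentialModel) (s : List ℕ) (τ : PotentialTest m) :
    (coordVector m s : PotentialTest m → ℝ) τ = τ.1 s := rfl

theorem fsum_apply (m : PotentialModel) (c : List ℕ →₀ ℝ) (τ : PotentialTest m) :
    (fsum m c : PotentialTest m → ℝ) τ = pair τ.1 c := by
  induction c using Finsupp.induction_linear with
  | zero => simp [pair]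
  | add c d hc hd => rw [map_add, lp.coeFn_add, Pi.add_apply, hc, hd, pair_add]
  | single s a =>
    rw [fsum_single, lp.coeFn_smul, Pi.smul_apply, pair_single, Model.coordVector_apply,
      smul_eq_mul]

theorem Model.fsum_mem_span (m : PotentialModel) (c : List ℕ →₀ ℝ) :
    fsum m c ∈ Submodule.span ℝ (Set.range (coordVector m)) := by
  rw [← Finsupp.range_linearCombination]
  exact LinearMap.mem_range_self _ c

theorem fsum_mem (m : PotentialModel) (c : List ℕ →₀ ℝ) : fsum m c ∈ modelSpace m :=
  Submodule.le_topologicalClosure _ (Model.fsum_mem_span m c)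

theorem abs_apply_le_norm {m : PotentialModel} (x : Amb m) (τ : PotentialTest m) :
    |(x : PotentialTest m → ℝ) τ| ≤ ‖x‖ := by
  simpa using lp.norm_apply_le_norm ENNReal.top_ne_zero x τ

theorem apply_le_norm {m : PotentialModel} (x : Amb m) (τ : PotentialTest m) :
    (x : PotentialTest m → ℝ) τ ≤ ‖x‖ :=
  le_trans (le_abs_self _) (abs_apply_le_norm x τ)

/-- upper bound for the norm: test by test -/
theorem norm_le_of_forall_apply {m : PotentialModel} (x : Amb m) {C : ℝ} (hC : 0 ≤ C)
    (h : ∀ τ : PotentialTest m, |(x : PotentialTest m → ℝ) τ| ≤ C) : ‖x‖ ≤ C :=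
  lp.norm_le_of_forall_le hC (fun τ => by simpa using h τ)

/-- evaluation at a test, as a continuous functional of norm `≤ 1` -/
noncomputable def evalCLM {m : PotentialModel} (τ : PotentialTest m) : Amb m →L[ℝ] ℝ :=
  LinearMap.mkContinuous
    { toFun := fun x => (x : PotentialTest m → ℝ) τ
      map_add' := fun _ _ => rfl
      map_smul' := fun _ _ => rfl } 1 (fun x => by
        rw [one_mul]
        exact lp.norm_apply_le_norm ENNReal.top_ne_zero x τ)

@[simp] theorem evalCLM_apply {m : PotentialModel} (τ : PotentialTest m) (x : Amb m) :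
    evalCLM τ x = (x : PotentialTest m → ℝ) τ := rfl

/-- the opposite test -/
def Model.negTest {m : PotentialModel} (τ : PotentialTest m) : PotentialTest m :=
  ⟨fun s => - τ.1 s, isTest_neg τ.2⟩

/-- the zero test -/
def Model.zeroTest (m : PotentialModel) : PotentialTest m := ⟨fun _ => 0, isTest_zero m⟩

/-- elements of the model space are odd functions of the test -/
theorem Model.apply_negTest {m : PotentialModel} (x : Amb m) (hx : x ∈ modelSpace m)
    (τ : PotentialTest m) :
    (x : PotentialTest m → ℝ) (Model.negTest τ) = - (x : PotentialTest m → ℝ) τ := by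
  have hle : modelSpace m ≤ LinearMap.ker
      ((evalCLM (Model.negTest τ) + evalCLM τ : Amb m →L[ℝ] ℝ) : Amb m →ₗ[ℝ] ℝ) := by
    refine Submodule.topologicalClosure_minimal _ ?_
      (ContinuousLinearMap.isClosed_ker (evalCLM (Model.negTest τ) + evalCLM τ))
    rw [Submodule.span_le]
    rintro _ ⟨s, rfl⟩
    change (coordVector m s : PotentialTest m → ℝ) (Model.negTest τ) +
      (coordVector m s : PotentialTest m → ℝ) τ = 0
    rw [Model.coordVector_apply, Model.coordVector_apply]
    exact neg_add_cancel _
  have : (x : PotentialTest m → ℝ) (Model.negTest τ) + (x : PotentialTest m → ℝ) τ = 0 := hle hx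
  linarith

/-- almost norming tests for elements of the model space. (The test set is symmetric and elements of the
closed span are odd functions of the test; simplest: first for `fsum`, then approximate.) -/
theorem exists_test_gt {m : PotentialModel} (x : Amb m) (hx : x ∈ modelSpace m) {ε : ℝ}
    (hε : 0 < ε) : ∃ τ : PotentialTest m, ‖x‖ - ε < (x : PotentialTest m → ℝ) τ := by
  by_contra hcon
  push Not at hcon
  have habs : ∀ τ : PotentialTest m, |(x : PotentialTest m → ℝ) τ| ≤ ‖x‖ - ε := by
    intro τ
    rw [abs_le]
    refine ⟨?_, hcon τ⟩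
    have := hcon (Model.negTest τ)
    rw [Model.apply_negTest x hx] at this
    linarith
  have hC : 0 ≤ ‖x‖ - ε := le_trans (abs_nonneg _) (habs (Model.zeroTest m))
  have := norm_le_of_forall_apply x hC habs
  linarith

/-- the coordinate functional of the vertex `s`: evaluation at the indicator test of `s`
(the zero functional for the root in the rootless model, where `coordVector m [] = 0`). -/
noncomputable def coordFun (m : PotentialModel) (s : List ℕ) : Amb m →L[ℝ] ℝ := by
  classical
  exact if h : IsTest m (fun u => if u = s then 1 else 0) then evalCLM ⟨_, h⟩ else 0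

theorem Model.pair_indicator (s : List ℕ) (c : List ℕ →₀ ℝ) :
    pair (fun u => if u = s then 1 else 0) c = c s := by
  classical
  simp only [pair, mul_ite, mul_one, mul_zero]
  rw [Finsupp.sum_ite_eq']
  split_ifs with h
  · rfl
  · exact (Finsupp.notMem_support_iff.mp h).symm

theorem Model.coordVector_root_rootless : coordVector .rootlessSibling [] = 0 := by
  ext τ
  exact isTest_root_eq_zero τ.2

/-- the indicator test -/
def Model.indTest {m : PotentialModel} {s : List ℕ}
    (h : IsTest m (fun u => if u = s then 1 else 0)) : PotentialTest m := ⟨_, h⟩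

theorem Model.indTest_val {m : PotentialModel} {s : List ℕ}
    (h : IsTest m (fun u => if u = s then 1 else 0)) :
    (Model.indTest h).1 = fun u => if u = s then 1 else 0 := rfl

theorem Model.coordFun_of_isTest {m : PotentialModel} {s : List ℕ}
    (h : IsTest m (fun u => if u = s then 1 else 0)) (x : Amb m) :
    coordFun m s x = (x : PotentialTest m → ℝ) (Model.indTest h) := by
  rw [coordFun, dif_pos h]
  rfl

theorem coordFun_fsum_smul (m : PotentialModel) (s : List ℕ) (c : List ℕ →₀ ℝ) :
    coordFun m s (fsum m c) • coordVector m s = c s • coordVector m s := by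
  classical
  by_cases h : IsTest m (fun u => if u = s then 1 else 0)
  · have : coordFun m s (fsum m c) = c s := by
      rw [Model.coordFun_of_isTest h, fsum_apply, Model.indTest_val]
      exact Model.pair_indicator s c
    rw [this]
  · have hs : s = [] := by
      by_contra hs
      exact h (isTest_single m s hs)
    subst hs
    have hm : m = .rootlessSibling := by
      by_contra hm
      exact h (isTest_single_root m hm)
    subst hm
    rw [Model.coordVector_root_rootless, smul_zero, smul_zero]

theorem abs_coordFun_le (m : PotentialModel) (s : List ℕ) (x : Amb m) :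
    |coordFun m s x| ≤ ‖x‖ := by
  classical
  by_cases h : IsTest m (fun u => if u = s then 1 else 0)
  · rw [Model.coordFun_of_isTest h]
    exact abs_apply_le_norm x _
  · rw [coordFun, dif_neg h]
    simp

theorem Model.abs_test_le_two {m : PotentialModel} (τ : PotentialTest m) (s : List ℕ) :
    |τ.1 s| ≤ 2 := by
  have hg := τ.2.1
  cases s with
  | nil =>
    have h0 := hg []
    simp only [pathPotential] at h0
    linarith
  | cons a v =>
    have h1 := hg (a :: v)
    have h2 := hg v
    simp only [pathPotential] at h1
    rw [abs_le] at h1 h2 ⊢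
    constructor <;> linarith [h1.1, h1.2, h2.1, h2.2]

theorem norm_coordVector_le (m : PotentialModel) (s : List ℕ) : ‖coordVector m s‖ ≤ 2 :=
  norm_le_of_forall_apply _ (by norm_num) (fun τ => Model.abs_test_le_two τ s)

theorem one_le_norm_coordVector (m : PotentialModel) (s : List ℕ) (hs : s ≠ []) :
    1 ≤ ‖coordVector m s‖ := by
  have := apply_le_norm (coordVector m s) (Model.indTest (isTest_single m s hs))
  rw [Model.coordVector_apply, Model.indTest_val] at this
  simpa using this

/-- density of finite sums -/
theorem exists_fsum_near {m : PotentialModel} (x : Amb m) (hx : x ∈ modelSpace m) {ε : ℝ}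
    (hε : 0 < ε) : ∃ c : List ℕ →₀ ℝ, ‖x - fsum m c‖ < ε := by
  have hx' : x ∈ closure ((Submodule.span ℝ (Set.range (coordVector m)) : Submodule ℝ (Amb m)) :
      Set (Amb m)) := hx
  obtain ⟨y, hy, hxy⟩ := Metric.mem_closure_iff.mp hx' ε hε
  obtain ⟨c, rfl⟩ := (Finsupp.mem_span_range_iff_exists_finsupp).mp hy
  refine ⟨c, ?_⟩
  rw [dist_eq_norm] at hxy
  simpa [fsum, Finsupp.linearCombination_apply] using hxy

/-- density of finite sums vanishing on `T`, among the vectors whose coordinates on `T` vanish.
(Take `c` with `‖y - fsum c‖ < ε / (1 + 2 |T|)` and erase the coordinates in `T`: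
`|coordFun s (fsum c)| = |coordFun s (fsum c - y)| ≤ ‖fsum c - y‖`.) -/
theorem exists_fsum_near_off {m : PotentialModel} (T : Finset (List ℕ)) (y : Amb m)
    (hy : y ∈ modelSpace m) (hyT : ∀ s ∈ T, coordFun m s y = 0) {ε : ℝ} (hε : 0 < ε) :
    ∃ d : List ℕ →₀ ℝ, (∀ s ∈ T, d s = 0) ∧ ‖y - fsum m d‖ < ε := by
  classical
  have hpos : (0 : ℝ) < 1 + 2 * T.card := by positivity
  obtain ⟨c, hc⟩ := exists_fsum_near y hy (div_pos hε hpos)
  set δ := ε / (1 + 2 * T.card) with hδ
  refine ⟨c - ∑ s ∈ T, Finsupp.single s (c s), ?_, ?_⟩
  · intro s hs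
    rw [Finsupp.sub_apply, Finsupp.finsetSum_apply]
    simp [Finsupp.single_apply, hs]
  · rw [map_sub, map_sum]
    have h1 : ∀ s ∈ T, fsum m (Finsupp.single s (c s)) =
        coordFun m s (fsum m c) • coordVector m s := by
      intro s _
      rw [fsum_single, coordFun_fsum_smul]
    rw [Finset.sum_congr rfl h1]
    have h2 : ∀ s ∈ T, ‖coordFun m s (fsum m c) • coordVector m s‖ ≤ 2 * ‖y - fsum m c‖ := by
      intro s hs
      rw [norm_smul, Real.norm_eq_abs]
      have h3 : |coordFun m s (fsum m c)| ≤ ‖y - fsum m c‖ := by
        have := abs_coordFun_le m s (y - fsum m c)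
        rwa [map_sub, hyT s hs, zero_sub, abs_neg] at this
      have h4 := norm_coordVector_le m s
      nlinarith [abs_nonneg (coordFun m s (fsum m c)), norm_nonneg (coordVector m s)]
    have h5 : ‖∑ s ∈ T, coordFun m s (fsum m c) • coordVector m s‖ ≤
        T.card * (2 * ‖y - fsum m c‖) := by
      refine (norm_sum_le _ _).trans ?_
      simpa using Finset.sum_le_card_nsmul T _ _ h2
    have h6 : y - (fsum m c - ∑ s ∈ T, coordFun m s (fsum m c) • coordVector m s) =
        (y - fsum m c) + ∑ s ∈ T, coordFun m s (fsum m c) • coordVector m s := by abel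
    rw [h6]
    refine (norm_add_le _ _).trans_lt ?_
    have h7 : ‖y - fsum m c‖ + T.card * (2 * ‖y - fsum m c‖) =
        (1 + 2 * T.card) * ‖y - fsum m c‖ := by ring
    have h8 : (1 + 2 * (T.card : ℝ)) * ‖y - fsum m c‖ < (1 + 2 * T.card) * δ :=
      mul_lt_mul_of_pos_left hc hpos
    have h9 : (1 + 2 * (T.card : ℝ)) * δ = ε := by
      rw [hδ]; field_simp
    linarith

/-- branch sums: `branch s = Σ_{u suffix of s} e_u` -/
noncomputable def branch (m : PotentialModel) : List ℕ → Amb m
  | [] => coordVector m []
  | a :: v => branch m v + coordVector m (a :: v)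

theorem branch_apply (m : PotentialModel) (s : List ℕ) (τ : PotentialTest m) :
    (branch m s : PotentialTest m → ℝ) τ = pathPotential τ.1 s := by
  induction s with
  | nil => rfl
  | cons a v ih =>
    rw [branch, lp.coeFn_add, Pi.add_apply, ih, Model.coordVector_apply, pathPotential]

theorem Model.coordVector_mem (m : PotentialModel) (s : List ℕ) :
    coordVector m s ∈ modelSpace m :=
  Submodule.le_topologicalClosure _ (Submodule.subset_span ⟨s, rfl⟩)

theorem branch_mem (m : PotentialModel) (s : List ℕ) : branch m s ∈ modelSpace m := by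
  induction s with
  | nil => exact Model.coordVector_mem m []
  | cons a v ih => exact Submodule.add_mem _ ih (Model.coordVector_mem m _)

theorem norm_branch_le (m : PotentialModel) (s : List ℕ) : ‖branch m s‖ ≤ 1 :=
  norm_le_of_forall_apply _ zero_le_one (fun τ => by rw [branch_apply]; exact τ.2.1 s)

theorem Model.pathPotential_indicator_of_lt (s : List ℕ) :
    ∀ v : List ℕ, v.length < s.length →
      pathPotential (fun u => if u = s then (1 : ℝ) else 0) v = 0 := by
  intro v
  induction v with
  | nil =>
    intro h
    have : ([] : List ℕ) ≠ s := by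
      rintro rfl; simp at h
    simp [pathPotential, this]
  | cons a v ih =>
    intro h
    have h' : v.length < s.length := by
      simp only [List.length_cons] at h; omega
    have : (a :: v) ≠ s := by
      rintro rfl; simp at h
    simp [pathPotential, ih h', this]

theorem one_le_norm_branch (m : PotentialModel) (s : List ℕ) (hs : s ≠ []) :
    1 ≤ ‖branch m s‖ := by
  have := apply_le_norm (branch m s) (Model.indTest (isTest_single m s hs))
  rw [branch_apply, Model.indTest_val] at this
  cases s with
  | nil => exact absurd rfl hs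
  | cons a v =>
    simp only [pathPotential] at this
    rw [Model.pathPotential_indicator_of_lt (a :: v) v (by simp)] at this
    simpa using this

theorem norm_sum_siblings_le (m : PotentialModel) (r : List ℕ) (A : Finset ℕ) :
    ‖∑ n ∈ A, coordVector m (n :: r)‖ ≤ 1 * Real.sqrt A.card := by
  rw [one_mul]
  refine norm_le_of_forall_apply _ (Real.sqrt_nonneg _) (fun τ => ?_)
  have h : ∀ σ : PotentialTest m,
      ((∑ n ∈ A, coordVector m (n :: r) : Amb m) : PotentialTest m → ℝ) σ =
        ∑ n ∈ A, σ.1 (n :: r) := by
    intro σ
    rw [← evalCLM_apply, map_sum]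
    rfl
  rw [h, abs_le]
  refine ⟨?_, sum_siblings_le τ.2 r A⟩
  have := sum_siblings_le (Model.negTest τ).2 r A
  simp only [Model.negTest, Finset.sum_neg_distrib] at this
  linarith

end Crest.Agent.S0166Aux
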