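import Crest.Agent.S0166Aux.Model
import Crest.Agent.S0166Aux.Cof

/-!
# S0168, task T8: the averaged midpoint modulus of the four model spaces
-/

set_option autoImplicit false

namespace Crest.Agent.S0166Aux

open Crest.AnalysisR.TreePotential

/-- finite-sum version: `c` supported in the suffix-closed `T`, `d` vanishing on `T`. Then
`2 α ‖fsum c‖ + t β ‖fsum d‖ ≤ ‖fsum (c + t d)‖ + ‖fsum (c - t d)‖` whenever `α² + β² = 1`.
(`exists_test_gt` for `fsum c`, `fsum d`, then `comb_pair` with `w = 1`, `fsum_apply`,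
`apply_le_norm`, and let `ε → 0`.) -/
theorem fsum_mid (m : PotentialModel) {T : Finset (List ℕ)} (hT : SuffixClosed T)
    (c d : List ℕ →₀ ℝ) (hc : ∀ s ∉ T, c s = 0) (hd : ∀ s ∈ T, d s = 0) (t : ℝ) (ht : 0 ≤ t)
    {α β : ℝ} (hα : 0 ≤ α) (hβ : 0 ≤ β) (hab : α ^ 2 + β ^ 2 = 1) :
    2 * α * ‖fsum m c‖ + t * β * ‖fsum m d‖ ≤ ‖fsum m (c + t • d)‖ + ‖fsum m (c - t • d)‖ := by
  apply le_of_forall_pos_le_add
  intro ε hε
  have hK : 0 < 2 * α + t * β + 1 := by positivity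
  set δ : ℝ := ε / (2 * α + t * β + 1) with hδ
  have hδ0 : 0 < δ := div_pos hε hK
  obtain ⟨τ₁, h1⟩ := exists_test_gt (fsum m c) (fsum_mem m c) hδ0
  obtain ⟨τ₂, h2⟩ := exists_test_gt (fsum m d) (fsum_mem m d) hδ0
  rw [fsum_apply] at h1 h2
  obtain ⟨g₁, g₂, hg₁, hg₂, hg⟩ := comb_pair m τ₁.2 τ₂.2 hT c d hc hd t hα hβ zero_le_one
    (by rw [hab]; norm_num)
  have h3 : pair g₁ (c + t • d) ≤ ‖fsum m (c + t • d)‖ := by
    have e := fsum_apply m (c + t • d) (⟨g₁, hg₁⟩ : PotentialTest m)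
    have := apply_le_norm (fsum m (c + t • d)) (⟨g₁, hg₁⟩ : PotentialTest m)
    rw [e] at this
    exact this
  have h4 : pair g₂ (c - t • d) ≤ ‖fsum m (c - t • d)‖ := by
    have e := fsum_apply m (c - t • d) (⟨g₂, hg₂⟩ : PotentialTest m)
    have := apply_le_norm (fsum m (c - t • d)) (⟨g₂, hg₂⟩ : PotentialTest m)
    rw [e] at this
    exact this
  rw [one_mul] at hg
  have h5 : 2 * α * (‖fsum m c‖ - δ) ≤ 2 * α * pair τ₁.1 c :=
    mul_le_mul_of_nonneg_left h1.le (by positivity)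
  have h6 : t * β * (‖fsum m d‖ - δ) ≤ t * β * pair τ₂.1 d :=
    mul_le_mul_of_nonneg_left h2.le (by positivity)
  have h7 : δ * (2 * α + t * β + 1) = ε := by
    rw [hδ]; field_simp
  nlinarith

theorem modelMid_key (t : ℝ) (ht : 0 < t) :
    ∃ α β : ℝ, 0 ≤ α ∧ 0 ≤ β ∧ α ^ 2 + β ^ 2 = 1 ∧
      2 * α + t * β = 2 * Real.sqrt (1 + t ^ 2 / 4) := by
  have hpos : 0 < 1 + t ^ 2 / 4 := by positivity
  set s := Real.sqrt (1 + t ^ 2 / 4) with hs
  have hs0 : 0 < s := Real.sqrt_pos.2 hpos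
  have hs2 : s ^ 2 = 1 + t ^ 2 / 4 := Real.sq_sqrt hpos.le
  refine ⟨1 / s, (t / 2) / s, by positivity, by positivity, ?_, ?_⟩
  · field_simp
    nlinarith
  · field_simp
    nlinarith

/-- **S0168 (b)**, in fact for all `t > 0`.
Given a unit `x` and `η`: `c` with `‖x - fsum c‖ < η/8`-ish, `T ⊇ supp c` suffix closed,
`F = {y | ∀ s ∈ T, coordFun m s y = 0}` (`gcof_of_functionals` with the functionals
`(coordFun m s).comp (modelSpace m).subtypeL`), for a unit `y ∈ F` use `exists_fsum_near_off`, then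
`fsum_mid` with `α = 1/√(1+t²/4)`, `β = (t/2)/√(1+t²/4)`: `α + β t/2 = √(1+t²/4)`. -/
theorem model_gmidGE (m : PotentialModel) (t : ℝ) (ht : 0 < t) :
    GMidGE (X := ↥(modelSpace m)) t (Real.sqrt (1 + t ^ 2 / 4) - 1) := by
  intro x hx η hη
  obtain ⟨α, β, hα, hβ, hab, hsum⟩ := modelMid_key t ht
  set s := Real.sqrt (1 + t ^ 2 / 4) with hs
  have hs0 : 0 ≤ s := Real.sqrt_nonneg _
  have hK : 0 < s + 1 + t := by positivity
  set δ : ℝ := η / (s + 1 + t) with hδ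
  have hδ0 : 0 < δ := div_pos hη hK
  have hδK : δ * (s + 1 + t) = η := by rw [hδ]; field_simp
  obtain ⟨c, hc⟩ := exists_fsum_near (x : Amb m) x.2 hδ0
  obtain ⟨T, hT, hcT⟩ := exists_suffixClosed c.support
  have hc0 : ∀ u ∉ T, c u = 0 := by
    intro u hu
    by_contra h
    exact hu (hcT (Finsupp.mem_support_iff.2 h))
  refine ⟨{y : ↥(modelSpace m) | ∀ i : ↥T,
      ((coordFun m i.1).comp (modelSpace m).subtypeL) y = 0},
    gcof_of_functionals (fun i : ↥T => (coordFun m i.1).comp (modelSpace m).subtypeL), ?_⟩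
  intro y hy hy1
  have hyT : ∀ u ∈ T, coordFun m u (y : Amb m) = 0 := fun u hu => hy ⟨u, hu⟩
  obtain ⟨d, hd0, hd⟩ := exists_fsum_near_off T (y : Amb m) y.2 hyT hδ0
  have hmid := fsum_mid m hT c d hc0 hd0 t ht.le hα hβ hab
  have hx1 : ‖(x : Amb m)‖ = 1 := hx
  have hy1' : ‖(y : Amb m)‖ = 1 := hy1
  have e1 : ‖x + t • y‖ = ‖(x : Amb m) + t • (y : Amb m)‖ := rfl
  have e2 : ‖x - t • y‖ = ‖(x : Amb m) - t • (y : Amb m)‖ := rfl
  rw [e1, e2]
  have f1 : fsum m (c + t • d) = fsum m c + t • fsum m d := by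
    rw [map_add, map_smul]
  have f2 : fsum m (c - t • d) = fsum m c - t • fsum m d := by
    rw [map_sub, map_smul]
  rw [f1, f2] at hmid
  have n1 : 1 - δ ≤ ‖fsum m c‖ := by
    have := norm_sub_norm_le (x : Amb m) (fsum m c)
    linarith
  have n2 : 1 - δ ≤ ‖fsum m d‖ := by
    have := norm_sub_norm_le (y : Amb m) (fsum m d)
    linarith
  have ts : ‖t • ((y : Amb m) - fsum m d)‖ = t * ‖(y : Amb m) - fsum m d‖ := by
    rw [norm_smul, Real.norm_eq_abs, abs_of_pos ht]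
  have n3 : ‖fsum m c + t • fsum m d‖ ≤ ‖(x : Amb m) + t • (y : Amb m)‖ + δ + t * δ := by
    have h : fsum m c + t • fsum m d =
        ((x : Amb m) + t • (y : Amb m)) - ((x : Amb m) - fsum m c) -
          t • ((y : Amb m) - fsum m d) := by
      rw [smul_sub]; abel
    rw [h]
    have a1 := norm_sub_le (((x : Amb m) + t • (y : Amb m)) - ((x : Amb m) - fsum m c))
      (t • ((y : Amb m) - fsum m d))
    have a2 := norm_sub_le ((x : Amb m) + t • (y : Amb m)) ((x : Amb m) - fsum m c)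
    have a3 : t * ‖(y : Amb m) - fsum m d‖ ≤ t * δ := mul_le_mul_of_nonneg_left hd.le ht.le
    linarith
  have n4 : ‖fsum m c - t • fsum m d‖ ≤ ‖(x : Amb m) - t • (y : Amb m)‖ + δ + t * δ := by
    have h : fsum m c - t • fsum m d =
        ((x : Amb m) - t • (y : Amb m)) - ((x : Amb m) - fsum m c) +
          t • ((y : Amb m) - fsum m d) := by
      rw [smul_sub]; abel
    rw [h]
    have a1 := norm_add_le (((x : Amb m) - t • (y : Amb m)) - ((x : Amb m) - fsum m c))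
      (t • ((y : Amb m) - fsum m d))
    have a2 := norm_sub_le ((x : Amb m) - t • (y : Amb m)) ((x : Amb m) - fsum m c)
    have a3 : t * ‖(y : Amb m) - fsum m d‖ ≤ t * δ := mul_le_mul_of_nonneg_left hd.le ht.le
    linarith
  have m1 : 2 * α * (1 - δ) ≤ 2 * α * ‖fsum m c‖ :=
    mul_le_mul_of_nonneg_left n1 (by positivity)
  have m2 : t * β * (1 - δ) ≤ t * β * ‖fsum m d‖ :=
    mul_le_mul_of_nonneg_left n2 (by positivity)
  have m3 : (2 * α + t * β) * (1 - δ) = 2 * s * (1 - δ) := by rw [hsum]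
  nlinarith

end Crest.Agent.S0166Aux
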