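import Crest.Agent.S0166Aux.Model
import Crest.Agent.S0166Aux.Play

/-!
# S0168, task T9: separability and the tree play in the four model spaces
-/

set_option autoImplicit false

namespace Crest.Agent.S0166Aux

open Crest.AnalysisR.TreePotential

/-- closure of the span of a countable set -/
theorem model_separable (m : PotentialModel) :
    TopologicalSpace.SeparableSpace ↥(modelSpace m) := by
  have h1 : TopologicalSpace.IsSeparable (Set.range (coordVector m)) :=
    (Set.countable_range _).isSeparable
  have h2 : TopologicalSpace.IsSeparable
      ((Submodule.span ℝ (Set.range (coordVector m)) : Submodule ℝ (Amb m)) : Set (Amb m)) :=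
    h1.span
  have h3 : TopologicalSpace.IsSeparable ((modelSpace m : Submodule ℝ (Amb m)) : Set (Amb m)) := by
    have := h2.closure
    simpa [modelSpace, Submodule.topologicalClosure_coe] using this
  exact h3.separableSpace

/-- the positions of the tree play, as elements of the model space -/
noncomputable def T9.pos (m : PotentialModel) (s : List ℕ) : ↥(modelSpace m) :=
  ⟨branch m (s ++ [0]), branch_mem m _⟩

theorem T9.pos_sub (m : PotentialModel) (s : List ℕ) (n : ℕ) :
    ((T9.pos m (n :: s) - T9.pos m s : ↥(modelSpace m)) : Amb m) =
      coordVector m (n :: (s ++ [0])) := by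
  simp [T9.pos, branch]

/-- `play_of_tree` with `S s = branch m (s ++ [0])` (so that all positions are non-root branch sums),
`B = 1`, `δ = 1/2`, increments `coordVector m (n :: (s ++ [0]))` of norm `≥ 1`,
`norm_sum_siblings_le`. -/
theorem model_play (m : PotentialModel) (j : ℕ) :
    ∃ x : ↥(modelSpace m), 1 ≤ ‖x‖ ∧ Play 1 (1 / 2) j x := by
  refine ⟨T9.pos m [], ?_, ?_⟩
  · rw [Submodule.coe_norm]
    exact one_le_norm_branch m _ (by simp)
  · refine play_of_tree (T9.pos m) (B := 1) (δ := 1 / 2) (by norm_num) j ?_ ?_ ?_ j [] (by simp)
    · intro s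
      rw [Submodule.coe_norm]
      exact norm_branch_le m _
    · intro s n _
      rw [Submodule.coe_norm, T9.pos_sub]
      have := one_le_norm_coordVector m (n :: (s ++ [0])) (by simp)
      linarith
    · intro s _
      refine ⟨1, fun A => ?_⟩
      rw [Submodule.coe_norm]
      have h : ((∑ n ∈ A, (T9.pos m (n :: s) - T9.pos m s) : ↥(modelSpace m)) : Amb m) =
          ∑ n ∈ A, coordVector m (n :: (s ++ [0])) := by
        rw [Submodule.coe_sum]
        exact Finset.sum_congr rfl fun n _ => T9.pos_sub m s n
      rw [h]
      exact norm_sum_siblings_le m (s ++ [0]) A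

end Crest.Agent.S0166Aux
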