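import Crest.Agent.S0166Aux.Play

/-!
# S0166–S0169, task T3: generic facts on the moduli, consequences of the key property `KP`
-/

set_option autoImplicit false

namespace Crest.Agent.S0166Aux

variable {X : Type} [NormedAddCommGroup X] [NormedSpace ℝ X]

/-- triangle inequality: the average is at least `t` (take `F = univ`). -/
theorem gmidGE_sub_one (t : ℝ) (ht : 0 < t) : GMidGE (X := X) t (t - 1) := by
  intro x _ η hη
  refine ⟨Set.univ, gcof_univ, fun y _ hy1 => ?_⟩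
  have h1 : ‖(2 * t) • y‖ ≤ ‖x + t • y‖ + ‖x - t • y‖ := by
    have e : (2 * t) • y = (x + t • y) - (x - t • y) := by
      rw [two_mul, add_smul]; abel
    rw [e]
    exact norm_sub_le _ _
  rw [norm_smul, hy1, Real.norm_of_nonneg (by positivity)] at h1
  linarith

/-- Hahn–Banach: `F = ker x*` with `x* x = ‖x‖`, `‖x*‖ = 1` (`exists_dual_vector`). -/
theorem goneGE_zero (t : ℝ) : GOneGE (X := X) t 0 := by
  intro x hx η hη
  have hx0 : ‖x‖ ≠ 0 := by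
    rw [hx]; exact one_ne_zero
  obtain ⟨g, hg1, hg2⟩ := exists_dual_vector ℝ x hx0
  refine ⟨{y | g y = 0}, gcof_ker g, fun y hy _ => ?_⟩
  have hy' : g y = 0 := hy
  have h1 : g (x + t • y) = 1 := by
    rw [map_add, map_smul, hy', smul_zero, add_zero, hg2]
    simp [hx]
  have h2 : ‖g (x + t • y)‖ ≤ ‖g‖ * ‖x + t • y‖ := g.le_opNorm _
  rw [h1, hg1, one_mul, norm_one] at h2
  linarith

theorem goneGE_sub_two (t : ℝ) (ht : 0 < t) : GOneGE (X := X) t (t - 2) := by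
  intro x hx η hη
  refine ⟨Set.univ, gcof_univ, fun y _ hy1 => ?_⟩
  have h1 : ‖t • y‖ ≤ ‖x + t • y‖ + ‖x‖ := by
    have e : t • y = (x + t • y) - x := by abel
    calc ‖t • y‖ = ‖(x + t • y) - x‖ := by rw [← e]
      _ ≤ _ := norm_sub_le _ _
  rw [norm_smul, hy1, hx, Real.norm_of_nonneg ht.le] at h1
  linarith

theorem GMidGE.mono {t c c' : ℝ} (h : GMidGE (X := X) t c) (hc : c' ≤ c) :
    GMidGE (X := X) t c' := by
  intro x hx η hη
  obtain ⟨F, hF, hy⟩ := h x hx η hη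
  exact ⟨F, hF, fun y hyF hy1 => by linarith [hy y hyF hy1]⟩

theorem GMidGE.toMax {t c : ℝ} (h : GMidGE (X := X) t c) : GMaxGE (X := X) t c := by
  intro x hx η hη
  obtain ⟨F, hF, hy⟩ := h x hx η hη
  refine ⟨F, hF, fun y hyF hy1 => ?_⟩
  have h1 := hy y hyF hy1
  have h2 := le_max_left ‖x + t • y‖ ‖x - t • y‖
  have h3 := le_max_right ‖x + t • y‖ ‖x - t • y‖
  linarith

/-- The property delivered by the Daugavet key lemma. -/
def KP (X : Type) [NormedAddCommGroup X] [NormedSpace ℝ X] : Prop :=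
  ∀ x : X, ‖x‖ = 1 → ∀ F : Set X, GCof F → ∀ η : ℝ, 0 < η →
    ∃ y ∈ F, ‖y‖ = 1 ∧ ‖x + (2 : ℝ) • y‖ ≤ 1 + η

/-- the pointwise convexity estimate behind `goneLE_of_KP` -/
theorem Moduli.norm_add_smul_le {x y : X} {t η : ℝ} (hx : ‖x‖ = 1) (hy : ‖y‖ = 1) (ht : 0 < t)
    (hη : 0 < η) (h : ‖x + (2 : ℝ) • y‖ ≤ 1 + η) : ‖x + t • y‖ ≤ 1 + max 0 (t - 2) + η := by
  rcases le_total t 2 with h2 | h2
  · have e : x + t • y = (1 - t / 2) • x + (t / 2) • (x + (2 : ℝ) • y) := by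
      rw [smul_add, smul_smul, sub_smul, one_smul]
      have : t / 2 * 2 = t := by ring
      rw [this]; abel
    have h3 : ‖x + t • y‖ ≤ (1 - t / 2) * 1 + (t / 2) * (1 + η) := by
      rw [e]
      calc ‖(1 - t / 2) • x + (t / 2) • (x + (2 : ℝ) • y)‖
          ≤ ‖(1 - t / 2) • x‖ + ‖(t / 2) • (x + (2 : ℝ) • y)‖ := norm_add_le _ _
        _ = (1 - t / 2) * 1 + (t / 2) * ‖x + (2 : ℝ) • y‖ := by
            rw [norm_smul, norm_smul, hx, Real.norm_of_nonneg (by linarith),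
              Real.norm_of_nonneg (by linarith)]
        _ ≤ _ := by gcongr
    have h4 : 0 ≤ max 0 (t - 2) := le_max_left _ _
    nlinarith
  · have e : x + t • y = (x + (2 : ℝ) • y) + (t - 2) • y := by
      rw [sub_smul]; abel
    have h3 : ‖x + t • y‖ ≤ (1 + η) + (t - 2) := by
      rw [e]
      calc ‖(x + (2 : ℝ) • y) + (t - 2) • y‖ ≤ ‖x + (2 : ℝ) • y‖ + ‖(t - 2) • y‖ := norm_add_le _ _
        _ = ‖x + (2 : ℝ) • y‖ + (t - 2) := by
            rw [norm_smul, hy, Real.norm_of_nonneg (by linarith), mul_one]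
        _ ≤ _ := by gcongr
    have h4 : t - 2 ≤ max 0 (t - 2) := le_max_right _ _
    linarith

/-- convexity in `t`: `‖x+ty‖ ≤ (1-t/2)‖x‖ + (t/2)‖x+2y‖` for `t ≤ 2`, `≤ ‖x+2y‖ + (t-2)` else. -/
theorem goneLE_of_KP (h : KP X) (t : ℝ) (ht : 0 < t) : GOneLE (X := X) t (max 0 (t - 2)) := by
  intro x hx F hF η hη
  obtain ⟨y, hyF, hy1, hy2⟩ := h x hx F hF η hη
  refine ⟨y, hyF, hy1, ?_⟩
  have := Moduli.norm_add_smul_le hx hy1 ht hη hy2
  linarith

/-- same `y`, and `‖x - t y‖ ≤ 1 + t`. -/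
theorem gmidLE_of_KP (h : KP X) (t : ℝ) (ht : 0 < t) :
    GMidLE (X := X) t (max (t / 2) (t - 1)) := by
  intro x hx F hF η hη
  obtain ⟨y, hyF, hy1, hy2⟩ := h x hx F hF η hη
  refine ⟨y, hyF, hy1, ?_⟩
  have h1 := Moduli.norm_add_smul_le hx hy1 ht hη hy2
  have h2 : ‖x - t • y‖ ≤ 1 + t := by
    calc ‖x - t • y‖ ≤ ‖x‖ + ‖t • y‖ := norm_sub_le _ _
      _ = 1 + t := by rw [norm_smul, hx, hy1, Real.norm_of_nonneg ht.le, mul_one]
  have h3 : max 0 (t - 2) / 2 + t / 2 ≤ max (t / 2) (t - 1) := by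
    rcases le_total t 2 with h2 | h2
    · rw [max_eq_left (by linarith)]
      have := le_max_left (t / 2) (t - 1)
      linarith
    · rw [max_eq_right (by linarith)]
      have := le_max_right (t / 2) (t - 1)
      linarith
  linarith

/-- positions = unit sphere, move `y' = 2y`, `x' = (x+2y)/‖x+2y‖` (note `1 ≤ ‖x+2y‖ ≤ 1+η`),
`B = 1`, `δ = 2`. -/
theorem play_of_KP (h : KP X) (x : X) (hx : ‖x‖ = 1) (j : ℕ) : Play 1 2 j x := by
  induction j generalizing x with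
  | zero => exact hx.le
  | succ j ih =>
    refine ⟨hx.le, fun F hF η hη => ?_⟩
    obtain ⟨y, hyF, hy1, hy2⟩ := h x hx F hF η hη
    have hn : 1 ≤ ‖x + (2 : ℝ) • y‖ := by
      have h1 : ‖(2 : ℝ) • y‖ ≤ ‖x + (2 : ℝ) • y‖ + ‖x‖ := by
        have e : (2 : ℝ) • y = (x + (2 : ℝ) • y) - x := by abel
        calc ‖(2 : ℝ) • y‖ = ‖(x + (2 : ℝ) • y) - x‖ := by rw [← e]
          _ ≤ _ := norm_sub_le _ _
      rw [norm_smul, hy1, hx] at h1
      norm_num at h1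
      linarith
    have hn0 : 0 < ‖x + (2 : ℝ) • y‖ := by linarith
    refine ⟨(2 : ℝ) • y, hF.smul_mem 2 hyF, ?_, (‖x + (2 : ℝ) • y‖)⁻¹ • (x + (2 : ℝ) • y), ?_, ?_⟩
    · rw [norm_smul, hy1]; norm_num
    · have e : (‖x + (2 : ℝ) • y‖)⁻¹ • (x + (2 : ℝ) • y) - (x + (2 : ℝ) • y)
          = ((‖x + (2 : ℝ) • y‖)⁻¹ - 1) • (x + (2 : ℝ) • y) := by
        rw [sub_smul, one_smul]
      rw [e, norm_smul, Real.norm_eq_abs]
      have h3 : (‖x + (2 : ℝ) • y‖)⁻¹ ≤ 1 := inv_le_one_of_one_le₀ hn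
      rw [abs_of_nonpos (by linarith)]
      have h4 : (‖x + (2 : ℝ) • y‖)⁻¹ * ‖x + (2 : ℝ) • y‖ = 1 := inv_mul_cancel₀ hn0.ne'
      nlinarith
    · apply ih
      rw [norm_smul, norm_inv, norm_norm]
      exact inv_mul_cancel₀ hn0.ne'

end Crest.Agent.S0166Aux
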