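import Mathlib

/-!
# S0166, task T13: reflexivity toolbox (pure functional analysis, no Prelude)
`Refl X` : the canonical embedding into the bidual is surjective.
-/

set_option autoImplicit false

namespace Crest.Agent.S0166Aux

/-- reflexivity -/
def Refl (X : Type) [NormedAddCommGroup X] [NormedSpace ℝ X] : Prop :=
  Function.Surjective (NormedSpace.inclusionInDoubleDual ℝ X)

/-- Hilbert spaces are reflexive (Riesz `InnerProductSpace.toDual` twice). -/
theorem refl_of_hilbert (H : Type) [NormedAddCommGroup H] [InnerProductSpace ℝ H]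
    [CompleteSpace H] : Refl H := by
  intro Φ
  -- the functional `v ↦ Φ (toDual v)`
  let ℓ₀ : H →ₗ[ℝ] ℝ :=
    { toFun := fun v => Φ (InnerProductSpace.toDual ℝ H v)
      map_add' := fun a b => by simp
      map_smul' := fun c a => by simp }
  have hb : ∀ v, ‖ℓ₀ v‖ ≤ ‖Φ‖ * ‖v‖ := fun v => by
    have := Φ.le_opNorm (InnerProductSpace.toDual ℝ H v)
    rw [LinearIsometryEquiv.norm_map] at this
    exact this
  let ℓ : StrongDual ℝ H := ℓ₀.mkContinuous ‖Φ‖ hb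
  refine ⟨(InnerProductSpace.toDual ℝ H).symm ℓ, ?_⟩
  ext φ
  rw [NormedSpace.dual_def]
  obtain ⟨u, rfl⟩ := (InnerProductSpace.toDual ℝ H).surjective φ
  have h1 : InnerProductSpace.toDual ℝ H u ((InnerProductSpace.toDual ℝ H).symm ℓ)
      = ℓ u := by
    rw [InnerProductSpace.toDual_apply_apply, real_inner_comm,
      InnerProductSpace.toDual_symm_apply]
  rw [h1]
  rfl

/-- reflexivity passes through linear homeomorphisms -/
theorem refl_of_equiv {X Y : Type} [NormedAddCommGroup X] [NormedSpace ℝ X]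
    [NormedAddCommGroup Y] [NormedSpace ℝ Y] (e : X ≃L[ℝ] Y) (hY : Refl Y) : Refl X := by
  intro Φ
  let Ψ : StrongDual ℝ (StrongDual ℝ Y) :=
    Φ.comp ((ContinuousLinearMap.compL ℝ X Y ℝ).flip (e : X →L[ℝ] Y))
  obtain ⟨y, hy⟩ := hY Ψ
  refine ⟨e.symm y, ?_⟩
  ext φ
  rw [NormedSpace.dual_def]
  have h := congrArg (fun F => F (φ.comp (e.symm : Y →L[ℝ] X))) hy
  simp only [NormedSpace.dual_def] at h
  have h2 : Ψ (φ.comp (e.symm : Y →L[ℝ] X)) = Φ φ := by
    simp only [Ψ, ContinuousLinearMap.comp_apply, ContinuousLinearMap.flip_apply,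
      ContinuousLinearMap.compL_apply]
    congr 1
    ext x
    simp
  rw [← h2, ← h]
  rfl

namespace ReflAux

theorem le_sq_of_le_mul_sqrt {A M : ℝ} (hA : 0 ≤ A) (h : A ≤ M * Real.sqrt A) :
    A ≤ M ^ 2 := by
  rcases hA.eq_or_lt with rfl | hpos
  · positivity
  have hs : 0 < Real.sqrt A := Real.sqrt_pos.2 hpos
  have h1 : Real.sqrt A * Real.sqrt A ≤ M * Real.sqrt A := by
    rw [Real.mul_self_sqrt hA]; exact h
  have h2 : Real.sqrt A ≤ M := le_of_mul_le_mul_right h1 hs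
  calc A = Real.sqrt A ^ 2 := (Real.sq_sqrt hA).symm
    _ ≤ M ^ 2 := by gcongr

section
variable {G : ℕ → Type} [∀ n, NormedAddCommGroup (G n)]

theorem sum_sq_le (f : lp G 2) (s : Finset ℕ) : ∑ n ∈ s, ‖f n‖ ^ 2 ≤ ‖f‖ ^ 2 := by
  have h := lp.sum_rpow_le_norm_rpow (p := 2) (by norm_num) f s
  simpa using h

theorem norm_sum_single_sq (v : ∀ n, G n) (s : Finset ℕ) :
    ‖∑ n ∈ s, lp.single 2 n (v n)‖ ^ 2 = ∑ n ∈ s, ‖v n‖ ^ 2 := by
  have h := lp.norm_sum_single (p := 2) (by norm_num) v s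
  simpa using h

theorem sum_mul_norm_le (a : ℕ → ℝ) (f : lp G 2) (s : Finset ℕ) :
    ∑ n ∈ s, a n * ‖f n‖ ≤ Real.sqrt (∑ n ∈ s, a n ^ 2) * ‖f‖ := by
  refine (Real.sum_mul_le_sqrt_mul_sqrt s a fun n => ‖f n‖).trans ?_
  gcongr
  exact Real.sqrt_le_iff.2 ⟨norm_nonneg _, sum_sq_le f s⟩

end

/-- in a reflexive space every functional attains its norm -/
theorem exists_norming {X : Type} [NormedAddCommGroup X] [NormedSpace ℝ X] (h : Refl X)
    (φ : StrongDual ℝ X) : ∃ u : X, ‖u‖ ≤ 1 ∧ φ u = ‖φ‖ := by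
  obtain ⟨g, hg1, hg2⟩ := exists_dual_vector'' ℝ φ
  obtain ⟨u, rfl⟩ := h g
  refine ⟨u, ?_, ?_⟩
  · have := (NormedSpace.inclusionInDoubleDualLi (E := X) ℝ).norm_map u
    rw [← this]; exact hg1
  · simpa using hg2

variable {G : ℕ → Type} [∀ n, NormedAddCommGroup (G n)] [∀ n, NormedSpace ℝ (G n)]

/-- coordinate projection -/
noncomputable abbrev P (G : ℕ → Type) [∀ n, NormedAddCommGroup (G n)] [∀ n, NormedSpace ℝ (G n)]
    (n : ℕ) : lp G 2 →L[ℝ] G n := lp.evalCLM ℝ G 2 n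

/-- coordinate injection -/
noncomputable abbrev I (G : ℕ → Type) [∀ n, NormedAddCommGroup (G n)] [∀ n, NormedSpace ℝ (G n)]
    (n : ℕ) : G n →L[ℝ] lp G 2 := lp.singleContinuousLinearMap ℝ G 2 n

theorem P_apply (n : ℕ) (f : lp G 2) : P G n f = f n := rfl

/-- a finite combination of coordinate functionals has small norm -/
theorem norm_sum_comp_le (ψ : ∀ n, StrongDual ℝ (G n)) (s : Finset ℕ) :
    ‖∑ n ∈ s, (ψ n).comp (P G n)‖ ≤ Real.sqrt (∑ n ∈ s, ‖ψ n‖ ^ 2) := by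
  refine ContinuousLinearMap.opNorm_le_bound _ (Real.sqrt_nonneg _) fun f => ?_
  rw [sum_apply]
  refine (norm_sum_le _ _).trans ?_
  refine le_trans (Finset.sum_le_sum fun n _ => ?_) (sum_mul_norm_le (fun n => ‖ψ n‖) f s)
  exact (ψ n).le_opNorm (f n)

/-- square-summability of the coordinates of a functional -/
theorem sum_norm_comp_sq_le (h : ∀ n, Refl (G n)) (φ : StrongDual ℝ (lp G 2)) (s : Finset ℕ) :
    ∑ n ∈ s, ‖φ.comp (I G n)‖ ^ 2 ≤ ‖φ‖ ^ 2 := by
  choose u hu1 hu2 using fun n => exists_norming (h n) (φ.comp (I G n))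
  set a : ℕ → ℝ := fun n => ‖φ.comp (I G n)‖ with ha
  set A : ℝ := ∑ n ∈ s, a n ^ 2 with hA
  have hA0 : 0 ≤ A := Finset.sum_nonneg fun n _ => by positivity
  refine le_sq_of_le_mul_sqrt hA0 ?_
  let f : lp G 2 := ∑ n ∈ s, lp.single 2 n (a n • u n)
  have hf : ‖f‖ ≤ Real.sqrt A := by
    refine Real.le_sqrt_of_sq_le ?_
    rw [norm_sum_single_sq]
    refine Finset.sum_le_sum fun n _ => ?_
    rw [norm_smul, mul_pow, Real.norm_eq_abs, sq_abs]
    have : ‖u n‖ ^ 2 ≤ 1 := by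
      have := hu1 n
      have h0 := norm_nonneg (u n)
      nlinarith
    nlinarith [sq_nonneg (a n)]
  have hφ : φ f = A := by
    simp only [f, map_sum]
    refine Finset.sum_congr rfl fun n _ => ?_
    have : φ (lp.single 2 n (a n • u n)) = (φ.comp (I G n)) (a n • u n) := rfl
    rw [this, map_smul, hu2 n, smul_eq_mul, sq]
  calc A = φ f := hφ.symm
    _ ≤ ‖φ f‖ := Real.le_norm_self _
    _ ≤ ‖φ‖ * ‖f‖ := φ.le_opNorm f
    _ ≤ ‖φ‖ * Real.sqrt A := by gcongr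

/-- tail estimate -/
theorem norm_sub_sum_le (φ : StrongDual ℝ (lp G 2)) (s : Finset ℕ) (ε : ℝ) (hε : 0 ≤ ε)
    (ht : ∀ t : Finset ℕ, Disjoint t s → ∑ n ∈ t, ‖φ.comp (I G n)‖ ^ 2 ≤ ε ^ 2) :
    ‖φ - ∑ n ∈ s, (φ.comp (I G n)).comp (P G n)‖ ≤ ε := by
  refine ContinuousLinearMap.opNorm_le_bound _ hε fun f => ?_
  have hf : HasSum (fun n => φ (lp.single 2 n (f n))) (φ f) :=
    (lp.hasSum_single (p := 2) (by norm_num) f).mapL φ
  have h1 : (φ - ∑ n ∈ s, (φ.comp (I G n)).comp (P G n)) f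
      = φ f - ∑ n ∈ s, φ (lp.single 2 n (f n)) := by
    rw [sub_apply, sum_apply]
    rfl
  rw [h1]
  have h2 : Filter.Tendsto (fun t : Finset ℕ => ‖∑ n ∈ t, φ (lp.single 2 n (f n))
      - ∑ n ∈ s, φ (lp.single 2 n (f n))‖) Filter.atTop
      (nhds ‖φ f - ∑ n ∈ s, φ (lp.single 2 n (f n))‖) :=
    (Filter.Tendsto.sub_const hf _).norm
  refine le_of_tendsto h2 ((Filter.eventually_ge_atTop s).mono fun t hst => ?_)
  rw [← Finset.sum_sdiff_eq_sub hst]
  refine (norm_sum_le _ _).trans ?_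
  have h3 : ∑ n ∈ t \ s, ‖φ (lp.single 2 n (f n))‖
      ≤ ∑ n ∈ t \ s, ‖φ.comp (I G n)‖ * ‖f n‖ :=
    Finset.sum_le_sum fun n _ => (φ.comp (I G n)).le_opNorm (f n)
  refine h3.trans ((sum_mul_norm_le (fun n => ‖φ.comp (I G n)‖) f (t \ s)).trans ?_)
  gcongr
  exact Real.sqrt_le_iff.2 ⟨hε, ht _ Finset.sdiff_disjoint⟩

theorem tendsto_sum_comp (h : ∀ n, Refl (G n)) (φ : StrongDual ℝ (lp G 2)) :
    Filter.Tendsto (fun s : Finset ℕ => ∑ n ∈ s, (φ.comp (I G n)).comp (P G n))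
      Filter.atTop (nhds φ) := by
  have hsum : Summable fun n => ‖φ.comp (I G n)‖ ^ 2 :=
    summable_of_sum_le (fun n => by positivity) (sum_norm_comp_sq_le h φ)
  rw [Metric.tendsto_atTop]
  intro ε hε
  obtain ⟨s₀, hs₀⟩ := summable_iff_vanishing_norm.1 hsum ((ε / 2) ^ 2) (by positivity)
  refine ⟨s₀, fun s hs => ?_⟩
  rw [dist_comm, dist_eq_norm]
  refine lt_of_le_of_lt (norm_sub_sum_le φ s (ε / 2) (by positivity) fun t ht => ?_)
    (by linarith)
  have := hs₀ t (ht.mono_right hs)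
  exact (Real.le_norm_self _).trans this.le

end ReflAux

open ReflAux in
/-- **`ℓ²`-sums of reflexive spaces are reflexive.** -/
theorem refl_lp_two (G : ℕ → Type) [∀ n, NormedAddCommGroup (G n)] [∀ n, NormedSpace ℝ (G n)]
    [∀ n, CompleteSpace (G n)] (h : ∀ n, Refl (G n)) : Refl (lp G 2) := by
  intro Φ
  -- coordinates of `Φ`
  have hx : ∀ n, ∃ x : G n, ∀ ψ : StrongDual ℝ (G n), ψ x = Φ (ψ.comp (P G n)) := by
    intro n
    obtain ⟨x, hx⟩ := h n (Φ.comp ((ContinuousLinearMap.compL ℝ (lp G 2) (G n) ℝ).flip (P G n)))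
    refine ⟨x, fun ψ => ?_⟩
    have := congrArg (fun F => F ψ) hx
    simpa using this
  choose x hx using hx
  -- square summability
  have hbound : ∀ s : Finset ℕ, ∑ n ∈ s, ‖x n‖ ^ 2 ≤ ‖Φ‖ ^ 2 := by
    intro s
    choose ψ hψ1 hψ2 using fun n => exists_dual_vector'' ℝ (x n)
    set A : ℝ := ∑ n ∈ s, ‖x n‖ ^ 2 with hA
    have hA0 : 0 ≤ A := Finset.sum_nonneg fun n _ => by positivity
    refine le_sq_of_le_mul_sqrt hA0 ?_
    let φ : StrongDual ℝ (lp G 2) := ∑ n ∈ s, (‖x n‖ • ψ n).comp (P G n)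
    have hφn : ‖φ‖ ≤ Real.sqrt A := by
      refine (norm_sum_comp_le (fun n => ‖x n‖ • ψ n) s).trans ?_
      refine Real.sqrt_le_sqrt (Finset.sum_le_sum fun n _ => ?_)
      rw [norm_smul, norm_norm, mul_pow]
      have h1 := hψ1 n
      have h0 := norm_nonneg (ψ n)
      have : ‖ψ n‖ ^ 2 ≤ 1 := by nlinarith
      nlinarith [sq_nonneg ‖x n‖]
    have hΦ : Φ φ = A := by
      simp only [φ, map_sum]
      refine Finset.sum_congr rfl fun n _ => ?_
      rw [← hx n]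
      have := hψ2 n
      simp only [smul_apply, smul_eq_mul]
      rw [this]
      simp [sq]
    calc A = Φ φ := hΦ.symm
      _ ≤ ‖Φ φ‖ := Real.le_norm_self _
      _ ≤ ‖Φ‖ * ‖φ‖ := Φ.le_opNorm φ
      _ ≤ ‖Φ‖ * Real.sqrt A := by gcongr
  have hmem : Memℓp x 2 := by
    refine memℓp_gen' (C := ‖Φ‖ ^ 2) fun s => ?_
    simpa using hbound s
  let X : lp G 2 := ⟨x, hmem⟩
  refine ⟨X, ?_⟩
  ext φ
  rw [NormedSpace.dual_def]
  have h1 : Filter.Tendsto (fun s : Finset ℕ => Φ (∑ n ∈ s, (φ.comp (I G n)).comp (P G n)))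
      Filter.atTop (nhds (Φ φ)) :=
    (Φ.continuous.tendsto φ).comp (tendsto_sum_comp h φ)
  have h2 : HasSum (fun n => φ (lp.single 2 n (X n))) (φ X) :=
    (lp.hasSum_single (p := 2) (by norm_num) X).mapL φ
  have h3 : (fun s : Finset ℕ => Φ (∑ n ∈ s, (φ.comp (I G n)).comp (P G n)))
      = fun s : Finset ℕ => ∑ n ∈ s, φ (lp.single 2 n (X n)) := by
    funext s
    rw [map_sum]
    refine Finset.sum_congr rfl fun n _ => ?_
    rw [← hx n]
    rfl
  rw [h3] at h1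
  exact tendsto_nhds_unique h2 h1

open TopologicalSpace in
/-- `ℓ²`-sums of separable spaces are separable. -/
theorem separable_lp_two (G : ℕ → Type) [∀ n, NormedAddCommGroup (G n)]
    [∀ n, NormedSpace ℝ (G n)] [∀ n, TopologicalSpace.SeparableSpace (G n)] :
    TopologicalSpace.SeparableSpace (lp G 2) := by
  rw [← isSeparable_univ_iff]
  have h1 : IsSeparable (⋃ n, Set.range (lp.singleContinuousLinearMap ℝ G 2 n)) :=
    IsSeparable.iUnion fun n => isSeparable_range (lp.singleContinuousLinearMap ℝ G 2 n).continuous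
  have h2 := (h1.span (R := ℝ)).closure
  refine h2.mono ?_
  intro f _
  have hf := lp.hasSum_single (p := 2) (by norm_num) f
  refine mem_closure_of_tendsto hf (Filter.Eventually.of_forall fun s => ?_)
  refine Submodule.sum_mem _ fun n _ => Submodule.subset_span ?_
  exact Set.mem_iUnion.2 ⟨n, ⟨f n, rfl⟩⟩

end Crest.Agent.S0166Aux
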