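import Crest.Agent.S0166Aux.Model
import Crest.Agent.S0166Aux.Refl

/-!
# S0166, task T14: the space `E = (⊕ₙ Xₙ)_{ℓ²}`, `Xₙ = closed span {e_s : |s| ≤ n}` in the global model
-/

set_option autoImplicit false

namespace Crest.Agent.S0166Aux

open Crest.AnalysisR.TreePotential

/-- the height-`n` block: closed span of the coordinate vectors of the vertices of length `≤ n` in the
global model -/
noncomputable def Xn (n : ℕ) : Submodule ℝ (Amb .global) :=
  (Submodule.span ℝ (coordVector .global '' {s : List ℕ | s.length ≤ n})).topologicalClosure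

theorem Xn_le_modelSpace (n : ℕ) : Xn n ≤ modelSpace .global := by
  apply Submodule.topologicalClosure_mono
  apply Submodule.span_mono
  exact Set.image_subset_range _ _

theorem isClosed_Xn (n : ℕ) : IsClosed (Xn n : Set (Amb .global)) :=
  Submodule.isClosed_topologicalClosure _

instance instCompleteXn (n : ℕ) : CompleteSpace ↥(Xn n) := (isClosed_Xn n).completeSpace_coe

theorem coordVector_mem_Xn {n : ℕ} {s : List ℕ} (hs : s.length ≤ n) :
    coordVector .global s ∈ Xn n := by
  apply Submodule.le_topologicalClosure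
  apply Submodule.subset_span
  exact ⟨s, hs, rfl⟩

theorem fsum_mem_Xn (n : ℕ) (c : List ℕ →₀ ℝ) (hc : ∀ s, n < s.length → c s = 0) :
    fsum .global c ∈ Xn n := by
  unfold fsum
  rw [Finsupp.linearCombination_apply]
  apply Submodule.sum_mem
  intro s hs
  apply Submodule.smul_mem
  apply coordVector_mem_Xn
  by_contra h
  exact (Finsupp.mem_support_iff.mp hs) (hc s (not_le.mp h))

theorem branch_mem_Xn {n : ℕ} {s : List ℕ} (hs : s.length ≤ n) : branch .global s ∈ Xn n := by
  induction s with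
  | nil => exact coordVector_mem_Xn hs
  | cons a v ih =>
    have hv : v.length ≤ n := by
      simp only [List.length_cons] at hs; omega
    exact (Xn n).add_mem (ih hv) (coordVector_mem_Xn hs)

/-- density in `Xn n` of the finite sums supported on length `≤ n` -/
theorem exists_fsum_near_Xn {n : ℕ} (x : Amb .global) (hx : x ∈ Xn n) {ε : ℝ} (hε : 0 < ε) :
    ∃ c : List ℕ →₀ ℝ, (∀ s, n < s.length → c s = 0) ∧ ‖x - fsum .global c‖ < ε := by
  have hx' : x ∈ closure
      (Submodule.span ℝ (coordVector .global '' {s : List ℕ | s.length ≤ n}) : Set (Amb .global)) := hx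
  rw [Metric.mem_closure_iff] at hx'
  obtain ⟨z, hz, hxz⟩ := hx' ε hε
  rw [SetLike.mem_coe, Finsupp.mem_span_image_iff_linearCombination] at hz
  obtain ⟨c, hc, rfl⟩ := hz
  refine ⟨c, ?_, ?_⟩
  · intro s hs
    by_contra h
    have : s ∈ {s : List ℕ | s.length ≤ n} := hc (Finsupp.mem_support_iff.mpr h)
    simp only [Set.mem_ofPred_eq] at this
    omega
  · rw [dist_eq_norm] at hxz
    exact hxz

theorem coordFun_global_fsum (s : List ℕ) (c : List ℕ →₀ ℝ) :
    coordFun .global s (fsum .global c) = c s := by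
  classical
  have h : IsTest .global (fun u => if u = s then 1 else 0) :=
    isTest_indicator .global s (fun h => by cases h)
  obtain ⟨τ, hτ1, hτ2⟩ : ∃ τ : PotentialTest .global,
      τ.1 = (fun u => if u = s then (1 : ℝ) else 0) ∧ coordFun .global s = evalCLM τ :=
    ⟨⟨_, h⟩, rfl, by unfold coordFun; exact dif_pos h⟩
  rw [hτ2, evalCLM_apply, fsum_apply, hτ1]
  unfold pair
  simp only [mul_ite, mul_one, mul_zero]
  rw [Finsupp.sum_ite_eq']
  split_ifs with h1
  · rfl
  · exact (Finsupp.notMem_support_iff.mp h1).symm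

/-- erasing the coordinates in `T` -/
theorem norm_sub_fsum_filter_le (T : Finset (List ℕ)) (y : Amb .global)
    (hyT : ∀ s ∈ T, coordFun .global s y = 0) (c : List ℕ →₀ ℝ) :
    ‖y - fsum .global (c.filter (fun s => s ∉ T))‖ ≤ (1 + 2 * T.card) * ‖y - fsum .global c‖ := by
  classical
  have h1 : c = c.filter (fun s => s ∉ T) + ∑ s ∈ T, Finsupp.single s (c s) := by
    ext u
    simp only [Finsupp.coe_add, Pi.add_apply, Finsupp.filter_apply, Finsupp.coe_finsetSum,
      Finset.sum_apply, Finsupp.single_apply]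
    rw [Finset.sum_ite_eq' T u (fun s => c s)]
    by_cases hu : u ∈ T <;> simp [hu]
  have h2 : fsum .global c = fsum .global (c.filter (fun s => s ∉ T)) +
      ∑ s ∈ T, c s • coordVector .global s := by
    conv_lhs => rw [h1]
    rw [map_add, map_sum]
    simp only [fsum_single]
  have h3 : y - fsum .global (c.filter (fun s => s ∉ T)) =
      (y - fsum .global c) + ∑ s ∈ T, c s • coordVector .global s := by
    rw [h2]; abel
  rw [h3]
  have h4 : ∀ s ∈ T, ‖c s • coordVector .global s‖ ≤ 2 * ‖y - fsum .global c‖ := by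
    intro s hs
    rw [norm_smul]
    have e1 : |c s| ≤ ‖y - fsum .global c‖ := by
      have := abs_coordFun_le .global s (y - fsum .global c)
      rw [map_sub, hyT s hs, coordFun_global_fsum, zero_sub, abs_neg] at this
      exact this
    have e2 := norm_coordVector_le .global s
    rw [Real.norm_eq_abs]
    nlinarith [abs_nonneg (c s), norm_nonneg (coordVector .global s)]
  calc ‖(y - fsum .global c) + ∑ s ∈ T, c s • coordVector .global s‖
      ≤ ‖y - fsum .global c‖ + ∑ s ∈ T, ‖c s • coordVector .global s‖ :=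
        (norm_add_le _ _).trans (by gcongr; exact norm_sum_le _ _)
    _ ≤ ‖y - fsum .global c‖ + ∑ s ∈ T, 2 * ‖y - fsum .global c‖ := by
        gcongr with s hs; exact h4 s hs
    _ = (1 + 2 * T.card) * ‖y - fsum .global c‖ := by
        rw [Finset.sum_const, nsmul_eq_mul]; ring

/-- same with vanishing coordinates on `T` (cf. `exists_fsum_near_off`) -/
theorem exists_fsum_near_off_Xn {n : ℕ} (T : Finset (List ℕ)) (y : Amb .global) (hy : y ∈ Xn n)
    (hyT : ∀ s ∈ T, coordFun .global s y = 0) {ε : ℝ} (hε : 0 < ε) :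
    ∃ d : List ℕ →₀ ℝ, (∀ s, n < s.length → d s = 0) ∧ (∀ s ∈ T, d s = 0) ∧
      ‖y - fsum .global d‖ < ε := by
  classical
  have hK : (0 : ℝ) < 1 + 2 * T.card := by positivity
  obtain ⟨c, hc, hyc⟩ := exists_fsum_near_Xn y hy (div_pos hε hK)
  refine ⟨c.filter (fun s => s ∉ T), ?_, ?_, ?_⟩
  · intro s hs
    rw [Finsupp.filter_apply, hc s hs]; simp
  · intro s hs
    rw [Finsupp.filter_apply]; simp [hs]
  · calc ‖y - fsum .global (c.filter (fun s => s ∉ T))‖
        ≤ (1 + 2 * T.card) * ‖y - fsum .global c‖ := norm_sub_fsum_filter_le T y hyT c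
      _ < (1 + 2 * T.card) * (ε / (1 + 2 * T.card)) := by gcongr
      _ = ε := by field_simp

theorem separable_Xn (n : ℕ) : TopologicalSpace.SeparableSpace ↥(Xn n) := by
  have h1 : TopologicalSpace.IsSeparable
      (coordVector .global '' {s : List ℕ | s.length ≤ n}) :=
    ((Set.to_countable _).image _).isSeparable
  have h2 := (h1.span (R := ℝ)).closure
  exact h2.separableSpace

theorem sum_sq_le_finsupp (c : List ℕ →₀ ℝ) (A : Finset (List ℕ)) :
    ∑ u ∈ A, c u ^ 2 ≤ c.sum fun _ a => a ^ 2 := by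
  classical
  unfold Finsupp.sum
  have h1 : ∑ u ∈ A, c u ^ 2 = ∑ u ∈ A ∩ c.support, c u ^ 2 := by
    rw [← Finset.filter_mem_eq_inter, Finset.sum_filter]
    apply Finset.sum_congr rfl
    intro u _
    split_ifs with h
    · rfl
    · rw [Finsupp.notMem_support_iff.mp h]; simp
  rw [h1]
  exact Finset.sum_le_sum_of_subset_of_nonneg Finset.inter_subset_right
    (fun _ _ _ => sq_nonneg _)

/-- upper `ℓ²` estimate: global tests have `Σ f² ≤ 1` -/
theorem norm_fsum_le_l2 (c : List ℕ →₀ ℝ) :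
    ‖fsum .global c‖ ≤ Real.sqrt (c.sum fun _ a => a ^ 2) := by
  apply norm_le_of_forall_apply _ (Real.sqrt_nonneg _)
  intro τ
  rw [fsum_apply]
  unfold pair Finsupp.sum
  apply Real.abs_le_sqrt
  have h1 := Finset.sum_mul_sq_le_sq_mul_sq c.support (fun s => c s) (fun s => τ.1 s)
  have h2 : ∑ s ∈ c.support, τ.1 s ^ 2 ≤ 1 := τ.2.2 c.support
  have h3 : 0 ≤ ∑ s ∈ c.support, c s ^ 2 := Finset.sum_nonneg (fun _ _ => sq_nonneg _)
  nlinarith

theorem pathPotential_eq_sum_tails (f : List ℕ → ℝ) (s : List ℕ) :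
    pathPotential f s = ∑ u ∈ s.tails.toFinset, f u := by
  induction s with
  | nil => simp [pathPotential]
  | cons a v ih =>
    rw [List.tails_cons, List.toFinset_cons, Finset.sum_insert, pathPotential, ih, add_comm]
    intro h
    rw [List.mem_toFinset, List.mem_tails] at h
    have := h.length_le
    simp at this

theorem sq_pathPotential_le_of_height (n : ℕ) (c : List ℕ →₀ ℝ)
    (hc : ∀ s, n < s.length → c s = 0) (s : List ℕ) :
    (pathPotential c s) ^ 2 ≤ (n + 1) * c.sum fun _ a => a ^ 2 := by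
  classical
  rw [pathPotential_eq_sum_tails]
  set B := s.tails.toFinset.filter (fun u => u.length ≤ n) with hB
  have h1 : ∑ u ∈ s.tails.toFinset, c u = ∑ u ∈ B, c u := by
    rw [hB, Finset.sum_filter]
    apply Finset.sum_congr rfl
    intro u _
    split_ifs with h
    · rfl
    · exact hc u (not_le.mp h)
  rw [h1]
  have h2 : B.card ≤ n + 1 := by
    have : B.card ≤ (Finset.range (n + 1)).card := by
      apply Finset.card_le_card_of_injOn List.length
      · intro u hu
        have hu' := (Finset.mem_filter.mp hu).2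
        simp only [Finset.coe_range, Set.mem_Iio]
        omega
      · intro u hu v hv huv
        have hu' := (Finset.mem_filter.mp hu).1
        have hv' := (Finset.mem_filter.mp hv).1
        rw [List.mem_toFinset, List.mem_tails] at hu' hv'
        exact (List.suffix_of_suffix_length_le hu' hv' huv.le).eq_of_length huv
    simpa using this
  have h3 := sq_sum_le_card_mul_sum_sq (s := B) (f := fun u => c u)
  have h4 := sum_sq_le_finsupp c B
  have h5 : (B.card : ℝ) ≤ n + 1 := by exact_mod_cast h2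
  have h6 : 0 ≤ ∑ u ∈ B, c u ^ 2 := Finset.sum_nonneg (fun _ _ => sq_nonneg _)
  calc (∑ u ∈ B, c u) ^ 2 ≤ B.card * ∑ u ∈ B, c u ^ 2 := h3
    _ ≤ (n + 1) * ∑ u ∈ B, c u ^ 2 := by gcongr
    _ ≤ (n + 1) * c.sum fun _ a => a ^ 2 := by gcongr

/-- lower `ℓ²` estimate on height `≤ n`: `f = c / (√(n+1) ‖c‖₂)` is a global test (a root path meets at
most `n+1` vertices of length `≤ n`; Cauchy–Schwarz). -/
theorem l2_le_norm_fsum (n : ℕ) (c : List ℕ →₀ ℝ) (hc : ∀ s, n < s.length → c s = 0) :
    Real.sqrt (c.sum fun _ a => a ^ 2) ≤ Real.sqrt (n + 1) * ‖fsum .global c‖ := by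
  set S := c.sum fun _ a => a ^ 2 with hS
  have hS0 : 0 ≤ S := Finsupp.sum_nonneg (fun _ _ => sq_nonneg _)
  rcases hS0.eq_or_lt with h0 | h0
  · rw [← h0, Real.sqrt_zero]; positivity
  have hn : (0 : ℝ) < n + 1 := by positivity
  set K := Real.sqrt (n + 1) * Real.sqrt S with hK
  have hKpos : 0 < K := mul_pos (Real.sqrt_pos.mpr hn) (Real.sqrt_pos.mpr h0)
  have hK2 : K ^ 2 = (n + 1) * S := by
    rw [hK, mul_pow, Real.sq_sqrt hn.le, Real.sq_sqrt hS0]
  have htest : IsTest .global (fun u => c u / K) := by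
    constructor
    · intro s
      have e1 : pathPotential (fun u => c u / K) s = (1 / K) * pathPotential c s := by
        have := pathPotential_lin (1 / K) 0 c c s
        rw [zero_mul, add_zero] at this
        rw [← this]
        congr 1
        funext u
        ring
      rw [e1, abs_mul, abs_of_pos (by positivity : 0 < 1 / K)]
      have e2 : |pathPotential c s| ≤ K := by
        apply abs_le_of_sq_le_sq _ hKpos.le
        rw [hK2]
        exact sq_pathPotential_le_of_height n c hc s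
      rw [div_mul_eq_mul_div, one_mul, div_le_one hKpos]
      exact e2
    · intro A
      have e1 : ∑ u ∈ A, (c u / K) ^ 2 = (∑ u ∈ A, c u ^ 2) / K ^ 2 := by
        rw [Finset.sum_div]
        apply Finset.sum_congr rfl
        intro u _
        rw [div_pow]
      rw [e1, div_le_one (by positivity), hK2]
      have := sum_sq_le_finsupp c A
      nlinarith
  obtain ⟨τ, hτ⟩ : ∃ τ : PotentialTest .global, τ.1 = fun u => c u / K := ⟨⟨_, htest⟩, rfl⟩
  have h1 := apply_le_norm (fsum .global c) τ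
  rw [fsum_apply, hτ] at h1
  have h2 : pair (fun u => c u / K) c = S / K := by
    unfold pair
    rw [hS, Finsupp.sum, Finsupp.sum, Finset.sum_div]
    apply Finset.sum_congr rfl
    intro u _
    ring
  rw [h2] at h1
  have h3 : Real.sqrt S = Real.sqrt (n + 1) * (S / K) := by
    rw [hK]
    have e1 : Real.sqrt S * Real.sqrt S = S := Real.mul_self_sqrt hS0
    have e2 : Real.sqrt S ≠ 0 := (Real.sqrt_pos.mpr h0).ne'
    have e3 : Real.sqrt (n + 1 : ℝ) ≠ 0 := (Real.sqrt_pos.mpr hn).ne'
    field_simp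
    nlinarith
  rw [h3]
  gcongr

theorem Xn_induction (n : ℕ) {p : Amb .global → Prop} (hcl : IsClosed {x | p x})
    (hf : ∀ c : List ℕ →₀ ℝ, (∀ s, n < s.length → c s = 0) → p (fsum .global c)) :
    ∀ x ∈ Xn n, p x := by
  intro x hx
  have hx' : x ∈ closure
      (Submodule.span ℝ (coordVector .global '' {s : List ℕ | s.length ≤ n}) : Set (Amb .global)) := hx
  refine closure_minimal ?_ hcl hx'
  intro z hz
  rw [SetLike.mem_coe, Finsupp.mem_span_image_iff_linearCombination] at hz
  obtain ⟨c, hc, rfl⟩ := hz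
  apply hf c
  intro s hs
  by_contra h
  have : s ∈ {s : List ℕ | s.length ≤ n} := hc (Finsupp.mem_support_iff.mpr h)
  simp only [Set.mem_ofPred_eq] at this
  omega

theorem sum_sq_coordFun_le (n : ℕ) (x : Amb .global) (hx : x ∈ Xn n) (B : Finset (List ℕ)) :
    ∑ s ∈ B, (coordFun .global s x) ^ 2 ≤ (n + 1) * ‖x‖ ^ 2 := by
  refine Xn_induction n (p := fun x => ∑ s ∈ B, (coordFun .global s x) ^ 2 ≤ (n + 1) * ‖x‖ ^ 2)
    ?_ ?_ x hx
  · apply isClosed_le
    · exact continuous_finsetSum _ (fun s _ => (coordFun .global s).continuous.pow 2)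
    · exact continuous_const.mul (continuous_norm.pow 2)
  · intro c hc
    simp only [coordFun_global_fsum]
    have h1 := sum_sq_le_finsupp c B
    have h2 := l2_le_norm_fsum n c hc
    have h3 : 0 ≤ c.sum fun _ a => a ^ 2 := Finsupp.sum_nonneg (fun _ _ => sq_nonneg _)
    have h4 : (c.sum fun _ a => a ^ 2) ≤ (Real.sqrt (n + 1) * ‖fsum .global c‖) ^ 2 := by
      calc (c.sum fun _ a => a ^ 2) = (Real.sqrt (c.sum fun _ a => a ^ 2)) ^ 2 :=
            (Real.sq_sqrt h3).symm
        _ ≤ _ := pow_le_pow_left₀ (Real.sqrt_nonneg _) h2 2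
    rw [mul_pow, Real.sq_sqrt (by positivity)] at h4
    linarith

/-- the coordinate map into `ℓ²` -/
noncomputable def psiFun (n : ℕ) (x : ↥(Xn n)) : lp (fun _ : List ℕ => ℝ) 2 :=
  ⟨fun s => coordFun .global s (x : Amb .global), memℓp_gen' (C := (n + 1) * ‖x‖ ^ 2) (by
    intro B
    have := sum_sq_coordFun_le n x x.2 B
    simpa [ENNReal.toReal_ofNat, Real.rpow_ofNat, Real.norm_eq_abs, sq_abs] using this)⟩

theorem psiFun_apply (n : ℕ) (x : ↥(Xn n)) (s : List ℕ) :
    (psiFun n x : List ℕ → ℝ) s = coordFun .global s (x : Amb .global) := rfl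

noncomputable def psiLin (n : ℕ) : ↥(Xn n) →ₗ[ℝ] lp (fun _ : List ℕ => ℝ) 2 where
  toFun := psiFun n
  map_add' x y := by
    ext s
    simp [psiFun_apply]
  map_smul' a x := by
    ext s
    simp [psiFun_apply]

theorem norm_psiLin_le (n : ℕ) (x : ↥(Xn n)) : ‖psiLin n x‖ ≤ Real.sqrt (n + 1) * ‖x‖ := by
  apply lp.norm_le_of_forall_sum_le (by simp) (by positivity)
  intro B
  have := sum_sq_coordFun_le n x x.2 B
  have h2 : (Real.sqrt (n + 1) * ‖x‖) ^ 2 = (n + 1) * ‖x‖ ^ 2 := by
    rw [mul_pow, Real.sq_sqrt (by positivity)]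
  simp only [ENNReal.toReal_ofNat, Real.rpow_ofNat, Real.norm_eq_abs, sq_abs, h2]
  exact this

noncomputable def psi (n : ℕ) : ↥(Xn n) →L[ℝ] lp (fun _ : List ℕ => ℝ) 2 :=
  (psiLin n).mkContinuous (Real.sqrt (n + 1)) (norm_psiLin_le n)

theorem norm_psi_le (n : ℕ) (x : ↥(Xn n)) : ‖psi n x‖ ≤ Real.sqrt (n + 1) * ‖x‖ :=
  norm_psiLin_le n x

theorem norm_le_norm_psi_fsum (n : ℕ) (c : List ℕ →₀ ℝ) (hc : ∀ s, n < s.length → c s = 0) :
    ‖(⟨fsum .global c, fsum_mem_Xn n c hc⟩ : ↥(Xn n))‖ ≤
      ‖psi n ⟨fsum .global c, fsum_mem_Xn n c hc⟩‖ := by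
  have h1 : ‖(⟨fsum .global c, fsum_mem_Xn n c hc⟩ : ↥(Xn n))‖ = ‖fsum .global c‖ := rfl
  rw [h1]
  refine (norm_fsum_le_l2 c).trans ?_
  apply Real.sqrt_le_iff.mpr
  refine ⟨norm_nonneg _, ?_⟩
  have h2 := lp.sum_rpow_le_norm_rpow (p := 2) (by simp)
    (psi n ⟨fsum .global c, fsum_mem_Xn n c hc⟩) c.support
  simp only [ENNReal.toReal_ofNat, Real.rpow_ofNat, Real.norm_eq_abs, sq_abs] at h2
  refine le_trans (le_of_eq ?_) h2
  unfold Finsupp.sum
  apply Finset.sum_congr rfl
  intro s _
  have : (psi n ⟨fsum .global c, fsum_mem_Xn n c hc⟩ : List ℕ → ℝ) s =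
      coordFun .global s (fsum .global c) := rfl
  rw [this, coordFun_global_fsum]

theorem norm_le_norm_psi (n : ℕ) (x : ↥(Xn n)) : ‖x‖ ≤ ‖psi n x‖ := by
  apply le_of_forall_pos_le_add
  intro ε hε
  have hK : 0 < Real.sqrt (n + 1) + 1 := by positivity
  obtain ⟨c, hc, hxc⟩ := exists_fsum_near_Xn (x : Amb .global) x.2 (div_pos hε hK)
  set z : ↥(Xn n) := ⟨fsum .global c, fsum_mem_Xn n c hc⟩ with hz
  have h1 : ‖x - z‖ < ε / (Real.sqrt (n + 1) + 1) := hxc
  have h2 : ‖z‖ ≤ ‖psi n z‖ := norm_le_norm_psi_fsum n c hc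
  have h3 : ‖psi n (z - x)‖ ≤ Real.sqrt (n + 1) * ‖z - x‖ := norm_psi_le n _
  have h4 : ‖psi n z‖ ≤ ‖psi n x‖ + ‖psi n (z - x)‖ := by
    have : psi n z = psi n x + psi n (z - x) := by rw [map_sub]; abel
    rw [this]; exact norm_add_le _ _
  have h5 : ‖x‖ ≤ ‖z‖ + ‖x - z‖ := by
    have : x = z + (x - z) := by abel
    conv_lhs => rw [this]
    exact norm_add_le _ _
  have h6 : ‖z - x‖ = ‖x - z‖ := norm_sub_rev _ _
  have h7 : (Real.sqrt (n + 1) + 1) * ‖x - z‖ ≤ ε := by
    have := mul_le_mul_of_nonneg_left h1.le hK.le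
    rwa [mul_div_cancel₀ _ hK.ne'] at this
  rw [h6] at h3
  nlinarith

/-- `Xₙ` is linearly homeomorphic to a Hilbert space, e.g. `H = lp (fun _ : {s // s.length ≤ n} => ℝ) 2`:
extend `c ↦ fsum c` by density (it is bounded and bounded below by the two estimates), the range is closed
and contains the generators. -/
theorem exists_equiv_hilbert (n : ℕ) :
    ∃ (H : Type) (_ : NormedAddCommGroup H) (_ : InnerProductSpace ℝ H) (_ : CompleteSpace H),
      Nonempty (↥(Xn n) ≃L[ℝ] H) := by
  have hanti : AntilipschitzWith 1 (psi n) :=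
    ContinuousLinearMap.antilipschitz_of_bound _ (fun x => by simpa using norm_le_norm_psi n x)
  have hcl : IsClosed (Set.range (psi n)) := hanti.isClosed_range (psi n).uniformContinuous
  have hc : CompleteSpace (psi n).range := hcl.completeSpace_coe
  exact ⟨↥((psi n).range), inferInstance, inferInstance, hc,
    ⟨(psi n).equivRange hanti.injective hcl⟩⟩

theorem refl_Xn (n : ℕ) : Refl ↥(Xn n) := by
  obtain ⟨H, _, _, _, ⟨e⟩⟩ := exists_equiv_hilbert n
  exact refl_of_equiv e (refl_of_hilbert H)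

/-- **the space of S0166** -/
abbrev ESp : Type := lp (fun n : ℕ => ↥(Xn n)) 2

theorem refl_ESp : Refl ESp := refl_lp_two _ refl_Xn

theorem separable_ESp : TopologicalSpace.SeparableSpace ESp :=
  haveI := separable_Xn
  separable_lp_two _

end Crest.Agent.S0166Aux
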