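import Mathlib
import Crest.Prelude.Def_TreePotentials

/-!
# S0166/S0168, task T6: combinatorics of tests (no functional analysis)

Tests `f : List ℕ → ℝ` correspond to potentials `Φ = pathPotential f`, `f = incr Φ`.
-/

set_option autoImplicit false

namespace Crest.Agent.S0166Aux

open Crest.AnalysisR.TreePotential

/-- increments of a potential -/
def incr (Φ : List ℕ → ℝ) : List ℕ → ℝ
  | [] => Φ []
  | a :: v => Φ (a :: v) - Φ v

theorem pathPotential_incr (Φ : List ℕ → ℝ) : pathPotential (incr Φ) = Φ := by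
  funext s
  induction s with
  | nil => rfl
  | cons a v ih => simp [pathPotential, incr, ih]

/-- closed under taking parents (the empty set is allowed) -/
def SuffixClosed (T : Finset (List ℕ)) : Prop := ∀ (a : ℕ) (v : List ℕ), a :: v ∈ T → v ∈ T

theorem suffixClosed_empty : SuffixClosed ∅ := by
  intro a v h; simp at h

theorem exists_suffixClosed (A : Finset (List ℕ)) : ∃ T, SuffixClosed T ∧ A ⊆ T := by
  classical
  refine ⟨A.biUnion (fun s => s.tails.toFinset), ?_, ?_⟩
  · intro a v h
    simp only [Finset.mem_biUnion, List.mem_toFinset, List.mem_tails] at h ⊢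
    obtain ⟨s, hs, hsuf⟩ := h
    exact ⟨s, hs, (List.suffix_cons a v).trans hsuf⟩
  · intro s hs
    simp only [Finset.mem_biUnion, List.mem_toFinset, List.mem_tails]
    exact ⟨s, hs, List.suffix_refl s⟩

/-- pairing of a coefficient family with a finitely supported array -/
noncomputable def pair (f : List ℕ → ℝ) (c : List ℕ →₀ ℝ) : ℝ := c.sum fun s a => a * f s

theorem pair_add (f : List ℕ → ℝ) (c d : List ℕ →₀ ℝ) : pair f (c + d) = pair f c + pair f d := by
  unfold pair
  exact Finsupp.sum_add_index' (fun _ => by simp) (fun _ _ _ => by ring)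

theorem pair_smul (f : List ℕ → ℝ) (a : ℝ) (c : List ℕ →₀ ℝ) : pair f (a • c) = a * pair f c := by
  unfold pair
  rw [Finsupp.sum_smul_index (fun _ => by simp), Finsupp.mul_sum]
  simp [mul_assoc]

theorem pair_single (f : List ℕ → ℝ) (s : List ℕ) (a : ℝ) :
    pair f (Finsupp.single s a) = a * f s := by
  unfold pair
  exact Finsupp.sum_single_index (by simp)

theorem pathPotential_lin (a b : ℝ) (f g : List ℕ → ℝ) (s : List ℕ) :
    pathPotential (fun u => a * f u + b * g u) s = a * pathPotential f s + b * pathPotential g s := by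
  induction s with
  | nil => rfl
  | cons x v ih => simp only [pathPotential, ih]; ring

theorem pathPotential_zero (s : List ℕ) : pathPotential (fun _ => 0) s = 0 := by
  induction s with
  | nil => rfl
  | cons x v ih => simp [pathPotential, ih]

theorem pathPotential_neg (f : List ℕ → ℝ) (s : List ℕ) :
    pathPotential (fun u => - f u) s = - pathPotential f s := by
  induction s with
  | nil => rfl
  | cons x v ih => simp only [pathPotential, ih]; ring

theorem isTest_zero (m : PotentialModel) : IsTest m (fun _ => 0) := by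
  refine ⟨fun s => by simp [pathPotential_zero], ?_⟩
  cases m <;> simp [ExtraCondition]

theorem isTest_neg {m : PotentialModel} {f : List ℕ → ℝ} (hf : IsTest m f) :
    IsTest m (fun s => - f s) := by
  refine ⟨fun s => by rw [pathPotential_neg, abs_neg]; exact hf.1 s, ?_⟩
  have h2 := hf.2
  cases m
  · exact ⟨by simp [h2.1], fun r A => by simpa using h2.2 r A⟩
  · exact fun r A => by simpa using h2 r A
  · refine ⟨?_, fun A hA => by simpa using h2.2 A hA⟩
    have : Function.support (fun s => - f s) = Function.support f := by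
      ext s; simp
    rw [this]; exact h2.1
  · exact fun A => by simpa using h2 A

theorem sum_indicator_sq_le {ι : Type} (A : Finset ι) (φ : ι → List ℕ)
    (hφ : Function.Injective φ) (s : List ℕ) :
    ∑ i ∈ A, (if φ i = s then (1 : ℝ) else 0) ^ 2 ≤ 1 := by
  classical
  have h1 : ∀ i ∈ A, (if φ i = s then (1 : ℝ) else 0) ^ 2 = if φ i = s then 1 else 0 := by
    intro i _; split_ifs <;> simp
  rw [Finset.sum_congr rfl h1, Finset.sum_boole]
  have : (A.filter (fun i => φ i = s)).card ≤ 1 := by
    rw [Finset.card_le_one]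
    intro a ha b hb
    simp only [Finset.mem_filter] at ha hb
    exact hφ (ha.2.trans hb.2.symm)
  exact_mod_cast this

theorem pathPotential_indicator (s u : List ℕ) :
    pathPotential (fun v => if v = s then (1 : ℝ) else 0) u = if s <:+ u then 1 else 0 := by
  induction u with
  | nil =>
    simp only [pathPotential, List.suffix_nil]
    by_cases h : s = []
    · simp [h]
    · simp [h, Ne.symm h]
  | cons a v ih =>
    simp only [pathPotential, ih, List.suffix_cons_iff]
    by_cases h1 : s = a :: v
    · have h2 : ¬ (s <:+ v) := by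
        intro h
        have := h.length_le
        rw [h1] at this
        simp at this
      simp [h1, h2] 
      intro h
      have := h.length_le
      simp at this
    · have h1' : ¬ (a :: v = s) := fun h => h1 h.symm
      simp [h1, h1']

theorem extra_indicator (m : PotentialModel) (s : List ℕ)
    (hs : m = .rootlessSibling → s ≠ []) :
    ExtraCondition m (fun u => if u = s then (1 : ℝ) else 0) := by
  have hinj : ∀ r : List ℕ, Function.Injective (fun n : ℕ => n :: r) := by
    intro r a b h
    simpa using h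
  cases m
  · refine ⟨?_, fun r A => sum_indicator_sq_le A (fun n => n :: r) (hinj r) s⟩
    have := hs rfl
    simp [Ne.symm this]
  · exact fun r A => sum_indicator_sq_le A (fun n => n :: r) (hinj r) s
  · refine ⟨?_, fun A _ => sum_indicator_sq_le A id Function.injective_id s⟩
    apply Set.Finite.subset (Set.finite_singleton s)
    intro u hu
    simp only [Function.mem_support, ne_eq, ite_eq_right_iff, one_ne_zero, imp_false,
      not_not] at hu
    exact hu
  · exact fun A => sum_indicator_sq_le A id Function.injective_id s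

theorem isTest_indicator (m : PotentialModel) (s : List ℕ)
    (hs : m = .rootlessSibling → s ≠ []) :
    IsTest m (fun u => if u = s then 1 else 0) := by
  refine ⟨fun u => ?_, extra_indicator m s hs⟩
  rw [pathPotential_indicator]
  split_ifs <;> simp

/-- the indicator of a non-root vertex is a test in all four models (potentials are `0` or `1`). -/
theorem isTest_single (m : PotentialModel) (s : List ℕ) (hs : s ≠ []) :
    IsTest m (fun u => if u = s then 1 else 0) :=
  isTest_indicator m s (fun _ => hs)

/-- the indicator of the root is a test except in the rootless model -/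
theorem isTest_single_root (m : PotentialModel) (hm : m ≠ .rootlessSibling) :
    IsTest m (fun u => if u = [] then 1 else 0) :=
  isTest_indicator m [] (fun h => absurd h hm)

theorem isTest_root_eq_zero {f : List ℕ → ℝ} (hf : IsTest .rootlessSibling f) : f [] = 0 := hf.2.1

/-- in every model the squares over a finite set of siblings sum to at most one -/
theorem sum_sq_siblings_le {m : PotentialModel} {f : List ℕ → ℝ} (hf : IsTest m f)
    (r : List ℕ) (A : Finset ℕ) : ∑ n ∈ A, f (n :: r) ^ 2 ≤ 1 := by
  classical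
  have hinj : Function.Injective (fun n : ℕ => n :: r) := by
    intro a b h
    simpa using h
  have himg : ∑ u ∈ A.image (fun n : ℕ => n :: r), f u ^ 2 = ∑ n ∈ A, f (n :: r) ^ 2 :=
    Finset.sum_image (fun a _ b _ h => hinj h)
  have h2 := hf.2
  cases m
  · exact h2.2 r A
  · exact h2 r A
  · rw [← himg]
    apply h2.2
    intro u hu v hv huv hsuf
    simp only [Finset.mem_image] at hu hv
    obtain ⟨a, _, rfl⟩ := hu
    obtain ⟨b, _, rfl⟩ := hv
    exact huv (hsuf.eq_of_length (by simp))
  · rw [← himg]
    exact h2 _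

theorem sum_siblings_le {m : PotentialModel} {f : List ℕ → ℝ} (hf : IsTest m f)
    (r : List ℕ) (A : Finset ℕ) : ∑ n ∈ A, f (n :: r) ≤ Real.sqrt A.card := by
  apply Real.le_sqrt_of_sq_le
  have h1 := sq_sum_le_card_mul_sum_sq (s := A) (f := fun n => f (n :: r))
  have h2 := sum_sq_siblings_le hf r A
  have h3 : (0 : ℝ) ≤ A.card := Nat.cast_nonneg _
  nlinarith

/-! ### the combination lemma -/

/-- clipping to `[-1, 1]` -/
noncomputable def clip (x : ℝ) : ℝ := max (-1) (min 1 x)

theorem abs_clip_le (x : ℝ) : |clip x| ≤ 1 := by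
  unfold clip
  rw [abs_le]
  constructor
  · exact le_max_left _ _
  · exact max_le (by norm_num) (min_le_left _ _)

theorem clip_of_abs_le {x : ℝ} (hx : |x| ≤ 1) : clip x = x := by
  unfold clip
  rw [abs_le] at hx
  rw [min_eq_right hx.2, max_eq_right hx.1]

theorem clip_zero : clip 0 = 0 := clip_of_abs_le (by simp)

theorem abs_clip_sub_le (x y : ℝ) : |clip x - clip y| ≤ |x - y| := by
  unfold clip
  rw [abs_le]
  rcases le_total x y with h | h
  · rw [abs_of_nonpos (by linarith)]
    constructor <;>
    · simp only [max_def, min_def]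
      split_ifs <;> linarith
  · rw [abs_of_nonneg (by linarith)]
    constructor <;>
    · simp only [max_def, min_def]
      split_ifs <;> linarith

theorem abs_coclip_sub_le (x y : ℝ) : |(x - clip x) - (y - clip y)| ≤ |x - y| := by
  unfold clip
  rw [abs_le]
  rcases le_total x y with h | h
  · rw [abs_of_nonpos (by linarith)]
    constructor <;>
    · simp only [max_def, min_def]
      split_ifs <;> linarith
  · rw [abs_of_nonneg (by linarith)]
    constructor <;>
    · simp only [max_def, min_def]
      split_ifs <;> linarith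

/-- the potential bound for `g₂` -/
theorem abs_second_potential_le {p q : ℝ} (hp : |p| ≤ 1) (hq : |q| ≤ 2) :
    |p - ((p + q) - clip (p + q))| ≤ 1 := by
  unfold clip
  rw [abs_le] at hp hq ⊢
  constructor <;>
  · simp only [max_def, min_def]
    split_ifs <;> linarith [hp.1, hp.2, hq.1, hq.2]

section Restrict

variable {T : Finset (List ℕ)}

/-- on a suffix closed set the potential of the restriction is the potential -/
theorem pathPotential_restrict_of_mem (hT : SuffixClosed T) (f : List ℕ → ℝ) :
    ∀ s ∈ T, pathPotential (fun u => if u ∈ T then f u else 0) s = pathPotential f s := by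
  intro s
  induction s with
  | nil => intro hs; simp [pathPotential, hs]
  | cons a v ih =>
    intro hs
    simp only [pathPotential, ih (hT a v hs), hs, if_true]

theorem pathPotential_corestrict_of_mem (hT : SuffixClosed T) (f : List ℕ → ℝ) :
    ∀ s ∈ T, pathPotential (fun u => if u ∈ T then 0 else f u) s = 0 := by
  intro s
  induction s with
  | nil => intro hs; simp [pathPotential, hs]
  | cons a v ih =>
    intro hs
    simp only [pathPotential, ih (hT a v hs), hs, if_true, add_zero]

theorem abs_pathPotential_restrict_le (hT : SuffixClosed T) {f : List ℕ → ℝ}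
    (hf : ∀ s, |pathPotential f s| ≤ 1) (s : List ℕ) :
    |pathPotential (fun u => if u ∈ T then f u else 0) s| ≤ 1 := by
  induction s with
  | nil =>
    by_cases hs : ([] : List ℕ) ∈ T
    · rw [pathPotential_restrict_of_mem hT f _ hs]; exact hf _
    · simp [pathPotential, hs]
  | cons a v ih =>
    by_cases hs : (a :: v) ∈ T
    · rw [pathPotential_restrict_of_mem hT f _ hs]; exact hf _
    · simpa [pathPotential, hs] using ih

theorem abs_pathPotential_corestrict_le (hT : SuffixClosed T) {f : List ℕ → ℝ}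
    (hf : ∀ s, |pathPotential f s| ≤ 1) (s : List ℕ) :
    |pathPotential (fun u => if u ∈ T then 0 else f u) s| ≤ 2 := by
  have h1 : pathPotential (fun u => if u ∈ T then 0 else f u) s =
      pathPotential f s - pathPotential (fun u => if u ∈ T then f u else 0) s := by
    have := pathPotential_lin 1 (-1) f (fun u => if u ∈ T then f u else 0) s
    have h2 : (fun u => 1 * f u + -1 * (if u ∈ T then f u else 0)) =
        (fun u => if u ∈ T then 0 else f u) := by
      funext u; split_ifs <;> ring
    rw [h2] at this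
    rw [this]; ring
  rw [h1]
  have h3 := hf s
  have h4 := abs_pathPotential_restrict_le hT hf s
  rw [abs_le] at h3 h4 ⊢
  constructor <;> linarith [h3.1, h3.2, h4.1, h4.2]

end Restrict

theorem mix_sum_le {ι : Type} {T : Finset (List ℕ)} {f h g : List ℕ → ℝ} {α β : ℝ}
    (hab : α ^ 2 + β ^ 2 ≤ 1)
    (h1 : ∀ s ∈ T, g s = α * f s) (h2 : ∀ s ∉ T, |g s| ≤ β * |h s|)
    (A : Finset ι) (φ : ι → List ℕ)
    (hf : ∀ A' ⊆ A, ∑ i ∈ A', f (φ i) ^ 2 ≤ 1) (hh : ∀ A' ⊆ A, ∑ i ∈ A', h (φ i) ^ 2 ≤ 1) :
    ∑ i ∈ A, g (φ i) ^ 2 ≤ 1 := by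
  classical
  rw [← Finset.sum_filter_add_sum_filter_not A (fun i => φ i ∈ T)]
  have e1 : ∑ i ∈ A.filter (fun i => φ i ∈ T), g (φ i) ^ 2 ≤ α ^ 2 := by
    have : ∑ i ∈ A.filter (fun i => φ i ∈ T), g (φ i) ^ 2 =
        α ^ 2 * ∑ i ∈ A.filter (fun i => φ i ∈ T), f (φ i) ^ 2 := by
      rw [Finset.mul_sum]
      apply Finset.sum_congr rfl
      intro i hi
      rw [h1 _ (Finset.mem_filter.mp hi).2]; ring
    rw [this]
    have h3 := hf _ (Finset.filter_subset (fun i => φ i ∈ T) A)
    nlinarith [sq_nonneg α]
  have e2 : ∑ i ∈ A.filter (fun i => ¬ φ i ∈ T), g (φ i) ^ 2 ≤ β ^ 2 := by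
    have : ∑ i ∈ A.filter (fun i => ¬ φ i ∈ T), g (φ i) ^ 2 ≤
        β ^ 2 * ∑ i ∈ A.filter (fun i => ¬ φ i ∈ T), h (φ i) ^ 2 := by
      rw [Finset.mul_sum]
      apply Finset.sum_le_sum
      intro i hi
      have h4 := h2 _ (Finset.mem_filter.mp hi).2
      have h5 : g (φ i) ^ 2 = |g (φ i)| ^ 2 := (sq_abs _).symm
      have h6 : β ^ 2 * h (φ i) ^ 2 = (β * |h (φ i)|) ^ 2 := by
        rw [mul_pow, sq_abs]
      rw [h5, h6]
      exact pow_le_pow_left₀ (abs_nonneg _) h4 2
    have h3 := hh _ (Finset.filter_subset (fun i => ¬ φ i ∈ T) A)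
    nlinarith [sq_nonneg β]
  linarith

/-- a family which is `α f` on `T`, dominated by `β |h|` off `T`, with potentials bounded by one, is a test. -/
theorem isTest_of_mix (m : PotentialModel) {f h g : List ℕ → ℝ} (hf : IsTest m f)
    (hh : IsTest m h) {T : Finset (List ℕ)} {α β : ℝ} (hab : α ^ 2 + β ^ 2 ≤ 1)
    (h1 : ∀ s ∈ T, g s = α * f s) (h2 : ∀ s ∉ T, |g s| ≤ β * |h s|)
    (h3 : ∀ s, |pathPotential g s| ≤ 1) : IsTest m g := by
  classical
  refine ⟨h3, ?_⟩
  have hf2 := hf.2
  have hh2 := hh.2
  cases m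
  · refine ⟨?_, fun r A => mix_sum_le hab h1 h2 A (fun n => n :: r) (fun A' _ => hf2.2 r A')
      (fun A' _ => hh2.2 r A')⟩
    by_cases h0 : ([] : List ℕ) ∈ T
    · rw [h1 _ h0, hf2.1, mul_zero]
    · have := h2 _ h0
      rw [hh2.1, abs_zero, mul_zero] at this
      exact abs_eq_zero.mp (le_antisymm this (abs_nonneg _))
  · exact fun r A => mix_sum_le hab h1 h2 A (fun n => n :: r) (fun A' _ => hf2 r A')
      (fun A' _ => hh2 r A')
  · refine ⟨?_, fun A hA => mix_sum_le hab h1 h2 A id
      (fun A' hA' => hf2.2 A' (fun u hu v hv => hA u (hA' hu) v (hA' hv)))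
      (fun A' hA' => hh2.2 A' (fun u hu v hv => hA u (hA' hu) v (hA' hv)))⟩
    apply Set.Finite.subset (T.finite_toSet.union hh2.1)
    intro u hu
    by_cases hu' : u ∈ T
    · exact Or.inl hu'
    · right
      intro h0
      have := h2 _ hu'
      rw [h0, abs_zero, mul_zero] at this
      exact hu (abs_eq_zero.mp (le_antisymm this (abs_nonneg _)))
  · exact fun A => mix_sum_le hab h1 h2 A id (fun A' _ => hf2 A') (fun A' _ => hh2 A')

/-- **Combination lemma (K3).**  Put `F₀ = f·1_T`, `H₀ = h·1_{Tᶜ}`, `G = pathPotential (α F₀ + β H₀)`,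
`clip x = max (-1) (min 1 x)`; `g₁ = incr (clip ∘ G)`,
`g₂ = incr (pathPotential (α F₀) - (G - clip ∘ G))`.
* on `T` (suffix closed): `G = α · pathPotential f`, `|G| ≤ 1`, no clipping: `g₁ = g₂ = α f`;
* `g₁ - g₂ = incr (G - pathPotential (α F₀)) = β H₀`;
* potentials: `|clip| ≤ 1`; for `g₂`: with `A = pathPotential F₀ s` (`|A| ≤ 1`, it is `0` or a value of
  `pathPotential f` on `T`), `ψ = pathPotential H₀ s = pathPotential h s - pathPotential (h·1_T) s`
  (`|ψ| ≤ 2`): if `G > 1` the potential is `1 - βψ ∈ [-1, 1]`, if `G < -1` it is `-1 - βψ`, else `αA`;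
* off `T`: `|g₁ s|, |g₂ s| ≤ β |h s|` because `clip` and `id - clip` are `1`-Lipschitz; so each extra
  condition (sibling sums, antichain sums, global sums, finite support, root value) follows from
  `α² + β² ≤ 1`, splitting the finite set into its part in `T` and its part off `T`. -/
theorem comb (m : PotentialModel) {f h : List ℕ → ℝ} (hf : IsTest m f) (hh : IsTest m h)
    {T : Finset (List ℕ)} (hT : SuffixClosed T) {α β : ℝ} (hα : 0 ≤ α) (hβ : 0 ≤ β)
    (hab : α ^ 2 + β ^ 2 ≤ 1) :
    ∃ g₁ g₂ : List ℕ → ℝ, IsTest m g₁ ∧ IsTest m g₂ ∧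
      (∀ s ∈ T, g₁ s = α * f s ∧ g₂ s = α * f s) ∧ ∀ s ∉ T, g₁ s - g₂ s = β * h s := by
  classical
  have hα1 : α ≤ 1 := by nlinarith [sq_nonneg β]
  have hβ1 : β ≤ 1 := by nlinarith [sq_nonneg α]
  set A : List ℕ → ℝ := pathPotential (fun u => if u ∈ T then f u else 0) with hA
  set Ψ : List ℕ → ℝ := pathPotential (fun u => if u ∈ T then 0 else h u) with hΨ
  -- recursion for `A`, `Ψ`
  have hA0 : A [] = if ([] : List ℕ) ∈ T then f [] else 0 := rfl
  have hAc : ∀ a v, A (a :: v) = A v + if (a :: v) ∈ T then f (a :: v) else 0 := fun a v => rfl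
  have hΨ0 : Ψ [] = if ([] : List ℕ) ∈ T then 0 else h [] := rfl
  have hΨc : ∀ a v, Ψ (a :: v) = Ψ v + if (a :: v) ∈ T then 0 else h (a :: v) := fun a v => rfl
  have hAb : ∀ s, |α * A s| ≤ 1 := by
    intro s
    rw [abs_mul, abs_of_nonneg hα]
    have := abs_pathPotential_restrict_le hT hf.1 s
    calc α * |A s| ≤ 1 * 1 := mul_le_mul hα1 this (abs_nonneg _) (by norm_num)
      _ = 1 := by norm_num
  have hΨb : ∀ s, |β * Ψ s| ≤ 2 := by
    intro s
    rw [abs_mul, abs_of_nonneg hβ]
    have := abs_pathPotential_corestrict_le hT hh.1 s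
    calc β * |Ψ s| ≤ 1 * 2 := mul_le_mul hβ1 this (abs_nonneg _) (by norm_num)
      _ = 2 := by norm_num
  have hΨT : ∀ s ∈ T, Ψ s = 0 := pathPotential_corestrict_of_mem hT h
  set G : List ℕ → ℝ := fun s => α * A s + β * Ψ s with hG
  have hGT : ∀ s ∈ T, clip (G s) = G s := by
    intro s hs
    apply clip_of_abs_le
    simp only [hG, hΨT s hs, mul_zero, add_zero]
    exact hAb s
  set Φ₁ : List ℕ → ℝ := fun s => clip (G s) with hΦ₁
  set Φ₂ : List ℕ → ℝ := fun s => α * A s - (G s - clip (G s)) with hΦ₂
  have hon : ∀ s ∈ T, incr Φ₁ s = α * f s ∧ incr Φ₂ s = α * f s := by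
    intro s hs
    cases s with
    | nil =>
      simp only [incr, hΦ₁, hΦ₂, hGT _ hs]
      simp only [hG, hΨT _ hs, hA0, hs, if_true]
      constructor <;> ring
    | cons a v =>
      have hv := hT a v hs
      simp only [incr, hΦ₁, hΦ₂, hGT _ hs, hGT _ hv]
      simp only [hG, hΨT _ hs, hΨT _ hv, hAc, hs, if_true]
      constructor <;> ring
  have hoff : ∀ s ∉ T, |incr Φ₁ s| ≤ β * |h s| ∧ |incr Φ₂ s| ≤ β * |h s| ∧
      incr Φ₁ s - incr Φ₂ s = β * h s := by
    intro s hs
    cases s with
    | nil =>
      have hG0 : G [] = β * h [] := by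
        simp only [hG, hA0, hΨ0, hs, if_false]; ring
      have hA00 : A [] = 0 := by simp only [hA0, hs, if_false]
      simp only [incr, hΦ₁, hΦ₂, hG0, hA00]
      have e1 := abs_clip_sub_le (β * h []) 0
      have e2 := abs_coclip_sub_le (β * h []) 0
      rw [clip_zero] at e1 e2
      simp only [sub_zero] at e1 e2
      rw [abs_mul, abs_of_nonneg hβ] at e1 e2
      refine ⟨e1, ?_, by ring⟩
      have : α * 0 - (β * h [] - clip (β * h [])) = - (β * h [] - clip (β * h [])) := by ring
      rw [this, abs_neg]
      exact e2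
    | cons a v =>
      have hGc : G (a :: v) - G v = β * h (a :: v) := by
        simp only [hG, hAc, hΨc, hs, if_false]; ring
      have hAcc : A (a :: v) = A v := by simp only [hAc, hs, if_false, add_zero]
      simp only [incr, hΦ₁, hΦ₂, hAcc]
      have e1 := abs_clip_sub_le (G (a :: v)) (G v)
      have e2 := abs_coclip_sub_le (G (a :: v)) (G v)
      rw [hGc, abs_mul, abs_of_nonneg hβ] at e1 e2
      refine ⟨e1, ?_, by linarith⟩
      have : α * A v - (G (a :: v) - clip (G (a :: v))) - (α * A v - (G v - clip (G v))) =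
          - ((G (a :: v) - clip (G (a :: v))) - (G v - clip (G v))) := by ring
      rw [this, abs_neg]
      exact e2
  refine ⟨incr Φ₁, incr Φ₂, ?_, ?_, hon, fun s hs => (hoff s hs).2.2⟩
  · apply isTest_of_mix m hf hh hab (fun s hs => (hon s hs).1) (fun s hs => (hoff s hs).1)
    intro s
    rw [pathPotential_incr]
    exact abs_clip_le _
  · apply isTest_of_mix m hf hh hab (fun s hs => (hon s hs).2) (fun s hs => (hoff s hs).2.1)
    intro s
    rw [pathPotential_incr]
    exact abs_second_potential_le (hAb s) (hΨb s)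

theorem pair_congr {f g : List ℕ → ℝ} (c : List ℕ →₀ ℝ) (h : ∀ s, c s ≠ 0 → f s = g s) :
    pair f c = pair g c := by
  unfold pair
  apply Finsupp.sum_congr
  intro s hs
  rw [h s (Finsupp.mem_support_iff.mp hs)]

theorem pair_lin_left (a b : ℝ) (f g : List ℕ → ℝ) (c : List ℕ →₀ ℝ) :
    pair (fun s => a * f s + b * g s) c = a * pair f c + b * pair g c := by
  unfold pair
  rw [Finsupp.mul_sum, Finsupp.mul_sum, ← Finsupp.sum_add]
  apply Finsupp.sum_congr
  intro s _
  ring

/-- scaled pairing form of `comb`, used blockwise in the `ℓ²`-sum: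
`w² = A² + B²` (apply `comb` with `α = A/w`, `β = B/w`; `w = 0` is trivial). -/
theorem comb_pair (m : PotentialModel) {f h : List ℕ → ℝ} (hf : IsTest m f) (hh : IsTest m h)
    {T : Finset (List ℕ)} (hT : SuffixClosed T) (c d : List ℕ →₀ ℝ)
    (hc : ∀ s ∉ T, c s = 0) (hd : ∀ s ∈ T, d s = 0) (t : ℝ)
    {A B w : ℝ} (hA : 0 ≤ A) (hB : 0 ≤ B) (hw : 0 ≤ w) (hABw : A ^ 2 + B ^ 2 = w ^ 2) :
    ∃ g₁ g₂ : List ℕ → ℝ, IsTest m g₁ ∧ IsTest m g₂ ∧
      w * (pair g₁ (c + t • d) + pair g₂ (c - t • d)) = 2 * A * pair f c + t * B * pair h d := by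
  rcases hw.eq_or_lt with hw0 | hw0
  · have hA0 : A = 0 := by nlinarith [sq_nonneg A, sq_nonneg B]
    have hB0 : B = 0 := by nlinarith [sq_nonneg A, sq_nonneg B]
    refine ⟨fun _ => 0, fun _ => 0, isTest_zero m, isTest_zero m, ?_⟩
    rw [← hw0, hA0, hB0]; ring
  · have hab : (A / w) ^ 2 + (B / w) ^ 2 ≤ 1 := by
      rw [div_pow, div_pow, ← add_div, hABw, div_self (by positivity)]
    obtain ⟨g₁, g₂, h1, h2, hon, hoff⟩ :=
      comb m hf hh hT (div_nonneg hA hw) (div_nonneg hB hw) hab
    refine ⟨g₁, g₂, h1, h2, ?_⟩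
    have e1 : pair g₁ c = (A / w) * pair f c := by
      have := pair_lin_left (A / w) 0 f f c
      rw [zero_mul, add_zero] at this
      rw [← this]
      apply pair_congr
      intro s hs
      have hsT : s ∈ T := by
        by_contra hsT
        exact hs (hc s hsT)
      rw [(hon s hsT).1]; ring
    have e2 : pair g₂ c = (A / w) * pair f c := by
      have := pair_lin_left (A / w) 0 f f c
      rw [zero_mul, add_zero] at this
      rw [← this]
      apply pair_congr
      intro s hs
      have hsT : s ∈ T := by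
        by_contra hsT
        exact hs (hc s hsT)
      rw [(hon s hsT).2]; ring
    have e3 : pair g₁ d - pair g₂ d = (B / w) * pair h d := by
      have h3 := pair_lin_left 1 (-1) g₁ g₂ d
      have h4 := pair_lin_left (B / w) 0 h h d
      rw [zero_mul, add_zero] at h4
      have h5 : pair (fun s => 1 * g₁ s + -1 * g₂ s) d =
          pair (fun s => B / w * h s + 0 * h s) d := by
        apply pair_congr
        intro s hs
        have hsT : s ∉ T := fun hsT => hs (hd s hsT)
        have := hoff s hsT
        linarith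
      rw [h3, h4] at h5
      linarith
    have e4 : c - t • d = c + (-t) • d := by
      rw [neg_smul, sub_eq_add_neg]
    rw [e4, pair_add, pair_add, pair_smul, pair_smul, e1, e2]
    have e5 : pair g₁ d = pair g₂ d + (B / w) * pair h d := by linarith
    rw [e5]
    field_simp
    ring

end Crest.Agent.S0166Aux
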